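import Mathlib
import Crest.Prelude.Def_BernoulliConv

/-!
# S0137 (row 104), module M1: structure of quartic Salem numbers below 2.
-/

set_option autoImplicit false

namespace Crest.Agent.Lib.Salem

open Polynomial

/-- Structure of quartic Salem numbers `β < 2`: the minimal polynomial is
`(x² - e₁ x + 1)(x² - e₂ x + 1)`, with `e₁ = β + β⁻¹`, `e₂ = 2 Re ω`, and `(e₁ + e₂, e₁ e₂)` is
`(1, -3)` or `(2, -1)`. -/
theorem salem_structure (β : ℝ) (hβ : Crest.AnalysisR.IsQuarticSalem β) (hβ₂ : β < 2) :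
    ∃ ω : ℂ, ‖ω‖ = 1 ∧ ((β + β⁻¹ + 2 * ω.re = 1 ∧ (β + β⁻¹) * (2 * ω.re) = -3) ∨
      (β + β⁻¹ + 2 * ω.re = 2 ∧ (β + β⁻¹) * (2 * ω.re) = -1)) := by
  obtain ⟨h1, hint, hdeg, hinv, hroots⟩ := hβ
  have hintQ : IsIntegral ℚ β := hint.tower_top
  have hmonic : (minpoly ℚ β).Monic := minpoly.monic hintQ
  have hirr : Irreducible (minpoly ℚ β) := minpoly.irreducible hintQ
  have hsep : (minpoly ℚ β).Separable := hirr.separable
  have hmap : minpoly ℚ β = (minpoly ℤ β).map (algebraMap ℤ ℚ) :=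
    minpoly.isIntegrallyClosed_eq_field_fractions' ℚ hint
  -- integer coefficients
  obtain ⟨a3, ha3⟩ : ∃ a : ℤ, (minpoly ℚ β).coeff 3 = (a : ℚ) :=
    ⟨(minpoly ℤ β).coeff 3, by rw [hmap, coeff_map]; simp⟩
  obtain ⟨a2, ha2⟩ : ∃ a : ℤ, (minpoly ℚ β).coeff 2 = (a : ℚ) :=
    ⟨(minpoly ℤ β).coeff 2, by rw [hmap, coeff_map]; simp⟩
  obtain ⟨a1, ha1⟩ : ∃ a : ℤ, (minpoly ℚ β).coeff 1 = (a : ℚ) :=
    ⟨(minpoly ℤ β).coeff 1, by rw [hmap, coeff_map]; simp⟩
  obtain ⟨a0, ha0⟩ : ∃ a : ℤ, (minpoly ℚ β).coeff 0 = (a : ℚ) :=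
    ⟨(minpoly ℤ β).coeff 0, by rw [hmap, coeff_map]; simp⟩
  have ha4 : (minpoly ℚ β).coeff 4 = 1 := by
    have := hmonic.coeff_natDegree
    rwa [hdeg] at this
  have hPexp : minpoly ℚ β = X ^ 4 + C (a3 : ℚ) * X ^ 3 + C (a2 : ℚ) * X ^ 2 + C (a1 : ℚ) * X
      + C (a0 : ℚ) := by
    conv_lhs => rw [(minpoly ℚ β).as_sum_range_C_mul_X_pow, hdeg]
    simp only [Finset.sum_range_succ, Finset.sum_range_zero, ha0, ha1, ha2, ha3, ha4]
    simp
    ring
  -- real evaluation
  have hFR : ∀ x : ℝ, aeval x (minpoly ℚ β) = x ^ 4 + a3 * x ^ 3 + a2 * x ^ 2 + a1 * x + a0 := by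
    intro x
    rw [hPexp]
    simp [map_add, map_mul]
  have hFC : ∀ x : ℂ, aeval x (minpoly ℚ β) = x ^ 4 + a3 * x ^ 3 + a2 * x ^ 2 + a1 * x + a0 := by
    intro x
    rw [hPexp]
    simp [map_add, map_mul]
  have hF'R : ∀ x : ℝ, aeval x (derivative (minpoly ℚ β)) =
      4 * x ^ 3 + 3 * a3 * x ^ 2 + 2 * a2 * x + a1 := by
    intro x
    rw [hPexp]
    simp only [derivative_add, derivative_mul, derivative_C, derivative_X_pow, derivative_X,
      map_add, map_mul, map_pow, aeval_C, aeval_X, map_zero, map_one, zero_mul, add_zero, zero_add,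
      mul_one]
    simp only [Nat.cast_ofNat, Nat.add_one_sub_one, eq_ratCast, Rat.cast_intCast, pow_one]
    simp
    ring
  have hβ0 : β ≠ 0 := by linarith
  have hββ : β * β⁻¹ = 1 := mul_inv_cancel₀ hβ0
  have hβinv_lt : β⁻¹ < 1 := inv_lt_one_of_one_lt₀ h1
  have hβinv_pos : 0 < β⁻¹ := inv_pos.mpr (by linarith)
  have hFβ : β ^ 4 + a3 * β ^ 3 + a2 * β ^ 2 + a1 * β + a0 = 0 := by
    rw [← hFR]; exact minpoly.aeval ℚ β
  have hFβi : β⁻¹ ^ 4 + a3 * β⁻¹ ^ 3 + a2 * β⁻¹ ^ 2 + a1 * β⁻¹ + a0 = 0 := by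
    rw [← hFR]; exact hinv
  -- division
  set e1 : ℝ := β + β⁻¹ with he1
  set u : ℝ := a3 + e1 with hu
  set w : ℝ := a2 - 1 + e1 * u with hw
  have hq1 : β ^ 2 - e1 * β + 1 = 0 := by
    rw [he1]; linear_combination -hββ
  have hq2 : β⁻¹ ^ 2 - e1 * β⁻¹ + 1 = 0 := by
    rw [he1]; linear_combination -hββ
  have hid : ∀ x : ℝ, x ^ 4 + a3 * x ^ 3 + a2 * x ^ 2 + a1 * x + a0 =
      (x ^ 2 - e1 * x + 1) * (x ^ 2 + u * x + w) + (((a1 : ℝ) + e1 * w - u) * x + ((a0 : ℝ) - w)) := by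
    intro x
    have h3 : (a3 : ℝ) = u - e1 := by rw [hu]; ring
    have h2 : (a2 : ℝ) = w + 1 - e1 * u := by rw [hw]; ring
    rw [h3, h2]; ring
  have hrem1 : ((a1 : ℝ) + e1 * w - u) * β + ((a0 : ℝ) - w) = 0 := by
    have := hid β
    rw [hFβ, hq1] at this
    linarith
  have hrem2 : ((a1 : ℝ) + e1 * w - u) * β⁻¹ + ((a0 : ℝ) - w) = 0 := by
    have := hid β⁻¹
    rw [hFβi, hq2] at this
    linarith
  have hne : β - β⁻¹ ≠ 0 := by
    have : 0 < β - β⁻¹ := by linarith
    exact this.ne'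
  have hA : (a1 : ℝ) + e1 * w - u = 0 := by
    have : ((a1 : ℝ) + e1 * w - u) * (β - β⁻¹) = 0 := by linear_combination hrem1 - hrem2
    exact (mul_eq_zero.mp this).resolve_right hne
  have hB : (a0 : ℝ) = w := by
    rw [hA] at hrem1; linarith
  have ha1' : (a1 : ℝ) = u - e1 * w := by linarith
  have ha3' : (a3 : ℝ) = u - e1 := by rw [hu]; ring
  have ha2' : (a2 : ℝ) = w + 1 - e1 * u := by rw [hw]; ring
  -- no real double root
  have hnodouble : ∀ x : ℝ, aeval x (minpoly ℚ β) = 0 → x ^ 2 - e1 * x + 1 = 0 →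
      x ^ 2 + u * x + w ≠ 0 := by
    intro x hx hq hq'
    apply hsep.aeval_derivative_ne_zero hx
    rw [hF'R, ha3', ha2', ha1']
    linear_combination (2 * x - e1) * hq' + (2 * x + u) * hq
  -- complex roots of the other factor
  obtain ⟨s, hs⟩ : ∃ s : ℂ, s ^ 2 = (u : ℂ) ^ 2 - 4 * (w : ℂ) :=
    IsAlgClosed.exists_pow_nat_eq _ (by norm_num)
  set z : ℂ := (-(u : ℂ) + s) / 2 with hz
  set z' : ℂ := (-(u : ℂ) - s) / 2 with hz'
  have hzq : z ^ 2 + (u : ℂ) * z + (w : ℂ) = 0 := by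
    rw [hz]; linear_combination (1 / 4 : ℂ) * hs
  have hz'q : z' ^ 2 + (u : ℂ) * z' + (w : ℂ) = 0 := by
    rw [hz']; linear_combination (1 / 4 : ℂ) * hs
  have hsum : z + z' = -(u : ℂ) := by rw [hz, hz']; ring
  have hprod : z * z' = (w : ℂ) := by
    rw [hz, hz']; linear_combination (-1 / 4 : ℂ) * hs
  have hidC : ∀ x : ℂ, x ^ 4 + (a3 : ℂ) * x ^ 3 + (a2 : ℂ) * x ^ 2 + (a1 : ℂ) * x + (a0 : ℂ) =
      (x ^ 2 - (e1 : ℂ) * x + 1) * (x ^ 2 + (u : ℂ) * x + (w : ℂ)) := by
    intro x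
    have h3 : (a3 : ℂ) = (u : ℂ) - (e1 : ℂ) := by exact_mod_cast congrArg (fun t : ℝ => (t : ℂ)) ha3'
    have h2 : (a2 : ℂ) = (w : ℂ) + 1 - (e1 : ℂ) * (u : ℂ) := by
      exact_mod_cast congrArg (fun t : ℝ => (t : ℂ)) ha2'
    have h1' : (a1 : ℂ) = (u : ℂ) - (e1 : ℂ) * (w : ℂ) := by
      exact_mod_cast congrArg (fun t : ℝ => (t : ℂ)) ha1'
    have h0 : (a0 : ℂ) = (w : ℂ) := by exact_mod_cast congrArg (fun t : ℝ => (t : ℂ)) hB
    rw [h3, h2, h1', h0]; ring
  have hroot : ∀ x : ℂ, x ^ 2 + (u : ℂ) * x + (w : ℂ) = 0 → aeval x (minpoly ℚ β) = 0 := by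
    intro x hx
    rw [hFC, hidC, hx, mul_zero]
  -- every root has norm one
  have hnorm : ∀ x : ℂ, x ^ 2 + (u : ℂ) * x + (w : ℂ) = 0 → ‖x‖ = 1 := by
    intro x hx
    rcases hroots x (hroot x hx) with h | h | h
    · exfalso
      apply hnodouble β (minpoly.aeval ℚ β) hq1
      rw [h] at hx
      exact_mod_cast hx
    · exfalso
      apply hnodouble β⁻¹ hinv hq2
      rw [h] at hx
      exact_mod_cast hx
    · exact h
  have hn : ‖z‖ = 1 := hnorm z hzq
  have hn' : ‖z'‖ = 1 := hnorm z' hz'q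
  have hnormsq : z.re ^ 2 + z.im ^ 2 = 1 := by
    have := Complex.sq_norm z
    rw [hn, Complex.normSq_apply] at this
    linear_combination -this
  -- z is not real
  have him : z.im ≠ 0 := by
    intro him
    have hre : z.re = 1 ∨ z.re = -1 := by
      have : (z.re - 1) * (z.re + 1) = 0 := by rw [him] at hnormsq; linear_combination hnormsq
      rcases mul_eq_zero.mp this with h | h
      · left; linarith
      · right; linarith
    have hzre : z = (z.re : ℂ) := by
      apply Complex.ext <;> simp [him]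
    have hrootz := hroot z hzq
    rw [hFC] at hrootz
    rw [hzre] at hrootz
    have hdeg1 : ∀ q : ℚ, eval q (minpoly ℚ β) = 0 → False := by
      intro q hq
      have := degree_eq_one_of_irreducible_of_root hirr (x := q) hq
      have h' : (minpoly ℚ β).natDegree = 1 := natDegree_eq_of_degree_eq_some this
      omega
    rcases hre with h | h
    · rw [h] at hrootz
      apply hdeg1 1
      rw [hPexp]
      simp only [eval_add, eval_mul, eval_pow, eval_X, eval_C]
      have : (1 + a3 + a2 + a1 + a0 : ℤ) = 0 := by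
        have : (((1 + a3 + a2 + a1 + a0 : ℤ)) : ℂ) = 0 := by
          push_cast
          simpa using hrootz
        exact_mod_cast this
      have h' : ((1 + a3 + a2 + a1 + a0 : ℤ) : ℚ) = 0 := by rw [this]; simp
      push_cast at h'
      linarith
    · rw [h] at hrootz
      apply hdeg1 (-1)
      rw [hPexp]
      simp only [eval_add, eval_mul, eval_pow, eval_X, eval_C]
      have : (1 - a3 + a2 - a1 + a0 : ℤ) = 0 := by
        have : (((1 - a3 + a2 - a1 + a0 : ℤ)) : ℂ) = 0 := by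
          push_cast
          have h2 : ((-1 : ℝ) : ℂ) = -1 := by simp
          rw [h2] at hrootz
          linear_combination hrootz
        exact_mod_cast this
      have h' : ((1 - a3 + a2 - a1 + a0 : ℤ) : ℚ) = 0 := by rw [this]; simp
      push_cast at h'
      linarith
  -- z' is the conjugate of z
  have hsumre : z.re + z'.re = -u := by
    have := congrArg Complex.re hsum
    simpa using this
  have hsumim : z.im + z'.im = 0 := by
    have := congrArg Complex.im hsum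
    simpa using this
  have hprodre : z.re * z'.re - z.im * z'.im = w := by
    have := congrArg Complex.re hprod
    simpa [Complex.mul_re] using this
  have hprodim : z.re * z'.im + z.im * z'.re = 0 := by
    have := congrArg Complex.im hprod
    simpa [Complex.mul_im] using this
  have him' : z'.im = -z.im := by linarith
  have hre' : z'.re = z.re := by
    rw [him'] at hprodim
    have : z.im * (z'.re - z.re) = 0 := by linear_combination hprodim
    have := (mul_eq_zero.mp this).resolve_left him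
    linarith
  have hw1 : w = 1 := by
    rw [hre', him'] at hprodre
    linarith
  set e2 : ℝ := 2 * z.re with he2
  have hu2 : u = -e2 := by
    rw [hre'] at hsumre
    rw [he2]; linarith
  have hs1 : e1 + e2 = ((-a3 : ℤ) : ℝ) := by
    push_cast
    rw [ha3', hu2]; ring
  have hp1 : e1 * e2 = ((a2 - 2 : ℤ) : ℝ) := by
    push_cast
    rw [ha2', hw1, hu2]; ring
  -- bounds
  have hzre_sq : z.re ^ 2 < 1 := by
    have : 0 < z.im ^ 2 := by positivity
    linarith
  have he2lt : e2 < 2 := by rw [he2]; nlinarith only [hzre_sq]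
  have he2gt : -2 < e2 := by rw [he2]; nlinarith only [hzre_sq]
  have he1gt : 2 < e1 := by
    rw [he1]
    have : 0 < (β - 1) * (1 - β⁻¹) := mul_pos (by linarith) (by linarith)
    have h' : (β - 1) * (1 - β⁻¹) = β + β⁻¹ - 2 := by linear_combination -hββ
    linarith
  have he1lt : e1 < 5 / 2 := by
    rw [he1]
    have h5 : 0 < (2 - β) * (1 - β⁻¹ / 2) := mul_pos (by linarith) (by linarith)
    have h' : (2 - β) * (1 - β⁻¹ / 2) = 5 / 2 - (β + β⁻¹) := by linear_combination (1 / 2) * hββ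
    linarith
  obtain ⟨S, hS⟩ : ∃ S : ℤ, S = -a3 := ⟨_, rfl⟩
  obtain ⟨p, hp⟩ : ∃ p : ℤ, p = a2 - 2 := ⟨_, rfl⟩
  rw [← hS] at hs1
  rw [← hp] at hp1
  have h1S : (0 : ℝ) < S := by rw [← hs1]; linarith
  have h2S : (2 * S : ℝ) < 9 := by rw [← hs1]; linarith
  have h3 : (p : ℝ) - 2 * S + 4 < 0 := by
    rw [← hs1, ← hp1]
    have : (e1 - 2) * (e2 - 2) < 0 := mul_neg_of_pos_of_neg (by linarith) (by linarith)
    linarith
  have h4 : 0 < 4 * (p : ℝ) - 10 * S + 25 := by
    rw [← hs1, ← hp1]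
    have : 0 < (5 / 2 - e1) * (5 / 2 - e2) := mul_pos (by linarith) (by linarith)
    linarith
  have h1S' : 0 < S := by exact_mod_cast h1S
  have h2S' : 2 * S < 9 := by exact_mod_cast h2S
  have h3' : p - 2 * S + 4 < 0 := by exact_mod_cast h3
  have h4' : 0 < 4 * p - 10 * S + 25 := by exact_mod_cast h4
  have hcases : (S = 1 ∧ p = -3) ∨ (S = 2 ∧ p = -1) := by
    have hS5 : S ≤ 4 := by omega
    interval_cases S <;> omega
  refine ⟨z, hn, ?_⟩
  rcases hcases with ⟨rfl, rfl⟩ | ⟨rfl, rfl⟩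
  · left
    constructor
    · have : e1 + e2 = 1 := by rw [hs1]; norm_num
      linarith
    · have : e1 * e2 = -3 := by rw [hp1]; norm_num
      linarith
  · right
    constructor
    · have : e1 + e2 = 2 := by rw [hs1]; norm_num
      linarith
    · have : e1 * e2 = -1 := by rw [hp1]; norm_num
      linarith

end Crest.Agent.Lib.Salem
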