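import Crest.Agent.Lib.Salem.Robust

/-!
# S0137: the amplitude inequality `G⁺ ≥ G² / 2`.
-/

set_option autoImplicit false

namespace Crest.Agent.Lib.Salem

open Real Finset

lemma geom49_eq (K : ℕ) : ∑ m ∈ range K, ((4:ℝ) / 9) ^ m = (9 / 5) * (1 - (4 / 9) ^ K) := by
  induction K with
  | zero => simp
  | succ K ih =>
    rw [Finset.sum_range_succ, ih, pow_succ]
    ring

lemma geom49_le (K : ℕ) : ∑ m ∈ range K, ((4:ℝ) / 9) ^ m ≤ 9 / 5 := by
  rw [geom49_eq]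
  have : (0:ℝ) ≤ (4 / 9) ^ K := by positivity
  linarith

lemma geom49_succ_le (K : ℕ) : ∑ m ∈ range K, ((4:ℝ) / 9) ^ (m + 1) ≤ 4 / 5 := by
  have h : ∑ m ∈ range K, ((4:ℝ) / 9) ^ (m + 1) = (4 / 9) * ∑ m ∈ range K, ((4:ℝ) / 9) ^ m := by
    rw [Finset.mul_sum]
    apply Finset.sum_congr rfl
    intro m _
    rw [pow_succ]
    ring
  rw [h]
  have := geom49_le K
  linarith

lemma inv_pow_sq_le {β : ℝ} (hβ : 3 / 2 ≤ β) (m : ℕ) : (1 / β ^ m) ^ 2 ≤ ((4:ℝ) / 9) ^ m := by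
  have hβ0 : 0 < β := by linarith
  have h : (1 / β ^ m) ^ 2 = (1 / β ^ 2) ^ m := by
    rw [one_div, one_div, inv_pow, inv_pow, ← pow_mul, ← pow_mul, mul_comm]
  rw [h]
  apply pow_le_pow_left₀ (by positivity)
  rw [div_le_iff₀ (by positivity)]
  nlinarith

lemma sq_le_of_abs_le_div {β x : ℝ} (hβ : 3 / 2 ≤ β) {m : ℕ} (h : |x| ≤ (1 / 20) * (1 / β ^ m)) :
    x ^ 2 ≤ (1 / 400) * ((4:ℝ) / 9) ^ m := by
  have hβ0 : 0 < β := by linarith
  have h0 : 0 ≤ (1 / 20 : ℝ) * (1 / β ^ m) := by positivity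
  have h1 : x ^ 2 ≤ ((1 / 20 : ℝ) * (1 / β ^ m)) ^ 2 := by
    rw [← sq_abs x]
    exact pow_le_pow_left₀ (abs_nonneg x) h 2
  have h2 := inv_pow_sq_le hβ m
  calc x ^ 2 ≤ ((1 / 20 : ℝ) * (1 / β ^ m)) ^ 2 := h1
    _ = (1 / 400) * (1 / β ^ m) ^ 2 := by ring
    _ ≤ (1 / 400) * ((4:ℝ) / 9) ^ m := by linarith

lemma small_div {β x ε : ℝ} (hβ : 3 / 2 ≤ β) {H k t : ℕ} (hx : |x| * β ^ H ≤ ε * β ^ k)
    (hε : 0 ≤ ε) (ht : k ≤ H + t) : |x| / β ^ t ≤ ε := by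
  have hβ0 : 0 < β := by linarith
  have hβ1 : 1 ≤ β := by linarith
  have h1 : β ^ k ≤ β ^ H * β ^ t := by
    rw [← pow_add]
    exact pow_le_pow_right₀ hβ1 ht
  rw [div_le_iff₀ (by positivity)]
  have hH : 0 < β ^ H := by positivity
  have h2 : |x| * β ^ H ≤ (ε * β ^ t) * β ^ H := by
    calc |x| * β ^ H ≤ ε * β ^ k := hx
      _ ≤ ε * (β ^ H * β ^ t) := mul_le_mul_of_nonneg_left h1 hε
      _ = (ε * β ^ t) * β ^ H := by ring
  exact le_of_mul_le_mul_right h2 hH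

lemma abs_W_le {ω : ℂ} (hω : ‖ω‖ = 1) (ζ : ℂ) (j : ℕ) : |2 * (ζ * ω ^ j).re| ≤ 2 * ‖ζ‖ := by
  rw [abs_mul]
  have h1 : |(ζ * ω ^ j).re| ≤ ‖ζ * ω ^ j‖ := Complex.abs_re_le_norm _
  have h2 : ‖ζ * ω ^ j‖ = ‖ζ‖ := by
    rw [norm_mul, norm_pow, hω, one_pow, mul_one]
  rw [h2] at h1
  simp only [abs_two]
  linarith

/-- The key congruence: `r⁺ β^{-i} ≡ r β^{-i} + v β^{-j} + W_j` mod 1 for `i + j = k`. -/
lemma key_cong {β : ℝ} {ω : ℂ} {r v : ℝ} {ζ : ℂ} (hβ0 : β ≠ 0) (hω : ‖ω‖ = 1)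
    (adm : Adm β ω r v ζ) (i j : ℕ) :
    ∃ W : ℝ, |W| ≤ 2 * ‖ζ‖ ∧
      nd ((r - r * β ^ (i + j)) / β ^ i) = nd (r / β ^ i + v / β ^ j + W) := by
  obtain ⟨I, hI⟩ := adm j
  refine ⟨2 * (ζ * ω ^ j).re, abs_W_le hω ζ j, ?_⟩
  have h1 : (r - r * β ^ (i + j)) / β ^ i
      = r / β ^ i + v / β ^ j + 2 * (ζ * ω ^ j).re - (I : ℤ) := by
    rw [← hI]
    have : β ^ i ≠ 0 := pow_ne_zero _ hβ0
    rw [pow_add]
    field_simp
    ring
  rw [h1, nd_sub_int]

lemma nd_add3_le (a b c : ℝ) : nd (a + b + c) ≤ nd a + |b| + |c| := by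
  have h1 := nd_add_le (a + b) c
  have h2 := nd_add_le a b
  linarith

lemma nd_add3_le' (a b c : ℝ) : nd (a + b + c) ≤ nd b + |a| + |c| := by
  have h1 := nd_add3_le b a c
  have h2 : b + a + c = a + b + c := by ring
  rw [h2] at h1
  exact h1

lemma abs_div_pow {β : ℝ} (hβ : 0 < β) (x : ℝ) (m : ℕ) : |x / β ^ m| = |x| / β ^ m := by
  rw [abs_div, abs_of_pos (pow_pos hβ m)]

lemma add3_sq_le (A B C : ℝ) : (A + B + C) ^ 2 ≤ 3 * (A ^ 2 + B ^ 2 + C ^ 2) := by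
  nlinarith [sq_nonneg (A - B), sq_nonneg (A - C), sq_nonneg (B - C)]

lemma add2_sq_le (A C : ℝ) : (A + C) ^ 2 ≤ 2 * (A ^ 2 + C ^ 2) := by
  nlinarith [sq_nonneg (A - C)]

lemma nd_add3_le'' (a b c : ℝ) : nd (a + b + c) ≤ |a| + |b| + |c| := by
  have h1 := nd_le_abs (a + b + c)
  have h2 : |a + b + c| ≤ |a| + |b| + |c| := abs_add_three a b c
  linarith

/-- The squaring inequality. -/
theorem amplitude_step {β : ℝ} {ω : ℂ} {r v : ℝ} {ζ : ℂ} {H k : ℕ} {ε τp : ℝ}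
    (hβ : 3 / 2 ≤ β) (hω : ‖ω‖ = 1) (adm : Adm β ω r v ζ) (hζ : ‖ζ‖ ≤ ε)
    (hr : 20 * |r| ≤ β ^ H) (hv : 20 * |v| ≤ β ^ H) (hk : 2 * H ≤ k)
    (hp : (|r| + |v|) * β ^ H ≤ ε * β ^ k) (hkε : (k : ℝ) * ε ^ 2 ≤ 1 / 2000)
    (hτ0 : 0 ≤ τp) (hτ : τp ≤ ε) :
    (1 / 2) * (Grob β r v (4 * ε) H) ^ 2 ≤ Grob β (r - r * β ^ k) (v - v / β ^ k) τp (H + k) := by
  have hβ0 : 0 < β := by linarith
  have hβ1 : 1 ≤ β := by linarith
  have hε : 0 ≤ ε := le_trans (norm_nonneg _) hζ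
  have h4ε : 0 ≤ 4 * ε := by linarith
  obtain ⟨K, rfl⟩ : ∃ K, k = 2 * H + K := Nat.exists_eq_add_of_le hk
  have hHk : H + (2 * H + K) = H + K + H + H := by ring
  have hpr : |r| * β ^ H ≤ ε * β ^ (2 * H + K) := by
    refine le_trans ?_ hp
    have : 0 ≤ |v| * β ^ H := by positivity
    rw [add_mul]
    linarith
  have hpv : |v| * β ^ H ≤ ε * β ^ (2 * H + K) := by
    refine le_trans ?_ hp
    have : 0 ≤ |r| * β ^ H := by positivity
    rw [add_mul]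
    linarith
  set rp := r - r * β ^ (2 * H + K) with hrp
  set vp := v - v / β ^ (2 * H + K) with hvp
  set f : ℕ → ℝ := fun i => rc τp (rp / β ^ (i + 1)) with hf
  set g : ℕ → ℝ := fun j => rc τp (vp / β ^ j) with hg
  set R : ℕ → ℝ := fun i => rc (4 * ε) (r / β ^ (i + 1)) with hR
  set V : ℕ → ℝ := fun j => rc (4 * ε) (v / β ^ j) with hV
  have hf0 : ∀ i, 0 ≤ f i := fun i => rc_nonneg hτ0 _
  have hg0 : ∀ i, 0 ≤ g i := fun i => rc_nonneg hτ0 _
  have hR0 : ∀ i, 0 ≤ R i := fun i => rc_nonneg h4ε _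
  have hV0 : ∀ i, 0 ≤ V i := fun i => rc_nonneg h4ε _
  -- (a)
  have ha : ∀ i ∈ range H, R i ≤ f i := by
    intro i hi
    have hi' := Finset.mem_range.mp hi
    obtain ⟨j, hj⟩ : ∃ j, 2 * H + K = (i + 1) + j := Nat.exists_eq_add_of_le (by omega)
    obtain ⟨W, hW, hnd⟩ := key_cong hβ0.ne' hω adm (i + 1) j
    rw [← hj] at hnd
    apply rc_le_rc hτ0
    rw [hnd]
    have h1 := nd_add3_le (r / β ^ (i + 1)) (v / β ^ j) W
    have h2 : |v / β ^ j| ≤ ε := by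
      rw [abs_div_pow hβ0]
      exact small_div hβ hpv hε (by omega)
    linarith
  -- (c)
  have hc : ∀ l ∈ range H, V (H - 1 - l) ≤ f (H + K + l) := by
    intro l hl
    have hl' := Finset.mem_range.mp hl
    have hj : 2 * H + K = (H + K + l + 1) + (H - 1 - l) := by omega
    obtain ⟨W, hW, hnd⟩ := key_cong hβ0.ne' hω adm (H + K + l + 1) (H - 1 - l)
    rw [← hj] at hnd
    apply rc_le_rc hτ0
    rw [hnd]
    have h1 := nd_add3_le' (r / β ^ (H + K + l + 1)) (v / β ^ (H - 1 - l)) W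
    have h2 : |r / β ^ (H + K + l + 1)| ≤ ε := by
      rw [abs_div_pow hβ0]
      exact small_div hβ hpr hε (by omega)
    linarith
  -- (d)
  have hd : ∀ l ∈ range H, R l ≤ f (H + K + H + l) := by
    intro l _
    apply rc_le_rc hτ0
    have h0 : rp / β ^ (H + K + H + l + 1)
        = -(r / β ^ (l + 1)) + r / β ^ (2 * H + K + (l + 1)) := by
      have e1 : H + K + H + l + 1 = 2 * H + K + (l + 1) := by ring
      rw [e1, hrp, pow_add β (2 * H + K) (l + 1)]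
      have : β ^ (2 * H + K) ≠ 0 := pow_ne_zero _ hβ0.ne'
      have : β ^ (l + 1) ≠ 0 := pow_ne_zero _ hβ0.ne'
      field_simp
      ring
    rw [h0]
    have h1 := nd_add_le (-(r / β ^ (l + 1))) (r / β ^ (2 * H + K + (l + 1)))
    rw [nd_neg] at h1
    have h2 : |r / β ^ (2 * H + K + (l + 1))| ≤ ε := by
      rw [abs_div_pow hβ0]
      exact small_div hβ hpr hε (by omega)
    linarith
  -- (e)
  have he : ∀ j ∈ range H, V j ≤ g j := by
    intro j _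
    apply rc_le_rc hτ0
    have h0 : vp / β ^ j = v / β ^ j + -(v / β ^ (2 * H + K + j)) := by
      rw [hvp, pow_add β (2 * H + K) j]
      have : β ^ (2 * H + K) ≠ 0 := pow_ne_zero _ hβ0.ne'
      have : β ^ j ≠ 0 := pow_ne_zero _ hβ0.ne'
      field_simp
      ring
    rw [h0]
    have h1 := nd_add_le (v / β ^ j) (-(v / β ^ (2 * H + K + j)))
    rw [abs_neg] at h1
    have h2 : |v / β ^ (2 * H + K + j)| ≤ ε := by
      rw [abs_div_pow hβ0]
      exact small_div hβ hpv hε (by omega)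
    linarith
  -- (b) middle part
  set a : ℕ → ℝ := fun l => 15 * ((1 / 400) * (((4:ℝ) / 9) ^ (l + 1) + ((4:ℝ) / 9) ^ (K - 1 - l))
      + 9 * ε ^ 2) with ha_def
  have ha0 : ∀ l ∈ range K, 0 ≤ a l := by
    intro l _
    simp only [ha_def]
    positivity
  have hab : ∀ l ∈ range K, 1 - a l ≤ f (H + l) := by
    intro l hl
    have hl' := Finset.mem_range.mp hl
    have hj : 2 * H + K = (H + l + 1) + (H + (K - 1 - l)) := by omega
    obtain ⟨W, hW, hnd⟩ := key_cong hβ0.ne' hω adm (H + l + 1) (H + (K - 1 - l))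
    rw [← hj] at hnd
    have hu0 : 0 ≤ nd (rp / β ^ (H + l + 1)) + τp := add_nonneg (nd_nonneg _) hτ0
    have hA : |r / β ^ (H + l + 1)| ≤ (1 / 20) * (1 / β ^ (l + 1)) := by
      rw [abs_div_pow hβ0, show H + l + 1 = H + (l + 1) by ring, pow_add]
      have h1 : 0 < β ^ H := by positivity
      have h2 : 0 < β ^ (l + 1) := by positivity
      rw [div_le_iff₀ (by positivity)]
      have : (1 / 20 : ℝ) * (1 / β ^ (l + 1)) * (β ^ H * β ^ (l + 1)) = β ^ H / 20 := by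
        field_simp
      rw [this]
      linarith
    have hB : |v / β ^ (H + (K - 1 - l))| ≤ (1 / 20) * (1 / β ^ (K - 1 - l)) := by
      rw [abs_div_pow hβ0, pow_add]
      have h1 : 0 < β ^ H := by positivity
      have h2 : 0 < β ^ (K - 1 - l) := by positivity
      rw [div_le_iff₀ (by positivity)]
      have : (1 / 20 : ℝ) * (1 / β ^ (K - 1 - l)) * (β ^ H * β ^ (K - 1 - l)) = β ^ H / 20 := by
        field_simp
      rw [this]
      linarith
    have hA2 := sq_le_of_abs_le_div hβ hA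
    have hB2 := sq_le_of_abs_le_div hβ hB
    set A := |r / β ^ (H + l + 1)| with hAdef
    set B := |v / β ^ (H + (K - 1 - l))| with hBdef
    have hu : nd (rp / β ^ (H + l + 1)) + τp ≤ A + B + 3 * ε := by
      rw [hnd]
      have h1 := nd_add3_le'' (r / β ^ (H + l + 1)) (v / β ^ (H + (K - 1 - l))) W
      linarith
    have hA0 : 0 ≤ A := abs_nonneg _
    have hB0 : 0 ≤ B := abs_nonneg _
    have hA2' : A ^ 2 ≤ (1 / 400) * ((4:ℝ) / 9) ^ (l + 1) := by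
      rw [hAdef, sq_abs]; exact hA2
    have hB2' : B ^ 2 ≤ (1 / 400) * ((4:ℝ) / 9) ^ (K - 1 - l) := by
      rw [hBdef, sq_abs]; exact hB2
    have hsq : (nd (rp / β ^ (H + l + 1)) + τp) ^ 2 ≤ (A + B + 3 * ε) ^ 2 :=
      pow_le_pow_left₀ hu0 hu 2
    have hsq2 : (A + B + 3 * ε) ^ 2 ≤ 3 * (A ^ 2 + B ^ 2 + 9 * ε ^ 2) := by
      have h9 := add3_sq_le A B (3 * ε)
      have h10 : (3 * ε) ^ 2 = 9 * ε ^ 2 := by ring
      rw [h10] at h9
      exact h9
    have h11 := one_sub_le_rcU hu0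
    have h12 : f (H + l) = rcU (nd (rp / β ^ (H + l + 1)) + τp) := rfl
    have h13 : a l = 15 * ((1 / 400) * (((4:ℝ) / 9) ^ (l + 1) + ((4:ℝ) / 9) ^ (K - 1 - l))
      + 9 * ε ^ 2) := rfl
    rw [h12, h13]
    linarith
  have hab_sum : ∑ l ∈ range K, a l ≤ 33 / 200 := by
    have h1 : ∑ l ∈ range K, a l = 15 * ((1 / 400) * (∑ l ∈ range K, ((4:ℝ) / 9) ^ (l + 1)
        + ∑ l ∈ range K, ((4:ℝ) / 9) ^ (K - 1 - l)) + 9 * ε ^ 2 * K) := by
      simp only [ha_def]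
      rw [← Finset.mul_sum, Finset.sum_add_distrib, ← Finset.mul_sum, Finset.sum_add_distrib]
      simp only [Finset.sum_const, Finset.card_range, nsmul_eq_mul]
      ring
    rw [h1]
    have h2 := geom49_succ_le K
    have h3 : ∑ l ∈ range K, ((4:ℝ) / 9) ^ (K - 1 - l) = ∑ l ∈ range K, ((4:ℝ) / 9) ^ l :=
      Finset.sum_range_reflect (fun l => ((4:ℝ) / 9) ^ l) K
    have h4 := geom49_le K
    rw [h3]
    have h5 : (K : ℝ) * ε ^ 2 ≤ 1 / 2000 := by
      refine le_trans ?_ hkε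
      have : (K : ℝ) ≤ ((2 * H + K : ℕ) : ℝ) := by
        exact_mod_cast Nat.le_add_left K (2 * H)
      exact mul_le_mul_of_nonneg_right this (by positivity)
    have h6 : 9 * ε ^ 2 * (K : ℝ) = 9 * ((K : ℝ) * ε ^ 2) := by ring
    rw [h6]
    linarith
  have hF2 : 1 - 33 / 200 ≤ ∏ l ∈ range K, f (H + l) := by
    have h1 := one_sub_sum_le_prod (range K) a (fun l => f (H + l)) ha0
      (by linarith) hab
    linarith
  -- (f) extra part of v
  set a' : ℕ → ℝ := fun l => 10 * ((1 / 400) * ((4:ℝ) / 9) ^ l + ε ^ 2) with ha'_def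
  have ha'0 : ∀ l ∈ range (2 * H + K), 0 ≤ a' l := by
    intro l _
    simp only [ha'_def]
    positivity
  have hf' : ∀ l ∈ range (2 * H + K), 1 - a' l ≤ g (H + l) := by
    intro l _
    have hu0 : 0 ≤ nd (vp / β ^ (H + l)) + τp := add_nonneg (nd_nonneg _) hτ0
    have hA : |vp / β ^ (H + l)| ≤ (1 / 20) * (1 / β ^ l) := by
      rw [abs_div_pow hβ0, pow_add]
      have h1 : 0 < β ^ H := by positivity
      have h2 : 0 < β ^ l := by positivity
      have h3 : |vp| ≤ |v| := by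
        have hq : 1 ≤ β ^ (2 * H + K) := one_le_pow₀ hβ1
        have hq' : 0 ≤ 1 / β ^ (2 * H + K) := by positivity
        have hq'' : 1 / β ^ (2 * H + K) ≤ 1 := by
          rw [div_le_iff₀ (by positivity)]
          linarith
        have : vp = v * (1 - 1 / β ^ (2 * H + K)) := by
          rw [hvp]
          ring
        rw [this, abs_mul]
        have h5 : |1 - 1 / β ^ (2 * H + K)| ≤ 1 := by
          rw [abs_le]
          constructor <;> linarith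
        calc |v| * |1 - 1 / β ^ (2 * H + K)| ≤ |v| * 1 :=
              mul_le_mul_of_nonneg_left h5 (abs_nonneg v)
          _ = |v| := mul_one _
      rw [div_le_iff₀ (by positivity)]
      have : (1 / 20 : ℝ) * (1 / β ^ l) * (β ^ H * β ^ l) = β ^ H / 20 := by
        field_simp
      rw [this]
      linarith
    have hA2 := sq_le_of_abs_le_div hβ hA
    set A := |vp / β ^ (H + l)| with hAdef
    have hu : nd (vp / β ^ (H + l)) + τp ≤ A + ε := by
      have := nd_le_abs (vp / β ^ (H + l))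
      linarith
    have hA2' : A ^ 2 ≤ (1 / 400) * ((4:ℝ) / 9) ^ l := by
      rw [hAdef, sq_abs]; exact hA2
    have hsq : (nd (vp / β ^ (H + l)) + τp) ^ 2 ≤ (A + ε) ^ 2 :=
      pow_le_pow_left₀ hu0 hu 2
    have hsq2 : (A + ε) ^ 2 ≤ 2 * (A ^ 2 + ε ^ 2) := add2_sq_le A ε
    have h11 := one_sub_le_rcU hu0
    have h12 : g (H + l) = rcU (nd (vp / β ^ (H + l)) + τp) := rfl
    have h13 : a' l = 10 * ((1 / 400) * ((4:ℝ) / 9) ^ l + ε ^ 2) := rfl
    rw [h12, h13]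
    linarith
  have hf'_sum : ∑ l ∈ range (2 * H + K), a' l ≤ 1 / 20 := by
    have h1 : ∑ l ∈ range (2 * H + K), a' l = 10 * ((1 / 400) * ∑ l ∈ range (2 * H + K),
        ((4:ℝ) / 9) ^ l + (2 * H + K : ℕ) * ε ^ 2) := by
      simp only [ha'_def]
      rw [← Finset.mul_sum, Finset.sum_add_distrib, ← Finset.mul_sum]
      simp only [Finset.sum_const, Finset.card_range, nsmul_eq_mul]
    rw [h1]
    have h2 := geom49_le (2 * H + K)
    linarith
  have hG2 : 1 - 1 / 20 ≤ ∏ l ∈ range (2 * H + K), g (H + l) := by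
    have h1 := one_sub_sum_le_prod (range (2 * H + K)) a' (fun l => g (H + l)) ha'0
      (by linarith) hf'
    linarith
  -- assemble
  have hPR : ∀ s : ℕ → ℝ, (∀ i, 0 ≤ s i) → ∀ n, 0 ≤ ∏ i ∈ range n, s i :=
    fun s hs n => Finset.prod_nonneg fun i _ => hs i
  have hF1 : ∏ i ∈ range H, R i ≤ ∏ i ∈ range H, f i :=
    Finset.prod_le_prod (fun i _ => hR0 i) ha
  have hF3 : ∏ j ∈ range H, V j ≤ ∏ l ∈ range H, f (H + K + l) := by
    have h1 : ∏ l ∈ range H, V (H - 1 - l) = ∏ j ∈ range H, V j :=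
      Finset.prod_range_reflect V H
    rw [← h1]
    exact Finset.prod_le_prod (fun i _ => hV0 _) hc
  have hF4 : ∏ i ∈ range H, R i ≤ ∏ l ∈ range H, f (H + K + H + l) :=
    Finset.prod_le_prod (fun i _ => hR0 i) hd
  have hG1 : ∏ j ∈ range H, V j ≤ ∏ j ∈ range H, g j :=
    Finset.prod_le_prod (fun i _ => hV0 i) he
  have hGrob : Grob β rp vp τp (H + (2 * H + K)) =
      (∏ i ∈ range H, f i) * (∏ l ∈ range K, f (H + l)) * (∏ l ∈ range H, f (H + K + l))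
        * (∏ l ∈ range H, f (H + K + H + l))
        * ((∏ j ∈ range H, g j) * ∏ l ∈ range (2 * H + K), g (H + l)) := by
    unfold Grob
    have h1 : ∏ i ∈ range (H + (2 * H + K)), rc τp (rp / β ^ (i + 1))
        = ∏ i ∈ range (H + K + H + H), f i := by
      rw [hHk]
    have h2 : ∏ j ∈ range (H + (2 * H + K)), rc τp (vp / β ^ j)
        = ∏ j ∈ range (H + (2 * H + K)), g j := rfl
    rw [h1, h2, Finset.prod_range_add, Finset.prod_range_add, Finset.prod_range_add,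
      Finset.prod_range_add g]
  have hGrob0 : Grob β r v (4 * ε) H = (∏ i ∈ range H, R i) * ∏ j ∈ range H, V j := rfl
  rw [hGrob, hGrob0]
  set PR := ∏ i ∈ range H, R i
  set PV := ∏ j ∈ range H, V j
  have hPR0 : 0 ≤ PR := hPR R hR0 H
  have hPV0 : 0 ≤ PV := hPR V hV0 H
  have key : PR * (1 - 33 / 200) * PV * PR * (PV * (1 - 1 / 20)) ≤
      (∏ i ∈ range H, f i) * (∏ l ∈ range K, f (H + l)) * (∏ l ∈ range H, f (H + K + l))
        * (∏ l ∈ range H, f (H + K + H + l))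
        * ((∏ j ∈ range H, g j) * ∏ l ∈ range (2 * H + K), g (H + l)) := by
    have n1 : 0 ≤ ∏ i ∈ range H, f i := hPR f hf0 H
    have n2 : 0 ≤ ∏ l ∈ range K, f (H + l) := hPR _ (fun i => hf0 _) K
    have n3 : 0 ≤ ∏ l ∈ range H, f (H + K + l) := hPR _ (fun i => hf0 _) H
    have n4 : 0 ≤ ∏ j ∈ range H, g j := hPR g hg0 H
    have c1 : (0:ℝ) ≤ 1 - 33 / 200 := by norm_num
    have c2 : (0:ℝ) ≤ 1 - 1 / 20 := by norm_num
    have h1 := mul_le_mul hF1 hF2 c1 n1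
    have h2 := mul_le_mul h1 hF3 hPV0 (mul_nonneg n1 n2)
    have h3 := mul_le_mul h2 hF4 hPR0 (mul_nonneg (mul_nonneg n1 n2) n3)
    have h4 := mul_le_mul hG1 hG2 c2 n4
    have n5 : 0 ≤ (∏ i ∈ range H, f i) * (∏ l ∈ range K, f (H + l)) *
        (∏ l ∈ range H, f (H + K + l)) * (∏ l ∈ range H, f (H + K + H + l)) :=
      mul_nonneg (mul_nonneg (mul_nonneg n1 n2) n3) (hPR _ (fun i => hf0 _) H)
    exact mul_le_mul h3 h4 (mul_nonneg hPV0 c2) n5
  refine le_trans ?_ key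
  have h5 : 0 ≤ (PR * PV) ^ 2 := by positivity
  have h6 : PR * (1 - 33 / 200) * PV * PR * (PV * (1 - 1 / 20))
      = (PR * PV) ^ 2 * ((1 - 33 / 200) * (1 - 1 / 20)) := by ring
  rw [h6]
  linarith

end Crest.Agent.Lib.Salem
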