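import Mathlib
import Crest.Prelude.Def_BernoulliConv

/-!
# S0137 (row 104): definitions shared by the modules of the proof.
See findings kind='math-proof' row 104.
-/

set_option autoImplicit false

namespace Crest.Agent.Lib.Salem

open Real Finset

/-- Distance to the nearest integer. -/
noncomputable def nd (x : ℝ) : ℝ := |x - round x|

/-- Robust cosine: a lower bound for `|cos (π (x + d))|`, `|d| ≤ τ`. -/
noncomputable def rc (τ x : ℝ) : ℝ := cos (π * min (1 / 2) (nd x + τ))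

/-- Robust amplitude. -/
noncomputable def Grob (β r v τ : ℝ) (H : ℕ) : ℝ :=
  (∏ i ∈ range H, rc τ (r / β ^ (i + 1))) * ∏ j ∈ range H, rc τ (v / β ^ j)

/-- The amplitude (Fourier coefficient of the truncated pattern). -/
noncomputable def muProd (β r v : ℝ) (h : ℕ) : ℝ :=
  (∏ i ∈ range h, cos (π * (r / β ^ (i + 1)))) * ∏ j ∈ range h, cos (π * (v / β ^ j))

/-- Admissible triples: `r β^j + v β^{-j} + 2 Re (ζ ω^j) ∈ ℤ`, `j ≥ 0`. -/
def Adm (β : ℝ) (ω : ℂ) (r v : ℝ) (ζ : ℂ) : Prop :=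
  ∀ j : ℕ, ∃ I : ℤ, r * β ^ j + v / β ^ j + 2 * (ζ * ω ^ j).re = I

/-- What the recursion gives and the criterion needs. -/
def HasSeq (β : ℝ) : Prop :=
  ∀ δ : ℝ, 0 < δ → ∃ (r v e : ℝ) (W : ℕ → ℝ) (h : ℕ),
    1 ≤ h ∧ 1 ≤ |r| ∧
    (∀ j : ℕ, ∃ I : ℤ, r * β ^ j + v / β ^ j + W j = I) ∧
    (∀ j : ℕ, |W j| ≤ e) ∧
    0 < |muProd β r v h| ∧
    (|r| + |v|) / β ^ h ≤ δ * |muProd β r v h| ∧
    (h : ℝ) * e ^ 2 ≤ δ * |muProd β r v h| ^ 4

/-- The algebraic input of the recursion. -/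
structure Core (β : ℝ) (ω : ℂ) : Prop where
  β_ge : 3 / 2 ≤ β
  β_le : β ≤ 2
  norm_ω : ‖ω‖ = 1
  liouville : ∀ k : ℕ, 1 ≤ k → 1 ≤ (β ^ k + (β ^ k)⁻¹ - 2) * ‖1 - ω ^ k‖ ^ 2

end Crest.Agent.Lib.Salem
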