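import Mathlib
import Crest.Agent.Lib.Salem.Defs

/-!
# S0137 (row 104), module M4a: `Core β ω` from the structure of quartic Salem numbers `< 2`.
-/

set_option autoImplicit false

namespace Crest.Agent.Lib.Salem

open Real

/-- Conjugate integer sequences: if `A, B` satisfy the recurrences for `e₁, e₂`, conjugates in the
quadratic order, then `A k = a + b e₁`, `B k = a + b e₂` with integers `a, b`. -/
lemma conj_pair (e₁ e₂ : ℝ) (s p : ℤ) (hs : e₁ + e₂ = s) (hp : e₁ * e₂ = p) (A B : ℕ → ℝ)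
    (A0 : A 0 = 2) (A1 : A 1 = e₁) (B0 : B 0 = 2) (B1 : B 1 = e₂)
    (recA : ∀ k, A (k + 2) = e₁ * A (k + 1) - A k)
    (recB : ∀ k, B (k + 2) = e₂ * B (k + 1) - B k) (k : ℕ) :
    ∃ a b : ℤ, A k = a + b * e₁ ∧ B k = a + b * e₂ := by
  have he₁ : e₁ * e₁ = s * e₁ - p := by rw [← hs, ← hp]; ring
  have he₂ : e₂ * e₂ = s * e₂ - p := by rw [← hs, ← hp]; ring
  suffices H : (∃ a b : ℤ, A k = a + b * e₁ ∧ B k = a + b * e₂) ∧
      (∃ a b : ℤ, A (k + 1) = a + b * e₁ ∧ B (k + 1) = a + b * e₂) from H.1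
  induction k with
  | zero =>
    refine ⟨⟨2, 0, ?_, ?_⟩, ⟨0, 1, ?_, ?_⟩⟩ <;> simp [A0, A1, B0, B1]
  | succ n ih =>
    obtain ⟨⟨a, b, h1, h2⟩, ⟨a', b', h3, h4⟩⟩ := ih
    refine ⟨⟨a', b', h3, h4⟩, ⟨-p * b' - a, a' + s * b' - b, ?_, ?_⟩⟩
    · rw [show n + 1 + 1 = n + 2 from rfl, recA, h3, h1]
      push_cast
      linear_combination (b' : ℝ) * he₁
    · rw [show n + 1 + 1 = n + 2 from rfl, recB, h4, h2]
      push_cast
      linear_combination (b' : ℝ) * he₂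

private lemma no_sol_13 (u v : ℤ) (hv : v ≠ 0) (h : u ^ 2 - u * v - 3 * v ^ 2 = 0) : False := by
  have h13 : Irrational (√((13 : ℕ) : ℝ)) := Nat.Prime.irrational_sqrt (by norm_num)
  have hq : ((2 * u - v : ℤ) : ℝ) ^ 2 = 13 * (v : ℝ) ^ 2 := by
    have : ((u ^ 2 - u * v - 3 * v ^ 2 : ℤ) : ℝ) = 0 := by rw [h]; simp
    push_cast at this ⊢
    linear_combination 4 * this
  have hv' : (v : ℝ) ≠ 0 := by exact_mod_cast hv
  apply h13
  refine ⟨((|2 * u - v| : ℤ) : ℚ) / ((|v| : ℤ) : ℚ), ?_⟩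
  push_cast
  have hvabs : 0 < |(v : ℝ)| := abs_pos.2 hv'
  rw [div_eq_iff hvabs.ne']
  have h0 : 0 ≤ √(13 : ℝ) := Real.sqrt_nonneg _
  have h1 : √(13 : ℝ) ^ 2 = 13 := Real.sq_sqrt (by norm_num)
  have h2 : (|2 * (u : ℝ) - v|) ^ 2 = (√13 * |(v : ℝ)|) ^ 2 := by
    rw [sq_abs, mul_pow, sq_abs, h1]
    push_cast at hq
    exact hq
  exact (pow_left_inj₀ (abs_nonneg _) (by positivity) (by norm_num)).1 h2

private lemma no_sol_2 (u v : ℤ) (hv : v ≠ 0) (h : u ^ 2 - 2 * u * v - v ^ 2 = 0) : False := by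
  have h13 : Irrational (√((2 : ℕ) : ℝ)) := Nat.Prime.irrational_sqrt (by norm_num)
  have hq : ((u - v : ℤ) : ℝ) ^ 2 = 2 * (v : ℝ) ^ 2 := by
    have : ((u ^ 2 - 2 * u * v - v ^ 2 : ℤ) : ℝ) = 0 := by rw [h]; simp
    push_cast at this ⊢
    linear_combination this
  have hv' : (v : ℝ) ≠ 0 := by exact_mod_cast hv
  apply h13
  refine ⟨((|u - v| : ℤ) : ℚ) / ((|v| : ℤ) : ℚ), ?_⟩
  push_cast
  have hvabs : 0 < |(v : ℝ)| := abs_pos.2 hv'
  rw [div_eq_iff hvabs.ne']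
  have h0 : 0 ≤ √(2 : ℝ) := Real.sqrt_nonneg _
  have h1 : √(2 : ℝ) ^ 2 = 2 := Real.sq_sqrt (by norm_num)
  have h2 : (|(u : ℝ) - v|) ^ 2 = (√2 * |(v : ℝ)|) ^ 2 := by
    rw [sq_abs, mul_pow, sq_abs, h1]
    push_cast at hq
    exact hq
  exact (pow_left_inj₀ (abs_nonneg _) (by positivity) (by norm_num)).1 h2

private lemma omega_sq (ω : ℂ) (hω : ‖ω‖ = 1) : ω ^ 2 = (2 * ω.re : ℝ) * ω - 1 := by
  have hn : ω.re ^ 2 + ω.im ^ 2 = 1 := by
    have := Complex.sq_norm ω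
    rw [hω, Complex.normSq_apply] at this
    nlinarith
  apply Complex.ext
  · simp [pow_two, Complex.mul_re]
    nlinarith
  · simp [pow_two, Complex.mul_im]
    ring

private lemma omega_rec (ω : ℂ) (hω : ‖ω‖ = 1) (k : ℕ) :
    (ω ^ (k + 2)).re = (2 * ω.re) * (ω ^ (k + 1)).re - (ω ^ k).re := by
  have h : ω ^ (k + 2) = (2 * ω.re : ℝ) * ω ^ (k + 1) - ω ^ k := by
    rw [pow_add, omega_sq ω hω, pow_succ]
    ring
  rw [h]
  simp [Complex.sub_re, Complex.mul_re]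

private lemma norm_one_sub_pow_sq (ω : ℂ) (hω : ‖ω‖ = 1) (k : ℕ) :
    ‖1 - ω ^ k‖ ^ 2 = 2 - 2 * (ω ^ k).re := by
  have hk : ‖ω ^ k‖ = 1 := by rw [norm_pow, hω, one_pow]
  set z := ω ^ k
  have hn : z.re ^ 2 + z.im ^ 2 = 1 := by
    have := Complex.sq_norm z
    rw [hk, Complex.normSq_apply] at this
    nlinarith
  rw [Complex.sq_norm, Complex.normSq_apply]
  simp
  nlinarith

/-- The traces `β^k+β^{-k}` and `2 Re ω^k` are conjugate in the quadratic order. -/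
theorem trace_pair (β : ℝ) (hβ0 : 0 < β) (ω : ℂ) (hω : ‖ω‖ = 1) (s p : ℤ)
    (hs : β + β⁻¹ + 2 * ω.re = s) (hp : (β + β⁻¹) * (2 * ω.re) = p) (k : ℕ) :
    ∃ a b : ℤ, β ^ k + (β ^ k)⁻¹ = a + b * (β + β⁻¹) ∧ 2 * (ω ^ k).re = a + b * (2 * ω.re) := by
  refine conj_pair (β + β⁻¹) (2 * ω.re) s p hs hp (fun k => β ^ k + (β ^ k)⁻¹)
    (fun k => 2 * (ω ^ k).re) (by simp; norm_num) (by simp) (by simp) (by simp) ?_ ?_ k
  · intro k
    have : β ^ k ≠ 0 := pow_ne_zero _ hβ0.ne'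
    field_simp
    ring
  · intro k
    rw [omega_rec ω hω k]
    ring

theorem core_of_structure (β : ℝ) (hβ1 : 1 < β) (hβ2 : β < 2) (ω : ℂ) (hω : ‖ω‖ = 1)
    (hcase : (β + β⁻¹ + 2 * ω.re = 1 ∧ (β + β⁻¹) * (2 * ω.re) = -3) ∨
      (β + β⁻¹ + 2 * ω.re = 2 ∧ (β + β⁻¹) * (2 * ω.re) = -1)) : Core β ω := by
  have hβ0 : 0 < β := by linarith
  set e₁ := β + β⁻¹ with he₁def
  set e₂ := 2 * ω.re with he₂def
  have hinv1 : β⁻¹ < 1 := inv_lt_one_of_one_lt₀ hβ1
  have hinv0 : 0 < β⁻¹ := inv_pos.2 hβ0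
  have hmul : β * β⁻¹ = 1 := mul_inv_cancel₀ hβ0.ne'
  have he₁2 : 2 < e₁ := by
    have : 0 < (β - 1) * (1 - β⁻¹) := mul_pos (by linarith) (by linarith)
    nlinarith
  refine ⟨?_, hβ2.le, hω, ?_⟩
  · -- 3/2 ≤ β
    by_contra hlt
    rw [not_le] at hlt
    have he : e₁ < 13 / 6 := by
      -- β + 1/β < 13/6 for 1 < β < 3/2: (β - 3/2)(β - 2/3) < 0
      have h1 : (β - 3 / 2) * (β - 2 / 3) < 0 := by nlinarith
      have h2 : β * e₁ = β ^ 2 + 1 := by rw [he₁def]; nlinarith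
      nlinarith
    rcases hcase with ⟨h1, h2⟩ | ⟨h1, h2⟩
    · have : e₁ * (1 - e₁) = -3 := by rw [← h2]; congr 1; linarith
      nlinarith
    · have : e₁ * (2 - e₁) = -1 := by rw [← h2]; congr 1; linarith
      nlinarith
  · -- Liouville
    intro k hk
    -- the two sequences
    set A : ℕ → ℝ := fun k => β ^ k + (β ^ k)⁻¹ with hA
    set B : ℕ → ℝ := fun k => 2 * (ω ^ k).re with hB
    have A0 : A 0 = 2 := by simp [hA]; norm_num
    have A1 : A 1 = e₁ := by simp [hA, he₁def]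
    have B0 : B 0 = 2 := by simp [hB]
    have B1 : B 1 = e₂ := by simp [hB, he₂def]
    have recA : ∀ k, A (k + 2) = e₁ * A (k + 1) - A k := by
      intro k
      simp only [hA, he₁def]
      have : β ^ k ≠ 0 := pow_ne_zero _ hβ0.ne'
      field_simp
      ring
    have recB : ∀ k, B (k + 2) = e₂ * B (k + 1) - B k := by
      intro k
      simp only [hB]
      rw [omega_rec ω hω k]
      ring
    -- A k > 2
    have hAk : 2 < A k := by
      have hx : 1 < β ^ k := one_lt_pow₀ hβ1 (by omega)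
      have hx0 : 0 < β ^ k := by linarith
      have hxi : (β ^ k)⁻¹ < 1 := inv_lt_one_of_one_lt₀ hx
      have hxi0 : 0 < (β ^ k)⁻¹ := inv_pos.2 hx0
      have hm : β ^ k * (β ^ k)⁻¹ = 1 := mul_inv_cancel₀ hx0.ne'
      have : 0 < (β ^ k - 1) * (1 - (β ^ k)⁻¹) := mul_pos (by linarith) (by linarith)
      simp only [hA]
      nlinarith
    have hBk : 0 ≤ 2 - B k := by
      have := norm_one_sub_pow_sq ω hω k
      simp only [hB]
      rw [← this]
      positivity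
    have hgoal : ‖1 - ω ^ k‖ ^ 2 = 2 - B k := norm_one_sub_pow_sq ω hω k
    have hgoalA : β ^ k + (β ^ k)⁻¹ - 2 = A k - 2 := rfl
    rw [hgoal, hgoalA]
    -- integrality
    have key : ∃ N : ℤ, N ≠ 0 ∧ (2 - A k) * (2 - B k) = N := by
      rcases hcase with ⟨h1, h2⟩ | ⟨h1, h2⟩
      · obtain ⟨a, b, ha, hb⟩ := conj_pair e₁ e₂ 1 (-3) (by simpa using h1) (by simpa using h2)
          A B A0 A1 B0 B1 recA recB k
        refine ⟨(2 - a) ^ 2 - (2 - a) * b - 3 * b ^ 2, ?_, ?_⟩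
        · intro h0
          by_cases hb0 : b = 0
          · subst hb0
            have : (2 - a) ^ 2 = 0 := by simpa using h0
            have ha2 : a = 2 := by
              have := pow_eq_zero_iff (two_ne_zero) |>.1 this
              omega
            rw [ha, ha2] at hAk
            simp at hAk
          · exact no_sol_13 _ _ hb0 h0
        · rw [ha, hb]
          push_cast
          have h1' : e₁ + e₂ = 1 := h1
          have h2' : e₁ * e₂ = -3 := h2
          linear_combination (-(2 - (a : ℝ)) * (b : ℝ)) * h1' + (b : ℝ) ^ 2 * h2'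
      · obtain ⟨a, b, ha, hb⟩ := conj_pair e₁ e₂ 2 (-1) (by simpa using h1) (by simpa using h2)
          A B A0 A1 B0 B1 recA recB k
        refine ⟨(2 - a) ^ 2 - 2 * (2 - a) * b - b ^ 2, ?_, ?_⟩
        · intro h0
          by_cases hb0 : b = 0
          · subst hb0
            have : (2 - a) ^ 2 = 0 := by simpa using h0
            have ha2 : a = 2 := by
              have := pow_eq_zero_iff (two_ne_zero) |>.1 this
              omega
            rw [ha, ha2] at hAk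
            simp at hAk
          · exact no_sol_2 _ _ hb0 h0
        · rw [ha, hb]
          push_cast
          have h1' : e₁ + e₂ = 2 := h1
          have h2' : e₁ * e₂ = -1 := h2
          linear_combination (-(2 - (a : ℝ)) * (b : ℝ)) * h1' + (b : ℝ) ^ 2 * h2'
    obtain ⟨N, hN0, hN⟩ := key
    have hNle : (N : ℝ) ≤ 0 := by
      rw [← hN]
      exact mul_nonpos_of_nonpos_of_nonneg (by linarith) hBk
    have hNle' : N ≤ 0 := by exact_mod_cast hNle
    have hNle1 : N ≤ -1 := by omega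
    have hNr : (N : ℝ) ≤ -1 := by exact_mod_cast hNle1
    nlinarith

end Crest.Agent.Lib.Salem
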