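import Mathlib
import Crest.Agent.Lib.Salem.Defs
import Crest.Agent.Lib.Salem.CoreOf

/-!
# S0137 (row 104), module M4b: the base triple.

Case 1 (`e₁ + e₂ = 1`, `e₁ e₂ = -3`): `r = (1 + e₁)^8 = 5116 + 3927 e₁`, `ζ = (1 + e₂)^8 = 9043 - 3927 e₁`.
Case 2 (`e₁ + e₂ = 2`, `e₁ e₂ = -1`): `r = e₁^12 = 5741 + 13860 e₁`, `ζ = e₂^12 = 33461 - 13860 e₁`.
All numerics by rational enclosures.
-/

set_option autoImplicit false

namespace Crest.Agent.Lib.Salem

open Real

lemma nd_le_of_bounds (x : ℝ) (m : ℤ) (c : ℝ) (h1 : (m : ℝ) - c ≤ x) (h2 : x ≤ m + c) :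
    nd x ≤ c := by
  unfold nd
  refine (round_le x m).trans ?_
  rw [abs_le]
  constructor <;> linarith

/-- Enclosure of `r / β ^ j`. -/
lemma nd_quot_le (r β rl rh bl bh : ℝ) (j : ℕ) (m : ℤ) (c : ℝ)
    (hrl : 0 < rl) (h1 : rl ≤ r) (h2 : r ≤ rh) (hbl : 0 < bl) (h3 : bl ≤ β) (h4 : β ≤ bh)
    (hlo : (m : ℝ) - c ≤ rl / bh ^ j) (hhi : rh / bl ^ j ≤ m + c) : nd (r / β ^ j) ≤ c := by
  have hβ : 0 < β := lt_of_lt_of_le hbl h3
  have hbh : 0 < bh := lt_of_lt_of_le hβ h4
  apply nd_le_of_bounds _ m c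
  · refine hlo.trans ?_
    exact div_le_div₀ (by linarith) h1 (by positivity) (pow_le_pow_left₀ hβ.le h4 _)
  · refine le_trans ?_ hhi
    exact div_le_div₀ (by linarith) h2 (by positivity) (pow_le_pow_left₀ hbl.le h3 _)

/-- The tail: once `rh / bl ^ J ≤ c` with `bl ≥ 1`, all later terms are fine. -/
lemma nd_quot_tail (r β rh bl : ℝ) (J j : ℕ) (c : ℝ) (hr : 0 ≤ r)
    (h2 : r ≤ rh) (hbl : 1 ≤ bl) (h3 : bl ≤ β) (hJ : J ≤ j)
    (hhi : rh / bl ^ J ≤ c) : nd (r / β ^ j) ≤ c := by
  have hbl0 : 0 < bl := by linarith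
  have hβ : 0 < β := lt_of_lt_of_le hbl0 h3
  have hrh : 0 ≤ rh := hr.trans h2
  apply nd_le_of_bounds _ 0 c
  · have hc : 0 ≤ c := le_trans (by positivity) hhi
    have : 0 ≤ r / β ^ j := by positivity
    simp only [Int.cast_zero]
    linarith
  · simp only [Int.cast_zero, zero_add]
    refine le_trans ?_ hhi
    calc r / β ^ j ≤ rh / β ^ j := div_le_div_of_nonneg_right h2 (by positivity)
      _ ≤ rh / bl ^ j := div_le_div_of_nonneg_left hrh (by positivity)
          (pow_le_pow_left₀ hbl0.le h3 _)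
      _ ≤ rh / bl ^ J := div_le_div_of_nonneg_left hrh (by positivity)
          (pow_le_pow_right₀ hbl hJ)

/-- From the quadratic equation of `β`. -/
lemma beta_bounds (β e bl bh el eh : ℝ) (hβ1 : 1 < β) (he : e = β + β⁻¹)
    (hel : el ≤ e) (heh : e ≤ eh) (hbl : 1 < bl) (hbh : 1 < bh)
    (h1 : bl ^ 2 - el * bl + 1 < 0) (h2 : 0 < bh ^ 2 - eh * bh + 1) : bl < β ∧ β < bh := by
  have hβ0 : 0 < β := by linarith
  have hinv : β⁻¹ < 1 := inv_lt_one_of_one_lt₀ hβ1
  have hm : β * β⁻¹ = 1 := mul_inv_cancel₀ hβ0.ne'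
  have hid : ∀ x : ℝ, (x - β) * (x - β⁻¹) = x ^ 2 - e * x + 1 := by
    intro x
    rw [he]
    linear_combination hm
  constructor
  · by_contra hc
    rw [not_lt] at hc
    have h3 : 0 ≤ (bl - β) * (bl - β⁻¹) :=
      mul_nonneg (by linarith) (by linarith)
    rw [hid] at h3
    have : el * bl ≤ e * bl := mul_le_mul_of_nonneg_right hel (by linarith)
    linarith
  · by_contra hc
    rw [not_lt] at hc
    have h3 : (bh - β) * (bh - β⁻¹) ≤ 0 :=
      mul_nonpos_of_nonpos_of_nonneg (by linarith) (by linarith)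
    rw [hid] at h3
    have : e * bh ≤ eh * bh := mul_le_mul_of_nonneg_right heh (by linarith)
    linarith

/-- Integrality of the base triple from the conjugate form. -/
lemma adm_of_conj (β : ℝ) (hβ0 : 0 < β) (ω : ℂ) (hω : ‖ω‖ = 1) (s p f g : ℤ)
    (hs : β + β⁻¹ + 2 * ω.re = s) (hp : (β + β⁻¹) * (2 * ω.re) = p) (r ζ : ℝ)
    (hr : r = f + g * (β + β⁻¹)) (hζ : ζ = f + g * (2 * ω.re)) :
    Adm β ω r r (ζ : ℂ) := by
  intro j
  obtain ⟨a, b, h1, h2⟩ := trace_pair β hβ0 ω hω s p hs hp j
  refine ⟨2 * f * a + (f * b + g * a) * s + g * b * (s ^ 2 - 2 * p), ?_⟩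
  have hre : ((ζ : ℂ) * ω ^ j).re = ζ * (ω ^ j).re := by
    rw [Complex.re_ofReal_mul]
  rw [hre]
  have hdiv : ∀ r : ℝ, r * β ^ j + r / β ^ j = r * (β ^ j + (β ^ j)⁻¹) := by
    intro r; rw [div_eq_mul_inv]; ring
  rw [hdiv, h1]
  have h3 : 2 * (ζ * (ω ^ j).re) = ζ * (2 * (ω ^ j).re) := by ring
  rw [h3, h2, hr, hζ]
  push_cast
  set e₁ := β + β⁻¹
  set e₂ := 2 * ω.re
  have hs' : e₁ + e₂ = s := hs
  have hp' : e₁ * e₂ = p := hp
  rw [← hs', ← hp']
  ring

/-- The base triple. -/
theorem base_triple (β : ℝ) (ω : ℂ) (hβ1 : 1 < β) (hβ2 : β < 2) (hω : ‖ω‖ = 1)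
    (hcase : (β + β⁻¹ + 2 * ω.re = 1 ∧ (β + β⁻¹) * (2 * ω.re) = -3) ∨
      (β + β⁻¹ + 2 * ω.re = 2 ∧ (β + β⁻¹) * (2 * ω.re) = -1)) :
    ∃ r ζ : ℝ, 1000 ≤ r ∧ r ≤ 40000 ∧ 0 < ζ ∧ ζ ≤ 1 / 10000 ∧ r * ζ = 1 ∧ 20 * r ≤ β ^ 33 ∧
      Adm β ω r r (ζ : ℂ) ∧ ∀ j : ℕ, nd (r / β ^ j) + 4 * ζ ≤ 49 / 100 := by
  have hβ0 : 0 < β := by linarith
  have hinv1 : β⁻¹ < 1 := inv_lt_one_of_one_lt₀ hβ1
  have hm : β * β⁻¹ = 1 := mul_inv_cancel₀ hβ0.ne'
  have he2' : 2 < β + β⁻¹ := by
    have : 0 < (β - 1) * (1 - β⁻¹) := mul_pos (by linarith) (by linarith)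
    nlinarith
  rcases hcase with ⟨h1, h2⟩ | ⟨h1, h2⟩
  · -- case 1
    set e := β + β⁻¹ with he
    have hq : e ^ 2 - e - 3 = 0 := by
      have h3 : 2 * ω.re = 1 - e := by linarith
      rw [h3] at h2
      linear_combination -h2
    have hel : (2.3027756377319 : ℝ) < e := by
      by_contra hc
      rw [not_lt] at hc
      nlinarith
    have heh : e < (2.3027756377320 : ℝ) := by
      by_contra hc
      rw [not_lt] at hc
      nlinarith
    obtain ⟨hbl, hbh⟩ := beta_bounds β e 1.7220838057 1.7220838058 2.3027756377319 2.3027756377320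
      hβ1 he hel.le heh.le (by norm_num) (by norm_num) (by norm_num) (by norm_num)
    have hζdef : 9043 - 3927 * e = (5116 : ℝ) + 3927 * (2 * ω.re) := by
      have h3 : 2 * ω.re = 1 - e := by linarith
      rw [h3]; ring
    have hrl : (14158.99992 : ℝ) ≤ 5116 + 3927 * e := by nlinarith
    have hrh : (5116 : ℝ) + 3927 * e ≤ 14158.99994 := by nlinarith
    have hzl : (0 : ℝ) < 9043 - 3927 * e := by nlinarith
    have hzh : (9043 : ℝ) - 3927 * e ≤ 71 / 1000000 := by nlinarith
    have hpow : (1.7220838057 : ℝ) ^ 33 ≤ β ^ 33 := pow_le_pow_left₀ (by norm_num) hbl.le 33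
    refine ⟨5116 + 3927 * e, 9043 - 3927 * e, by linarith, by linarith, hzl, by linarith,
      by linear_combination (-15421329 : ℝ) * hq, le_trans (by linarith [show (800000 : ℝ) ≤ (1.7220838057 : ℝ) ^ 33 by norm_num]) hpow, ?_, ?_⟩
    · exact adm_of_conj β hβ0 ω hω 1 (-3) 5116 3927 (by simpa using h1) (by simpa using h2) _ _
        (by push_cast; ring) (by push_cast; rw [hζdef])
    · have key : ∀ (j : ℕ) (m : ℤ), (m : ℝ) - 4897 / 10000 ≤ (14158.99992 : ℝ) / 1.7220838058 ^ j →
          (14158.99994 : ℝ) / 1.7220838057 ^ j ≤ (m : ℝ) + 4897 / 10000 →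
          nd ((5116 + 3927 * e) / β ^ j) ≤ 4897 / 10000 := fun j m hlo hhi =>
        nd_quot_le _ β 14158.99992 14158.99994 1.7220838057 1.7220838058 j m _ (by norm_num)
          hrl hrh (by norm_num) hbl.le hbh.le hlo hhi
      have main : ∀ j : ℕ, nd ((5116 + 3927 * e) / β ^ j) ≤ 4897 / 10000 := by
        intro j
        by_cases hj : j < 19
        · have h0 := key 0 14159 (by norm_num) (by norm_num)
          have h1 := key 1 8222 (by norm_num) (by norm_num)
          have h2 := key 2 4774 (by norm_num) (by norm_num)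
          have h3 := key 3 2772 (by norm_num) (by norm_num)
          have h4 := key 4 1610 (by norm_num) (by norm_num)
          have h5 := key 5 935 (by norm_num) (by norm_num)
          have h6 := key 6 543 (by norm_num) (by norm_num)
          have h7 := key 7 315 (by norm_num) (by norm_num)
          have h8 := key 8 183 (by norm_num) (by norm_num)
          have h9 := key 9 106 (by norm_num) (by norm_num)
          have h10 := key 10 62 (by norm_num) (by norm_num)
          have h11 := key 11 36 (by norm_num) (by norm_num)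
          have h12 := key 12 21 (by norm_num) (by norm_num)
          have h13 := key 13 12 (by norm_num) (by norm_num)
          have h14 := key 14 7 (by norm_num) (by norm_num)
          have h15 := key 15 4 (by norm_num) (by norm_num)
          have h16 := key 16 2 (by norm_num) (by norm_num)
          have h17 := key 17 1 (by norm_num) (by norm_num)
          have h18 := key 18 1 (by norm_num) (by norm_num)
          interval_cases j <;> assumption
        · exact nd_quot_tail _ β 14158.99994 1.7220838057 19 j _ (by linarith) hrh (by norm_num)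
            hbl.le (by omega) (by norm_num)
      intro j
      have := main j
      linarith
  · -- case 2
    set e := β + β⁻¹ with he
    have hq : e ^ 2 - 2 * e - 1 = 0 := by
      have h3 : 2 * ω.re = 2 - e := by linarith
      rw [h3] at h2
      linear_combination -h2
    have hel : (2.4142135623730 : ℝ) < e := by
      by_contra hc
      rw [not_lt] at hc
      nlinarith
    have heh : e < (2.4142135623731 : ℝ) := by
      by_contra hc
      rw [not_lt] at hc
      nlinarith
    obtain ⟨hbl, hbh⟩ := beta_bounds β e 1.8832035059 1.8832035060 2.4142135623730 2.4142135623731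
      hβ1 he hel.le heh.le (by norm_num) (by norm_num) (by norm_num) (by norm_num)
    have hζdef : 33461 - 13860 * e = (5741 : ℝ) + 13860 * (2 * ω.re) := by
      have h3 : 2 * ω.re = 2 - e := by linarith
      rw [h3]; ring
    have hrl : (39201.99996 : ℝ) ≤ 5741 + 13860 * e := by nlinarith
    have hrh : (5741 : ℝ) + 13860 * e ≤ 39201.99999 := by nlinarith
    have hzl : (0 : ℝ) < 33461 - 13860 * e := by nlinarith
    have hzh : (33461 : ℝ) - 13860 * e ≤ 71 / 1000000 := by nlinarith
    have hpow : (1.8832035059 : ℝ) ^ 33 ≤ β ^ 33 := pow_le_pow_left₀ (by norm_num) hbl.le 33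
    refine ⟨5741 + 13860 * e, 33461 - 13860 * e, by linarith, by linarith, hzl, by linarith,
      by linear_combination (-192099600 : ℝ) * hq, le_trans (by linarith [show (800000 : ℝ) ≤ (1.8832035059 : ℝ) ^ 33 by norm_num]) hpow, ?_, ?_⟩
    · exact adm_of_conj β hβ0 ω hω 2 (-1) 5741 13860 (by simpa using h1) (by simpa using h2) _ _
        (by push_cast; ring) (by push_cast; rw [hζdef])
    · have key : ∀ (j : ℕ) (m : ℤ), (m : ℝ) - 4897 / 10000 ≤ (39201.99996 : ℝ) / 1.8832035060 ^ j →
          (39201.99999 : ℝ) / 1.8832035059 ^ j ≤ (m : ℝ) + 4897 / 10000 →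
          nd ((5741 + 13860 * e) / β ^ j) ≤ 4897 / 10000 := fun j m hlo hhi =>
        nd_quot_le _ β 39201.99996 39201.99999 1.8832035059 1.8832035060 j m _ (by norm_num)
          hrl hrh (by norm_num) hbl.le hbh.le hlo hhi
      have main : ∀ j : ℕ, nd ((5741 + 13860 * e) / β ^ j) ≤ 4897 / 10000 := by
        intro j
        by_cases hj : j < 18
        · have h0 := key 0 39202 (by norm_num) (by norm_num)
          have h1 := key 1 20817 (by norm_num) (by norm_num)
          have h2 := key 2 11054 (by norm_num) (by norm_num)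
          have h3 := key 3 5870 (by norm_num) (by norm_num)
          have h4 := key 4 3117 (by norm_num) (by norm_num)
          have h5 := key 5 1655 (by norm_num) (by norm_num)
          have h6 := key 6 879 (by norm_num) (by norm_num)
          have h7 := key 7 467 (by norm_num) (by norm_num)
          have h8 := key 8 248 (by norm_num) (by norm_num)
          have h9 := key 9 132 (by norm_num) (by norm_num)
          have h10 := key 10 70 (by norm_num) (by norm_num)
          have h11 := key 11 37 (by norm_num) (by norm_num)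
          have h12 := key 12 20 (by norm_num) (by norm_num)
          have h13 := key 13 10 (by norm_num) (by norm_num)
          have h14 := key 14 6 (by norm_num) (by norm_num)
          have h15 := key 15 3 (by norm_num) (by norm_num)
          have h16 := key 16 2 (by norm_num) (by norm_num)
          have h17 := key 17 1 (by norm_num) (by norm_num)
          interval_cases j <;> assumption
        · exact nd_quot_tail _ β 39201.99999 1.8832035059 18 j _ (by linarith) hrh (by norm_num)
            hbl.le (by omega) (by norm_num)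
      intro j
      have := main j
      linarith

/-- Positivity of the robust cosine. -/
lemma rc_pos (τ x : ℝ) (h : nd x + τ < 1 / 2) (hτ : 0 ≤ τ) : 0 < rc τ x := by
  unfold rc
  have hnd : 0 ≤ nd x := abs_nonneg _
  have h0 : 0 ≤ min (1 / 2 : ℝ) (nd x + τ) := le_min (by norm_num) (by linarith)
  have h1 : min (1 / 2 : ℝ) (nd x + τ) < 1 / 2 := min_lt_of_right_lt h
  apply Real.cos_pos_of_mem_Ioo
  constructor
  · have : 0 ≤ π * min (1 / 2 : ℝ) (nd x + τ) := mul_nonneg pi_pos.le h0
    linarith [pi_pos]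
  · nlinarith [pi_pos]

/-- Positivity of the robust amplitude of the base triple. -/
lemma grob_pos (β r τ : ℝ) (H : ℕ) (hτ : 0 ≤ τ) (h : ∀ j : ℕ, nd (r / β ^ j) + τ < 1 / 2) :
    0 < Grob β r r τ H := by
  unfold Grob
  apply mul_pos
  · exact Finset.prod_pos fun i _ => rc_pos _ _ (h _) hτ
  · exact Finset.prod_pos fun i _ => rc_pos _ _ (h _) hτ

end Crest.Agent.Lib.Salem
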