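import Crest.Agent.Lib.Salem.Decomp

/-!
# S0137: block structure of the truncated patterns; the `L²` estimate under the coins.
-/

set_option autoImplicit false

namespace Crest.Agent.Lib.Salem

open Real Finset MeasureTheory
open Crest.AnalysisR

lemma block_prod {α : Type*} [CommMonoid α] (f : ℕ → α) {h n : ℕ} (hh : h ≤ n) :
    ∏ m ∈ Finset.Ico (n + 1 - h) (n + 1 + h), f m
      = (∏ j ∈ range h, f (n - j)) * ∏ i ∈ range h, f (n + 1 + i) := by
  rw [← Finset.prod_Ico_consecutive f (show n + 1 - h ≤ n + 1 by omega)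
    (show n + 1 ≤ n + 1 + h by omega)]
  congr 1
  · rw [Finset.prod_Ico_eq_prod_range]
    have e : n + 1 - (n + 1 - h) = h := by omega
    rw [e, ← Finset.prod_range_reflect]
    apply Finset.prod_congr rfl
    intro j hj
    have hj' := Finset.mem_range.mp hj
    congr 1
    omega
  · rw [Finset.prod_Ico_eq_prod_range]
    have e : n + 1 + h - (n + 1) = h := by omega
    rw [e]

lemma block_sum {α : Type*} [AddCommMonoid α] (f : ℕ → α) {h n : ℕ} (hh : h ≤ n) :
    ∑ m ∈ Finset.Ico (n + 1 - h) (n + 1 + h), f m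
      = (∑ j ∈ range h, f (n - j)) + ∑ i ∈ range h, f (n + 1 + i) := by
  rw [← Finset.sum_Ico_consecutive f (show n + 1 - h ≤ n + 1 by omega)
    (show n + 1 ≤ n + 1 + h by omega)]
  congr 1
  · rw [Finset.sum_Ico_eq_sum_range]
    have e : n + 1 - (n + 1 - h) = h := by omega
    rw [e, ← Finset.sum_range_reflect]
    apply Finset.sum_congr rfl
    intro j hj
    have hj' := Finset.mem_range.mp hj
    congr 1
    omega
  · rw [Finset.sum_Ico_eq_sum_range]
    have e : n + 1 + h - (n + 1) = h := by omega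
    rw [e]

/-- The pattern of coefficients around position `n`. -/
noncomputable def ypat (β r v : ℝ) (n m : ℕ) : ℝ :=
  π * (if m ≤ n then -(v / β ^ (n - m)) else r / β ^ (m - n))

lemma ypat_past (β r v : ℝ) {n j : ℕ} (hj : j ≤ n) : ypat β r v n (n - j) = π * (-(v / β ^ j)) := by
  unfold ypat
  rw [if_pos (Nat.sub_le n j)]
  have : n - (n - j) = j := by omega
  rw [this]

lemma ypat_fut (β r v : ℝ) (n i : ℕ) : ypat β r v n (n + 1 + i) = π * (r / β ^ (i + 1)) := by
  unfold ypat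
  rw [if_neg (by omega)]
  have : n + 1 + i - n = i + 1 := by omega
  rw [this]

/-- The block of coordinates around position `n`. -/
def blockS (h n : ℕ) : Finset ℕ := Finset.Ico (n + 1 - h) (n + 1 + h)

lemma pi_Ufn (β r v : ℝ) {h n : ℕ} (hh : h ≤ n) (w : ℕ → Bool) :
    π * Ufn β r v h n w = ∑ m ∈ blockS h n, sg (w m) * ypat β r v n m := by
  unfold blockS
  rw [block_sum (fun m => sg (w m) * ypat β r v n m) hh]
  unfold Ufn
  rw [mul_sub, Finset.mul_sum, Finset.mul_sum, sub_eq_add_neg, add_comm, ← Finset.sum_neg_distrib]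
  congr 1
  · apply Finset.sum_congr rfl
    intro j hj
    have hj' := Finset.mem_range.mp hj
    rw [ypat_past β r v (by omega : j ≤ n)]
    ring
  · apply Finset.sum_congr rfl
    intro i _
    rw [ypat_fut]
    ring

lemma prod_cos_ypat (β r v : ℝ) {h n : ℕ} (hh : h ≤ n) :
    ∏ m ∈ blockS h n, cos (ypat β r v n m) = muProd β r v h := by
  unfold blockS muProd
  rw [block_prod (fun m => cos (ypat β r v n m)) hh, mul_comm]
  congr 1
  · apply Finset.prod_congr rfl
    intro i _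
    rw [ypat_fut]
  · apply Finset.prod_congr rfl
    intro j hj
    have hj' := Finset.mem_range.mp hj
    rw [ypat_past β r v (by omega : j ≤ n)]
    have : π * (-(v / β ^ j)) = -(π * (v / β ^ j)) := by ring
    rw [this, Real.cos_neg]

lemma measurable_sumSg (S : Finset ℕ) (y : ℕ → ℝ) :
    Measurable fun w : ℕ → Bool => ∑ m ∈ S, sg (w m) * y m :=
  Finset.measurable_sum _ fun m _ => (measurable_sg.comp (measurable_pi_apply m)).mul_const _

lemma measurable_Ufn (β r v : ℝ) (h n : ℕ) : Measurable (Ufn β r v h n) := by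
  unfold Ufn
  apply Measurable.sub
  · exact Finset.measurable_sum _ fun m _ =>
      (measurable_sg.comp (measurable_pi_apply _)).mul_const _
  · exact Finset.measurable_sum _ fun m _ =>
      (measurable_sg.comp (measurable_pi_apply _)).mul_const _

lemma measurable_Cfn (W : ℕ → ℝ) (n : ℕ) : Measurable (Cfn W n) := by
  unfold Cfn
  exact Finset.measurable_sum _ fun m _ =>
    (measurable_sg.comp (measurable_pi_apply _)).mul_const _

/-- The truncated cosine. -/
noncomputable def Yf (β r v : ℝ) (h n : ℕ) (w : ℕ → Bool) : ℝ := cos (π * Ufn β r v h n w)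

lemma measurable_Yf (β r v : ℝ) (h n : ℕ) : Measurable (Yf β r v h n) :=
  Real.measurable_cos.comp ((measurable_Ufn β r v h n).const_mul π)

lemma abs_Yf_le (β r v : ℝ) (h n : ℕ) (w : ℕ → Bool) : |Yf β r v h n w| ≤ 1 :=
  abs_cos_le_one _

lemma integrable_of_bdd {f : (ℕ → Bool) → ℝ} (hf : Measurable f) (C : ℝ) (hC : ∀ w, |f w| ≤ C) :
    Integrable f Pc :=
  Integrable.of_bound hf.aestronglyMeasurable C (Filter.Eventually.of_forall fun w => by
    rw [Real.norm_eq_abs]; exact hC w)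

lemma integrable_Yf (β r v : ℝ) (h n : ℕ) : Integrable (Yf β r v h n) Pc :=
  integrable_of_bdd (measurable_Yf β r v h n) 1 (abs_Yf_le β r v h n)

lemma integrable_Yf_mul (β r v : ℝ) (h n n' : ℕ) :
    Integrable (fun w => Yf β r v h n w * Yf β r v h n' w) Pc := by
  apply integrable_of_bdd ((measurable_Yf β r v h n).mul (measurable_Yf β r v h n')) 1
  intro w
  show |Yf β r v h n w * Yf β r v h n' w| ≤ 1
  rw [abs_mul]
  have h1 := abs_Yf_le β r v h n w
  have h2 := abs_Yf_le β r v h n' w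
  have h3 := abs_nonneg (Yf β r v h n w)
  have h4 := abs_nonneg (Yf β r v h n' w)
  nlinarith

theorem integral_Yf (β r v : ℝ) {h n : ℕ} (hh : h ≤ n) :
    ∫ w, Yf β r v h n w ∂Pc = muProd β r v h := by
  unfold Yf
  simp_rw [pi_Ufn β r v hh]
  rw [integral_cos_sum, prod_cos_ypat β r v hh]

/-- Product of cosines of sign sums over disjoint sets of coordinates. -/
theorem integral_cos_mul_cos_disjoint {S S' : Finset ℕ} (hd : Disjoint S S') (y y' : ℕ → ℝ) :
    ∫ w, cos (∑ m ∈ S, sg (w m) * y m) * cos (∑ m ∈ S', sg (w m) * y' m) ∂Pc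
      = (∏ m ∈ S, cos (y m)) * ∏ m ∈ S', cos (y' m) := by
  classical
  set yp : ℕ → ℝ := fun m => if m ∈ S then y m else y' m with hyp
  set ym : ℕ → ℝ := fun m => if m ∈ S then y m else -y' m with hym
  have hnot : ∀ m ∈ S', m ∉ S := fun m hm hS => Finset.disjoint_left.mp hd hS hm
  have hp : ∀ w : ℕ → Bool, ∑ m ∈ S ∪ S', sg (w m) * yp m
      = ∑ m ∈ S, sg (w m) * y m + ∑ m ∈ S', sg (w m) * y' m := by
    intro w
    rw [Finset.sum_union hd]
    congr 1
    · apply Finset.sum_congr rfl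
      intro m hm
      simp [hyp, hm]
    · apply Finset.sum_congr rfl
      intro m hm
      simp [hyp, hnot m hm]
  have hm' : ∀ w : ℕ → Bool, ∑ m ∈ S ∪ S', sg (w m) * ym m
      = ∑ m ∈ S, sg (w m) * y m - ∑ m ∈ S', sg (w m) * y' m := by
    intro w
    rw [Finset.sum_union hd, sub_eq_add_neg, ← Finset.sum_neg_distrib]
    congr 1
    · apply Finset.sum_congr rfl
      intro m hm
      simp [hym, hm]
    · apply Finset.sum_congr rfl
      intro m hm
      simp [hym, hnot m hm]
  have hprod : ∀ w : ℕ → Bool,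
      cos (∑ m ∈ S, sg (w m) * y m) * cos (∑ m ∈ S', sg (w m) * y' m)
        = (1 / 2) * (cos (∑ m ∈ S ∪ S', sg (w m) * yp m) + cos (∑ m ∈ S ∪ S', sg (w m) * ym m)) := by
    intro w
    rw [hp, hm', Real.cos_add, Real.cos_sub]
    ring
  simp_rw [hprod]
  have hint : ∀ z : ℕ → ℝ, Integrable
      (fun w : ℕ → Bool => cos (∑ m ∈ S ∪ S', sg (w m) * z m)) Pc := by
    intro z
    exact integrable_of_bdd (Real.measurable_cos.comp (measurable_sumSg _ z)) 1
      (fun w => abs_cos_le_one _)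
  rw [integral_const_mul, integral_add (hint yp) (hint ym), integral_cos_sum, integral_cos_sum,
    Finset.prod_union hd, Finset.prod_union hd]
  have e1 : ∏ m ∈ S, cos (yp m) = ∏ m ∈ S, cos (y m) := by
    apply Finset.prod_congr rfl
    intro m hm
    simp [hyp, hm]
  have e2 : ∏ m ∈ S', cos (yp m) = ∏ m ∈ S', cos (y' m) := by
    apply Finset.prod_congr rfl
    intro m hm
    simp [hyp, hnot m hm]
  have e3 : ∏ m ∈ S, cos (ym m) = ∏ m ∈ S, cos (y m) := by
    apply Finset.prod_congr rfl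
    intro m hm
    simp [hym, hm]
  have e4 : ∏ m ∈ S', cos (ym m) = ∏ m ∈ S', cos (y' m) := by
    apply Finset.prod_congr rfl
    intro m hm
    simp [hym, hnot m hm, Real.cos_neg]
  rw [e1, e2, e3, e4]
  ring

theorem integral_Yf_mul_Yf (β r v : ℝ) {h n n' : ℕ} (hh : h ≤ n) (hh' : h ≤ n')
    (hd : Disjoint (blockS h n) (blockS h n')) :
    ∫ w, Yf β r v h n w * Yf β r v h n' w ∂Pc = muProd β r v h * muProd β r v h := by
  unfold Yf
  simp_rw [pi_Ufn β r v hh, pi_Ufn β r v hh']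
  rw [integral_cos_mul_cos_disjoint hd, prod_cos_ypat β r v hh, prod_cos_ypat β r v hh']

/-- The positions. -/
def posn (h l : ℕ) : ℕ := (2 * l + 1) * h

lemma h_le_posn (h l : ℕ) : h ≤ posn h l := by
  unfold posn
  nlinarith [Nat.zero_le (l * h)]

lemma posn_add_le {h l l' : ℕ} (hl : l < l') : posn h l + 2 * h ≤ posn h l' := by
  unfold posn
  have h1 : 2 * l + 1 + 2 ≤ 2 * l' + 1 := by omega
  calc (2 * l + 1) * h + 2 * h = (2 * l + 1 + 2) * h := by ring
    _ ≤ (2 * l' + 1) * h := Nat.mul_le_mul_right h h1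

lemma disjoint_block {h l l' : ℕ} (hl : l ≠ l') : Disjoint (blockS h (posn h l)) (blockS h (posn h l')) := by
  rw [Finset.disjoint_left]
  intro m hm hm'
  unfold blockS at hm hm'
  rw [Finset.mem_Ico] at hm hm'
  rcases lt_or_gt_of_ne hl with h1 | h1
  · have := posn_add_le (h := h) h1
    omega
  · have := posn_add_le (h := h) h1
    omega

/-- Second moment of the averaged truncated pattern. -/
theorem L2_Y (β r v : ℝ) {h M : ℕ} (hM : 1 ≤ M) (σ : ℝ) (hσ : σ * σ = 1)
    (hσμ : σ * muProd β r v h = |muProd β r v h|) :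
    ∫ w, ((1 / (M:ℝ)) * ∑ l ∈ range M, (σ * Yf β r v h (posn h l) w - |muProd β r v h|)) ^ 2 ∂Pc
      ≤ 1 / (M:ℝ) := by
  have hM0 : (0:ℝ) < M := by exact_mod_cast hM
  set μ0 := muProd β r v h with hμ0
  set g := |μ0| with hg
  have hgg : g * g = μ0 * μ0 := abs_mul_abs_self μ0
  set V : ℕ → (ℕ → Bool) → ℝ := fun l w => σ * Yf β r v h (posn h l) w - g with hV
  have hVm : ∀ l, Measurable (V l) := fun l =>
    ((measurable_Yf β r v h (posn h l)).const_mul σ).sub_const g
  have hσabs : |σ| ≤ 1 := by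
    have : |σ| * |σ| = 1 := by rw [← abs_mul, hσ, abs_one]
    nlinarith [abs_nonneg σ]
  have hg1 : g ≤ 1 := by
    have h1 : |σ * μ0| = g := by rw [hσμ, abs_abs]
    have h2 : |μ0| ≤ 1 := by
      unfold muProd at hμ0
      rw [hμ0, abs_mul, Finset.abs_prod, Finset.abs_prod]
      have h3 : ∏ i ∈ range h, |cos (π * (r / β ^ (i + 1)))| ≤ 1 :=
        Finset.prod_le_one (fun i _ => abs_nonneg _) (fun i _ => abs_cos_le_one _)
      have h4 : ∏ i ∈ range h, |cos (π * (v / β ^ i))| ≤ 1 :=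
        Finset.prod_le_one (fun i _ => abs_nonneg _) (fun i _ => abs_cos_le_one _)
      have h5 : 0 ≤ ∏ i ∈ range h, |cos (π * (v / β ^ i))| :=
        Finset.prod_nonneg fun i _ => abs_nonneg _
      calc _ ≤ (1:ℝ) * 1 := mul_le_mul h3 h4 h5 (by norm_num)
        _ = 1 := by norm_num
    exact h2
  have hg0 : 0 ≤ g := abs_nonneg _
  have hVb : ∀ l w, |V l w| ≤ 2 := by
    intro l w
    have h1 := abs_Yf_le β r v h (posn h l) w
    have h2 : |σ * Yf β r v h (posn h l) w| ≤ 1 := by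
      rw [abs_mul]
      have := abs_nonneg (Yf β r v h (posn h l) w)
      nlinarith [abs_nonneg σ]
    have h3 : |V l w| ≤ |σ * Yf β r v h (posn h l) w| + |g| := abs_sub _ _
    rw [abs_of_nonneg hg0] at h3
    linarith
  have hVVi : ∀ l l', Integrable (fun w => V l w * V l' w) Pc := by
    intro l l'
    apply integrable_of_bdd ((hVm l).mul (hVm l')) 4
    intro w
    show |V l w * V l' w| ≤ 4
    rw [abs_mul]
    have h1 := hVb l w
    have h2 := hVb l' w
    nlinarith [abs_nonneg (V l w), abs_nonneg (V l' w)]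
  -- expansion of the product
  have hexp : ∀ (l l' : ℕ) (w : ℕ → Bool), V l w * V l' w
      = (σ * σ) * (Yf β r v h (posn h l) w * Yf β r v h (posn h l') w)
        + (-(σ * g)) * Yf β r v h (posn h l) w + (-(σ * g)) * Yf β r v h (posn h l') w + g * g := by
    intro l l' w
    simp only [hV]
    ring
  have hint_expand : ∀ l l' : ℕ, ∫ w, V l w * V l' w ∂Pc
      = (∫ w, Yf β r v h (posn h l) w * Yf β r v h (posn h l') w ∂Pc)
        + (-(σ * g)) * μ0 + (-(σ * g)) * μ0 + g * g := by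
    intro l l'
    simp_rw [hexp l l']
    have i1 : Integrable (fun w => (σ * σ) * (Yf β r v h (posn h l) w * Yf β r v h (posn h l') w)) Pc :=
      (integrable_Yf_mul β r v h (posn h l) (posn h l')).const_mul (σ * σ)
    have i2 : Integrable (fun w => (-(σ * g)) * Yf β r v h (posn h l) w) Pc :=
      (integrable_Yf β r v h (posn h l)).const_mul (-(σ * g))
    have i3 : Integrable (fun w => (-(σ * g)) * Yf β r v h (posn h l') w) Pc :=
      (integrable_Yf β r v h (posn h l')).const_mul (-(σ * g))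
    have i12 : Integrable (fun w => (σ * σ) * (Yf β r v h (posn h l) w * Yf β r v h (posn h l') w)
        + (-(σ * g)) * Yf β r v h (posn h l) w) Pc := i1.add i2
    have i123 : Integrable (fun w => (σ * σ) * (Yf β r v h (posn h l) w * Yf β r v h (posn h l') w)
        + (-(σ * g)) * Yf β r v h (posn h l) w + (-(σ * g)) * Yf β r v h (posn h l') w) Pc :=
      i12.add i3
    rw [integral_add i123 (integrable_const _), integral_add i12 i3,
      integral_add i1 i2, integral_const_mul, integral_const_mul, integral_const_mul,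
      integral_Yf β r v (h_le_posn h l), integral_Yf β r v (h_le_posn h l'), hσ, integral_const]
    simp
    rfl
  have hσg : σ * g * μ0 = g * g := by
    rw [hgg, mul_right_comm, hσμ]
    exact hgg
  have hoff : ∀ l l' : ℕ, l ≠ l' → ∫ w, V l w * V l' w ∂Pc = 0 := by
    intro l l' hl
    rw [hint_expand, integral_Yf_mul_Yf β r v (h_le_posn h l) (h_le_posn h l') (disjoint_block hl)]
    have : (-(σ * g)) * μ0 = -(g * g) := by
      rw [neg_mul, hσg]
    rw [this]
    linarith [hgg]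
  have hdiag : ∀ l : ℕ, ∫ w, V l w * V l w ∂Pc ≤ 1 := by
    intro l
    rw [hint_expand]
    have : (-(σ * g)) * μ0 = -(g * g) := by
      rw [neg_mul, hσg]
    rw [this]
    have h1 : ∫ w, Yf β r v h (posn h l) w * Yf β r v h (posn h l) w ∂Pc ≤ ∫ _w : ℕ → Bool, (1:ℝ) ∂Pc := by
      apply integral_mono (integrable_Yf_mul β r v h _ _) (integrable_const _)
      intro w
      have h2 := abs_Yf_le β r v h (posn h l) w
      have h3 := abs_nonneg (Yf β r v h (posn h l) w)
      have h4 : |Yf β r v h (posn h l) w| * |Yf β r v h (posn h l) w| ≤ 1 := by nlinarith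
      rw [abs_mul_abs_self] at h4
      exact h4
    have h2 : ∫ _w : ℕ → Bool, (1:ℝ) ∂Pc = 1 := by simp
    nlinarith [mul_self_nonneg g]
  have hsq : ∀ w : ℕ → Bool, ((1 / (M:ℝ)) * ∑ l ∈ range M, V l w) ^ 2
      = (1 / (M:ℝ)) ^ 2 * ∑ l ∈ range M, ∑ l' ∈ range M, V l w * V l' w := by
    intro w
    rw [mul_pow, sq (∑ l ∈ range M, V l w), Finset.sum_mul_sum]
  show ∫ w, ((1 / (M:ℝ)) * ∑ l ∈ range M, V l w) ^ 2 ∂Pc ≤ 1 / (M:ℝ)
  simp_rw [hsq]
  rw [integral_const_mul, integral_finsetSum _ (fun l _ => integrable_finsetSum _ (fun l' _ => hVVi l l'))]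
  have hinner : ∀ l ∈ range M, ∫ w, ∑ l' ∈ range M, V l w * V l' w ∂Pc ≤ 1 := by
    intro l hl
    rw [integral_finsetSum _ (fun l' _ => hVVi l l'), Finset.sum_eq_single l]
    · exact hdiag l
    · intro l' _ hl'
      exact hoff l l' (Ne.symm hl')
    · intro h
      exact absurd hl h
  have hsum : ∑ l ∈ range M, ∫ w, ∑ l' ∈ range M, V l w * V l' w ∂Pc ≤ M := by
    calc _ ≤ ∑ l ∈ range M, (1:ℝ) := Finset.sum_le_sum hinner
      _ = M := by simp
  calc (1 / (M:ℝ)) ^ 2 * ∑ l ∈ range M, ∫ w, ∑ l' ∈ range M, V l w * V l' w ∂Pc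
      ≤ (1 / (M:ℝ)) ^ 2 * M := mul_le_mul_of_nonneg_left hsum (by positivity)
    _ = 1 / M := by field_simp

lemma Cfn_eq (W : ℕ → ℝ) (n : ℕ) (w : ℕ → Bool) :
    Cfn W n w = ∑ m ∈ range (n + 1), sg (w m) * W (n - m) := by
  unfold Cfn
  rw [← Finset.sum_range_reflect]
  apply Finset.sum_congr rfl
  intro j hj
  have hj' := Finset.mem_range.mp hj
  have e1 : n + 1 - 1 - j = n - j := by omega
  have e2 : n - (n - j) = j := by omega
  rw [e1, e2]

theorem integral_Cfn_sq (W : ℕ → ℝ) {e : ℝ} (hW : ∀ j, |W j| ≤ e) (n : ℕ) :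
    ∫ w, (Cfn W n w) ^ 2 ∂Pc ≤ (n + 1) * e ^ 2 := by
  simp_rw [Cfn_eq]
  rw [integral_sq_sum]
  have h1 : ∀ m ∈ range (n + 1), W (n - m) ^ 2 ≤ e ^ 2 := by
    intro m _
    rw [← sq_abs]
    exact pow_le_pow_left₀ (abs_nonneg _) (hW _) 2
  calc ∑ m ∈ range (n + 1), W (n - m) ^ 2 ≤ ∑ m ∈ range (n + 1), e ^ 2 := Finset.sum_le_sum h1
    _ = (n + 1) * e ^ 2 := by simp

lemma Cfn_abs_le (W : ℕ → ℝ) {e : ℝ} (hW : ∀ j, |W j| ≤ e) (n : ℕ) (w : ℕ → Bool) :
    |Cfn W n w| ≤ (n + 1) * e := by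
  unfold Cfn
  refine le_trans (Finset.abs_sum_le_sum_abs _ _) ?_
  have h1 : ∀ j ∈ range (n + 1), |sg (w (n - j)) * W j| ≤ e := by
    intro j _
    rw [abs_mul, abs_sg, one_mul]
    exact hW j
  calc _ ≤ ∑ j ∈ range (n + 1), e := Finset.sum_le_sum h1
    _ = (n + 1) * e := by simp

lemma integrable_Cfn_sq (W : ℕ → ℝ) {e : ℝ} (hW : ∀ j, |W j| ≤ e) (n : ℕ) :
    Integrable (fun w => (Cfn W n w) ^ 2) Pc := by
  apply integrable_of_bdd ((measurable_Cfn W n).pow_const 2) (((n + 1) * e) ^ 2)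
  intro w
  rw [abs_pow]
  exact pow_le_pow_left₀ (abs_nonneg _) (Cfn_abs_le W hW n w) 2

end Crest.Agent.Lib.Salem
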