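import Mathlib
import Crest.Prelude.Def_BernoulliConv

/-!
# S0137 (row 104), module M2a: integrals against the fair coin product.
-/

set_option autoImplicit false

namespace Crest.Agent.Lib.Salem

open MeasureTheory Real
open scoped ENNReal

/-- The sign of a coin. -/
noncomputable def sg (b : Bool) : ℝ := if b then 1 else -1

instance isProb_fairCoin : IsProbabilityMeasure Crest.AnalysisR.fairCoin := by
  refine ⟨?_⟩
  simp only [Crest.AnalysisR.fairCoin, Measure.add_apply, Measure.smul_apply, measure_univ,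
    smul_eq_mul, mul_one]
  exact ENNReal.inv_two_add_inv_two

/-- The product of fair coins. -/
noncomputable abbrev Pc : Measure (ℕ → Bool) := Measure.infinitePi (fun _ : ℕ => Crest.AnalysisR.fairCoin)

theorem measurable_sg : Measurable sg := Measurable.of_discrete

@[simp] theorem sg_true : sg true = 1 := rfl
@[simp] theorem sg_false : sg false = -1 := rfl

theorem sg_sq (b : Bool) : sg b * sg b = 1 := by cases b <;> simp

theorem integral_fairCoin {E : Type*} [NormedAddCommGroup E] [NormedSpace ℝ E] [CompleteSpace E]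
    (f : Bool → E) :
    ∫ b, f b ∂Crest.AnalysisR.fairCoin = (1 / 2 : ℝ) • (f true + f false) := by
  have hi : ∀ b : Bool, Integrable f (Measure.dirac b) := fun b =>
    integrable_dirac (by simp [lt_top_iff_ne_top, enorm_ne_top])
  simp only [Crest.AnalysisR.fairCoin]
  rw [integral_add_measure (hi true |>.smul_measure (by simp))
    (hi false |>.smul_measure (by simp)), integral_smul_measure, integral_smul_measure,
    integral_dirac, integral_dirac, ← smul_add]
  congr 1
  simp

theorem integral_fairCoin_cexp (y : ℝ) :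
    ∫ b, Complex.exp (Complex.I * ((sg b * y : ℝ) : ℂ)) ∂Crest.AnalysisR.fairCoin
      = ((Real.cos y : ℝ) : ℂ) := by
  rw [integral_fairCoin]
  simp only [sg_true, sg_false, one_mul, neg_mul]
  push_cast
  rw [Complex.cos]
  simp only [Complex.real_smul]
  push_cast
  ring_nf

theorem integral_cexp_sum (S : Finset ℕ) (y : ℕ → ℝ) :
    ∫ w, Complex.exp (Complex.I * ((∑ m ∈ S, sg (w m) * y m : ℝ) : ℂ)) ∂Pc
      = ∏ m ∈ S, ((Real.cos (y m) : ℝ) : ℂ) := by
  classical
  let f : (Π i : S, Bool) → ℂ := fun x =>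
    ∏ i : S, Complex.exp (Complex.I * ((sg (x i) * y i : ℝ) : ℂ))
  have hf : ∀ w : ℕ → Bool, Complex.exp (Complex.I * ((∑ m ∈ S, sg (w m) * y m : ℝ) : ℂ))
      = f (S.restrict w) := by
    intro w
    simp only [f, Finset.restrict]
    rw [← Complex.exp_sum, ← Finset.mul_sum]
    congr 2
    rw [← Finset.sum_coe_sort S]
    push_cast
    rfl
  simp_rw [hf]
  have hmeas : AEStronglyMeasurable f (Measure.pi (fun i : S => Crest.AnalysisR.fairCoin)) := by
    apply Measurable.aestronglyMeasurable
    exact Measurable.of_discrete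
  have hres := integral_restrict_infinitePi (μ := fun _ : ℕ => Crest.AnalysisR.fairCoin) hmeas
  rw [hres]
  simp only [f]
  rw [integral_fintype_prod_eq_prod
    (f := fun (i : S) (b : Bool) => Complex.exp (Complex.I * ((sg b * y i : ℝ) : ℂ)))]
  simp_rw [integral_fairCoin_cexp]
  rw [← Finset.prod_coe_sort S]

theorem integral_cos_sum (S : Finset ℕ) (y : ℕ → ℝ) :
    ∫ w, Real.cos (∑ m ∈ S, sg (w m) * y m) ∂Pc = ∏ m ∈ S, Real.cos (y m) := by
  have hint : Integrable (fun w : ℕ → Bool =>
      Complex.exp (Complex.I * ((∑ m ∈ S, sg (w m) * y m : ℝ) : ℂ))) Pc := by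
    refine Integrable.of_bound (C := 1) ?_ ?_
    · apply Measurable.aestronglyMeasurable
      refine Complex.measurable_exp.comp (measurable_const.mul
        (Complex.measurable_ofReal.comp ?_))
      exact Finset.measurable_sum _ fun m _ =>
        (measurable_sg.comp (measurable_pi_apply m)).mul_const _
    · refine Filter.Eventually.of_forall fun w => ?_
      rw [mul_comm, Complex.norm_exp_ofReal_mul_I]
  have h1 := integral_cexp_sum S y
  have h2 := congrArg Complex.re h1
  have hre : (∫ w, Complex.exp (Complex.I * ((∑ m ∈ S, sg (w m) * y m : ℝ) : ℂ)) ∂Pc).re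
      = ∫ w, RCLike.re (Complex.exp (Complex.I * ((∑ m ∈ S, sg (w m) * y m : ℝ) : ℂ))) ∂Pc :=
    (integral_re hint).symm
  rw [hre] at h2
  have h3 : ∀ w : ℕ → Bool, RCLike.re
      (Complex.exp (Complex.I * ((∑ m ∈ S, sg (w m) * y m : ℝ) : ℂ)))
      = Real.cos (∑ m ∈ S, sg (w m) * y m) := by
    intro w
    rw [mul_comm, show (RCLike.re (Complex.exp (((∑ m ∈ S, sg (w m) * y m : ℝ) : ℂ) * Complex.I)))
      = (Complex.exp (((∑ m ∈ S, sg (w m) * y m : ℝ) : ℂ) * Complex.I)).re from rfl,
      Complex.exp_ofReal_mul_I_re]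
  simp_rw [h3] at h2
  rw [h2, ← Complex.ofReal_prod, Complex.ofReal_re]

theorem integral_sg_mul_sg {m l : ℕ} (hml : m ≠ l) :
    ∫ w, sg (w m) * sg (w l) ∂Pc = 0 := by
  classical
  have key : ∀ a b : Bool, sg a * sg b
      = Real.cos (sg a * (π / 2) + sg b * (-(π / 2))) := by
    intro a b
    cases a <;> cases b <;> simp [← two_mul, Real.cos_two_mul]
  have hS : ∀ w : ℕ → Bool, sg (w m) * sg (w l)
      = Real.cos (∑ i ∈ ({m, l} : Finset ℕ), sg (w i) * (if i = m then π / 2 else -(π / 2))) := by
    intro w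
    rw [Finset.sum_pair hml, key]
    simp [hml.symm]
  simp_rw [hS]
  rw [integral_cos_sum, Finset.prod_pair hml]
  simp

theorem integral_sq_sum (S : Finset ℕ) (z : ℕ → ℝ) :
    ∫ w, (∑ m ∈ S, sg (w m) * z m) ^ 2 ∂Pc = ∑ m ∈ S, z m ^ 2 := by
  classical
  have hexp : ∀ w : ℕ → Bool, (∑ m ∈ S, sg (w m) * z m) ^ 2
      = ∑ m ∈ S, ∑ l ∈ S, (sg (w m) * sg (w l)) * (z m * z l) := by
    intro w
    rw [sq, Finset.sum_mul_sum]
    refine Finset.sum_congr rfl fun m _ => Finset.sum_congr rfl fun l _ => ?_
    ring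
  have hint : ∀ m l : ℕ, Integrable (fun w : ℕ → Bool => (sg (w m) * sg (w l)) * (z m * z l)) Pc := by
    intro m l
    refine Integrable.of_bound (C := |z m * z l|) ?_ ?_
    · apply Measurable.aestronglyMeasurable
      exact ((measurable_sg.comp (measurable_pi_apply m)).mul
        (measurable_sg.comp (measurable_pi_apply l))).mul_const _
    · refine Filter.Eventually.of_forall fun w => ?_
      have h1 : ∀ b : Bool, ‖sg b‖ = 1 := by intro b; cases b <;> simp
      simp [norm_mul, h1]
  simp_rw [hexp]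
  rw [integral_finsetSum _ (fun m _ => integrable_finsetSum _ (fun l _ => hint m l))]
  refine Finset.sum_congr rfl fun m hm => ?_
  rw [integral_finsetSum _ (fun l _ => hint m l)]
  rw [Finset.sum_eq_single m]
  · simp [sg_sq, sq]
  · intro l _ hlm
    rw [integral_mul_const, integral_sg_mul_sg (Ne.symm hlm), zero_mul]
  · intro h; exact absurd hm h

end Crest.Agent.Lib.Salem
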