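import Mathlib

/-!
# S0137 (row 104), module M2d: the Lebesgue side.

`L²` bound for lacunary cosine sums on `[-3, 3]`.
-/

set_option autoImplicit false

namespace Crest.Agent.Lib.Salem

open Real Finset MeasureTheory

private lemma abs_integral_cos_le (a : ℝ) (ha : a ≠ 0) :
    |∫ x in (-3:ℝ)..3, cos (a * x)| ≤ 2 / |a| := by
  have h1 : ∫ x in (-3:ℝ)..3, cos (a * x) = a⁻¹ • ∫ x in a * (-3)..a * 3, cos x :=
    intervalIntegral.integral_comp_mul_left (fun x => cos x) ha
  rw [h1, integral_cos, smul_eq_mul, abs_mul, abs_inv, div_eq_inv_mul]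
  refine mul_le_mul_of_nonneg_left ?_ (by positivity)
  have h2 := abs_le.1 (Real.abs_sin_le_one (a * 3))
  have h3 := abs_le.1 (Real.abs_sin_le_one (a * (-3)))
  rw [abs_le]
  constructor <;> linarith [h2.1, h2.2, h3.1, h3.2]

private lemma integral_cos_mul_cos (p q : ℝ) :
    ∫ x in (-3:ℝ)..3, cos (p * x) * cos (q * x)
      = (1 / 2) * ((∫ x in (-3:ℝ)..3, cos ((p - q) * x)) + ∫ x in (-3:ℝ)..3, cos ((p + q) * x)) := by
  have hc : ∀ a : ℝ, IntervalIntegrable (fun x => cos (a * x)) volume (-3:ℝ) 3 := fun a =>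
    (Continuous.intervalIntegrable (by fun_prop) _ _)
  rw [← intervalIntegral.integral_add (hc _) (hc _), ← intervalIntegral.integral_const_mul]
  congr 1
  funext x
  rw [sub_mul, add_mul, cos_sub, cos_add]
  ring

private lemma abs_integral_cos_mul_cos_le (p q : ℝ) (h1 : p - q ≠ 0) (h2 : p + q ≠ 0) :
    |∫ x in (-3:ℝ)..3, cos (p * x) * cos (q * x)| ≤ 1 / |p - q| + 1 / |p + q| := by
  rw [integral_cos_mul_cos, abs_mul]
  have h3 := abs_integral_cos_le _ h1
  have h4 := abs_integral_cos_le _ h2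
  have h5 := abs_add_le (∫ x in (-3:ℝ)..3, cos ((p - q) * x)) (∫ x in (-3:ℝ)..3, cos ((p + q) * x))
  have e : |(1 / 2 : ℝ)| = 1 / 2 := abs_of_pos (by norm_num)
  rw [e]
  have e1 : 2 / |p - q| = 2 * (1 / |p - q|) := by ring
  have e2 : 2 / |p + q| = 2 * (1 / |p + q|) := by ring
  linarith

private lemma off_diag (β : ℝ) (hβ : 3 / 2 ≤ β) (r : ℝ) (hr : 1 ≤ |r|) (h : ℕ) (hh : 1 ≤ h)
    (l l' : ℕ) (hl : l' < l) :
    |∫ x in (-3:ℝ)..3, cos (π * (r * β ^ ((2 * l + 1) * h)) * x) *
        cos (π * (r * β ^ ((2 * l' + 1) * h)) * x)| ≤ (6 / 5) * (2 / 3) ^ (l + l') := by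
  have hβ0 : (0 : ℝ) < β := by linarith
  have hβ1 : (1 : ℝ) ≤ β := by linarith
  set n := (2 * l + 1) * h with hn
  set n' := (2 * l' + 1) * h with hn'
  have hnn : n = n' + ((2 * (l - l')) * h) := by
    obtain ⟨d, rfl⟩ : ∃ d, l = l' + d := ⟨l - l', by omega⟩
    have : l' + d - l' = d := by omega
    rw [hn, hn', this]; ring
  have hd : 2 ≤ (2 * (l - l')) * h := by
    have : 1 ≤ l - l' := by omega
    nlinarith
  have hB' : (0 : ℝ) < β ^ n' := by positivity
  have hB : (0 : ℝ) < β ^ n := by positivity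
  have hsq : (9 / 4 : ℝ) ≤ β ^ ((2 * (l - l')) * h) := by
    calc (9 / 4 : ℝ) ≤ β ^ 2 := by nlinarith
      _ ≤ _ := pow_le_pow_right₀ hβ1 hd
  have hle : (9 / 4) * β ^ n' ≤ β ^ n := by
    rw [hnn, pow_add, mul_comm]
    exact mul_le_mul_of_nonneg_left hsq hB'.le
  -- size of β ^ n
  have hnl : 2 * l + 1 ≤ n := by
    rw [hn]; nlinarith
  have hBl : (3 / 2 : ℝ) ^ (2 * l + 1) ≤ β ^ n :=
    (pow_le_pow_left₀ (by norm_num) hβ _).trans (pow_le_pow_right₀ hβ1 hnl)
  set B := β ^ n with hBdef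
  set B' := β ^ n' with hB'def
  have hpi : (3 : ℝ) < π := pi_gt_three
  have hpi0 : (0 : ℝ) < π := pi_pos
  have hr0 : (0 : ℝ) < |r| := by linarith
  have e1 : π * (r * B) - π * (r * B') = π * r * (B - B') := by ring
  have e2 : π * (r * B) + π * (r * B') = π * r * (B + B') := by ring
  have hsub : (5 / 9) * B ≤ B - B' := by linarith
  have hsub0 : 0 < B - B' := by linarith
  have hadd : B ≤ B + B' := by linarith
  have habs1 : |π * (r * B) - π * (r * B')| = π * |r| * (B - B') := by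
    rw [e1, abs_mul, abs_mul, abs_of_pos hpi0, abs_of_pos hsub0]
  have habs2 : |π * (r * B) + π * (r * B')| = π * |r| * (B + B') := by
    rw [e2, abs_mul, abs_mul, abs_of_pos hpi0, abs_of_pos (by linarith : 0 < B + B')]
  have hne1 : π * (r * B) - π * (r * B') ≠ 0 := by
    intro h0
    have := habs1
    rw [h0, abs_zero] at this
    have : 0 < π * |r| * (B - B') := by positivity
    linarith
  have hne2 : π * (r * B) + π * (r * B') ≠ 0 := by
    intro h0
    have := habs2
    rw [h0, abs_zero] at this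
    have : 0 < π * |r| * (B + B') := by positivity
    linarith
  have key := abs_integral_cos_mul_cos_le _ _ hne1 hne2
  refine key.trans ?_
  rw [habs1, habs2]
  have hb1 : 1 / (π * |r| * (B - B')) ≤ (3 / 5) / B := by
    rw [div_le_div_iff₀ (by positivity) hB]
    have : 5 * B ≤ 3 * (π * |r| * (B - B')) := by
      have h1 : (5 / 9) * B ≤ B - B' := hsub
      have h2 : 3 * (B - B') ≤ π * |r| * (B - B') := by
        have : (3 : ℝ) ≤ π * |r| := by nlinarith
        exact mul_le_mul_of_nonneg_right this hsub0.le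
      nlinarith
    linarith
  have hb2 : 1 / (π * |r| * (B + B')) ≤ (1 / 3) / B := by
    rw [div_le_div_iff₀ (by positivity) hB]
    have h2 : 3 * (B + B') ≤ π * |r| * (B + B') := by
      have : (3 : ℝ) ≤ π * |r| := by nlinarith
      exact mul_le_mul_of_nonneg_right this (by linarith)
    nlinarith
  have hb3 : 1 / B ≤ (2 / 3) ^ (2 * l + 1) := by
    rw [one_div, inv_le_comm₀ hB (by positivity)]
    have e : (((2 : ℝ) / 3) ^ (2 * l + 1))⁻¹ = (3 / 2 : ℝ) ^ (2 * l + 1) := by
      rw [← inv_pow]; norm_num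
    rw [e]; exact hBl
  have hb4 : ((2 : ℝ) / 3) ^ (2 * l + 1) ≤ (2 / 3) ^ (l + l') :=
    pow_le_pow_of_le_one (by norm_num) (by norm_num) (by omega)
  have e3 : (3 / 5) / B = (3 / 5) * (1 / B) := by ring
  have e4 : (1 / 3) / B = (1 / 3) * (1 / B) := by ring
  rw [e3] at hb1
  rw [e4] at hb2
  have hpos : (0 : ℝ) < (2 / 3) ^ (l + l') := by positivity
  nlinarith

private lemma geom_bound (M : ℕ) : ∑ l ∈ range M, ((2 : ℝ) / 3) ^ l ≤ 3 := by
  have key : ∀ M : ℕ, ∑ l ∈ range M, ((2 : ℝ) / 3) ^ l = 3 * (1 - (2 / 3) ^ M) := by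
    intro M
    induction M with
    | zero => simp
    | succ n ih => rw [sum_range_succ, ih, pow_succ]; ring
  rw [key]
  have : (0 : ℝ) < (2 / 3) ^ M := by positivity
  linarith

theorem leb_L2 (β : ℝ) (hβ : 3 / 2 ≤ β) (r : ℝ) (hr : 1 ≤ |r|) (h M : ℕ) (hh : 1 ≤ h)
    (hM : 1 ≤ M) (c : ℕ → ℝ) (hc : ∀ l, |c l| = 1) :
    ∫ x in Set.Icc (-3 : ℝ) 3, ((1 / (M : ℝ)) * ∑ l ∈ Finset.range M,
      c l * Real.cos (π * (r * β ^ ((2 * l + 1) * h)) * x)) ^ 2 ≤ 17 / (M : ℝ) := by
  have hM0 : (0 : ℝ) < M := by exact_mod_cast hM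
  have hM1 : (1 : ℝ) ≤ M := by exact_mod_cast hM
  rw [integral_Icc_eq_integral_Ioc, ← intervalIntegral.integral_of_le (by norm_num)]
  set f : ℕ → ℝ → ℝ := fun l x => cos (π * (r * β ^ ((2 * l + 1) * h)) * x) with hf
  have hfc : ∀ l, Continuous (f l) := fun l => by simp only [hf]; fun_prop
  have hexp : ∀ x : ℝ, ((1 / (M : ℝ)) * ∑ l ∈ range M, c l * f l x) ^ 2 =
      (1 / (M : ℝ)) ^ 2 * ∑ l ∈ range M, ∑ l' ∈ range M, c l * c l' * (f l x * f l' x) := by
    intro x
    rw [mul_pow, sq (∑ l ∈ range M, c l * f l x), sum_mul_sum]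
    congr 1
    refine sum_congr rfl fun l _ => sum_congr rfl fun l' _ => ?_
    ring
  show ∫ x in (-3:ℝ)..3, ((1 / (M : ℝ)) * ∑ l ∈ range M, c l * f l x) ^ 2 ≤ 17 / (M : ℝ)
  simp only [hexp]
  rw [intervalIntegral.integral_const_mul, intervalIntegral.integral_finsetSum]
  · have hin : ∀ l ∈ range M, ∫ x in (-3:ℝ)..3, ∑ l' ∈ range M, c l * c l' * (f l x * f l' x)
        = ∑ l' ∈ range M, c l * c l' * ∫ x in (-3:ℝ)..3, f l x * f l' x := by
      intro l _
      rw [intervalIntegral.integral_finsetSum]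
      · refine sum_congr rfl fun l' _ => ?_
        rw [intervalIntegral.integral_const_mul]
      · intro l' _
        exact Continuous.intervalIntegrable (by have := hfc l; have := hfc l'; fun_prop) _ _
    rw [sum_congr rfl hin]
    -- bound each term
    have hbd : ∀ l l', |c l * c l' * ∫ x in (-3:ℝ)..3, f l x * f l' x|
        ≤ (if l = l' then 6 else 0) + (6 / 5) * ((2 / 3) ^ l * (2 / 3) ^ l') := by
      intro l l'
      rw [abs_mul, abs_mul, hc, hc, one_mul, one_mul, ← pow_add]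
      have hpos : (0 : ℝ) < (2 / 3) ^ (l + l') := by positivity
      rcases lt_trichotomy l l' with hlt | heq | hgt
      · rw [if_neg hlt.ne]
        have : ∫ x in (-3:ℝ)..3, f l x * f l' x = ∫ x in (-3:ℝ)..3, f l' x * f l x := by
          congr 1; funext x; ring
        rw [this]
        have := off_diag β hβ r hr h hh l' l hlt
        rw [add_comm l' l] at this
        simpa [hf] using this
      · subst heq
        rw [if_pos rfl]
        have h1 : |∫ x in (-3:ℝ)..3, f l x * f l x| ≤ 6 := by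
          have := intervalIntegral.norm_integral_le_of_norm_le_const
            (a := (-3:ℝ)) (b := 3) (f := fun x => f l x * f l x) (C := 1) (by
              intro x _
              simp only [Real.norm_eq_abs, abs_mul]
              have := Real.abs_cos_le_one (π * (r * β ^ ((2 * l + 1) * h)) * x)
              have h0 : 0 ≤ |f l x| := abs_nonneg _
              have h1 : |f l x| ≤ 1 := this
              nlinarith)
          rw [Real.norm_eq_abs] at this
          have e : |(3:ℝ) - -3| = 6 := by norm_num [abs_of_pos]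
          rw [e] at this
          linarith
        nlinarith
      · rw [if_neg hgt.ne']
        have := off_diag β hβ r hr h hh l l' hgt
        simpa [hf] using this
    have hsumle : ∑ l ∈ range M, ∑ l' ∈ range M, c l * c l' * ∫ x in (-3:ℝ)..3, f l x * f l' x
        ≤ ∑ l ∈ range M, ∑ l' ∈ range M,
          ((if l = l' then (6:ℝ) else 0) + (6 / 5) * ((2 / 3) ^ l * (2 / 3) ^ l')) :=
      sum_le_sum fun l _ => sum_le_sum fun l' _ => (le_abs_self _).trans (hbd l l')
    have hev : ∑ l ∈ range M, ∑ l' ∈ range M,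
          ((if l = l' then (6:ℝ) else 0) + (6 / 5) * ((2 / 3) ^ l * (2 / 3) ^ l'))
        = 6 * M + (6 / 5) * (∑ l ∈ range M, ((2:ℝ) / 3) ^ l) ^ 2 := by
      have h1 : ∀ l ∈ range M, ∑ l' ∈ range M,
          ((if l = l' then (6:ℝ) else 0) + (6 / 5) * ((2 / 3) ^ l * (2 / 3) ^ l'))
          = 6 + (6 / 5) * ((2 / 3) ^ l * ∑ l' ∈ range M, ((2:ℝ) / 3) ^ l') := by
        intro l hl
        rw [sum_add_distrib, sum_ite_eq, if_pos hl, mul_sum, mul_sum]
      rw [sum_congr rfl h1, sum_add_distrib, sum_const, card_range, nsmul_eq_mul, ← mul_sum,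
        ← sum_mul]
      ring
    have hg := geom_bound M
    have hg0 : 0 ≤ ∑ l ∈ range M, ((2:ℝ) / 3) ^ l := sum_nonneg fun _ _ => by positivity
    have hsq : (∑ l ∈ range M, ((2:ℝ) / 3) ^ l) ^ 2 ≤ 9 := by nlinarith
    rw [hev] at hsumle
    have htot : ∑ l ∈ range M, ∑ l' ∈ range M, c l * c l' * ∫ x in (-3:ℝ)..3, f l x * f l' x
        ≤ 6 * M + 11 := by nlinarith
    have hM2 : (0 : ℝ) ≤ (1 / (M : ℝ)) ^ 2 := by positivity
    calc (1 / (M : ℝ)) ^ 2 * ∑ l ∈ range M, ∑ l' ∈ range M,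
            c l * c l' * ∫ x in (-3:ℝ)..3, f l x * f l' x
        ≤ (1 / (M : ℝ)) ^ 2 * (6 * M + 11) := mul_le_mul_of_nonneg_left htot hM2
      _ ≤ 17 / (M : ℝ) := by
        rw [one_div, inv_pow, ← div_eq_inv_mul, div_le_div_iff₀ (by positivity) hM0]
        nlinarith
  · intro l _
    refine Continuous.intervalIntegrable ?_ _ _
    refine continuous_finsetSum _ fun l' _ => ?_
    have := hfc l; have := hfc l'; fun_prop

end Crest.Agent.Lib.Salem
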