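import Mathlib

/-!
# S0137 (row 104), module M2e: singularity from small-measure test sets.
-/

set_option autoImplicit false

namespace Crest.Agent.Lib.Salem

open MeasureTheory Filter Set
open scoped ENNReal Topology

theorem mutuallySingular_of_sets (ν : Measure ℝ)
    (h : ∀ η : ℝ, 0 < η → ∃ S : Set ℝ, MeasurableSet S ∧ ν Sᶜ ≤ ENNReal.ofReal η ∧
      volume S ≤ ENNReal.ofReal η) :
    ν.MutuallySingular volume := by
  classical
  have hpos : ∀ i : ℕ, (0 : ℝ) < (1 / 2 : ℝ) ^ i := fun i => by positivity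
  choose S hSm hSν hSv using fun i : ℕ => h ((1 / 2 : ℝ) ^ i) (hpos i)
  -- the limsup set
  set T : Set ℝ := limsup S atTop with hT
  have hTm : MeasurableSet T := by
    simpa [hT] using MeasurableSet.measurableSet_limsup hSm
  have hsum : (∑' i : ℕ, volume (S i)) ≠ ∞ := by
    have hle : (∑' i : ℕ, volume (S i)) ≤ ∑' i : ℕ, ENNReal.ofReal ((1 / 2 : ℝ) ^ i) :=
      ENNReal.tsum_le_tsum hSv
    have hs : Summable (fun i : ℕ => (1 / 2 : ℝ) ^ i) :=
      summable_geometric_of_lt_one (by norm_num) (by norm_num)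
    have hfin : (∑' i : ℕ, ENNReal.ofReal ((1 / 2 : ℝ) ^ i)) ≠ ∞ :=
      hs.tsum_ofReal_ne_top
    exact ne_top_of_le_ne_top hfin hle
  have hTv : volume T = 0 := measure_limsup_atTop_eq_zero hsum
  -- ν of the complement
  have hTν : ν Tᶜ = 0 := by
    -- `Tᶜ ⊆ ⋃ N, ⋂ i ≥ N, (S i)ᶜ`
    have hsub : Tᶜ ⊆ ⋃ N : ℕ, ⋂ i : ℕ, ⋂ _ : N ≤ i, (S i)ᶜ := by
      intro x hx
      by_contra hcon
      apply hx
      simp only [mem_iUnion, mem_iInter, mem_compl_iff, not_exists, not_forall, not_not] at hcon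
      have hTeq : T = ⋂ N : ℕ, ⋃ i : ℕ, ⋃ _ : i ≥ N, S i := by
        rw [hT]; exact Filter.limsup_eq_iInf_iSup_of_nat
      rw [hTeq]
      simp only [mem_iInter, mem_iUnion]
      intro N
      obtain ⟨i, hi, hxi⟩ := hcon N
      exact ⟨i, hi, hxi⟩
    refine measure_mono_null hsub ?_
    rw [measure_iUnion_null_iff]
    intro N
    -- for every `j ≥ N`, the measure is at most `(1/2)^j`
    have hle : ∀ j : ℕ, N ≤ j →
        ν (⋂ i : ℕ, ⋂ _ : N ≤ i, (S i)ᶜ) ≤ ENNReal.ofReal ((1 / 2 : ℝ) ^ j) := by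
      intro j hj
      refine le_trans (measure_mono ?_) (hSν j)
      intro x hx
      simp only [mem_iInter] at hx
      exact hx j hj
    have hlim : Tendsto (fun j : ℕ => ENNReal.ofReal ((1 / 2 : ℝ) ^ j)) atTop (𝓝 0) := by
      have := (tendsto_pow_atTop_nhds_zero_of_lt_one (r := (1 / 2 : ℝ)) (by norm_num)
        (by norm_num))
      simpa using ENNReal.tendsto_ofReal this
    have : ν (⋂ i : ℕ, ⋂ _ : N ≤ i, (S i)ᶜ) ≤ 0 :=
      ge_of_tendsto hlim (eventually_atTop.2 ⟨N, hle⟩)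
    exact le_antisymm this bot_le
  exact ⟨Tᶜ, hTm.compl, hTν, by simpa using hTv⟩

end Crest.Agent.Lib.Salem
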