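import Crest.Agent.Lib.Salem.Blocks
import Crest.Agent.Lib.Salem.Lebesgue
import Crest.Agent.Lib.Salem.Singular

/-!
# S0137: the criterion: `HasSeq β` implies singularity.
-/

set_option autoImplicit false

namespace Crest.Agent.Lib.Salem

open Real Finset MeasureTheory Filter
open Crest.AnalysisR
open scoped Topology ENNReal

lemma measurable_signed {β : ℝ} (hβ : 3 / 2 ≤ β) : Measurable (signedPowerSum β⁻¹) := by
  have hβ0 : 0 < β := by linarith
  have hc0 : 0 ≤ β⁻¹ := by positivity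
  have hc1 : β⁻¹ ≤ 2 / 3 := by
    rw [inv_le_comm₀ hβ0 (by norm_num)]
    norm_num
    linarith
  have hc1' : β⁻¹ < 1 := by linarith
  refine measurable_of_tendsto_metrizable
    (f := fun N (w : ℕ → Bool) => ∑ m ∈ range N, sg (w m) * (β⁻¹) ^ m) ?_ ?_
  · intro N
    exact measurable_sumSg (range N) _
  · rw [tendsto_pi_nhds]
    intro w
    have hs : Summable fun m => sg (w m) * (β⁻¹) ^ m := by
      have := summable_sg_mul hc0 hc1' (fun m => sg (w m)) (fun m => (abs_sg _).le) 0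
      simpa using this
    rw [signed_eq]
    exact hs.hasSum.tendsto_sum_nat

lemma abs_signed_le {β : ℝ} (hβ : 3 / 2 ≤ β) (w : ℕ → Bool) : |signedPowerSum β⁻¹ w| ≤ 3 := by
  have hβ0 : 0 < β := by linarith
  have hc0 : 0 ≤ β⁻¹ := by positivity
  have hc1 : β⁻¹ ≤ 2 / 3 := by
    rw [inv_le_comm₀ hβ0 (by norm_num)]
    norm_num
    linarith
  have hc1' : β⁻¹ < 1 := by linarith
  have hg : HasSum (fun n : ℕ => (β⁻¹) ^ n) (1 - β⁻¹)⁻¹ := hasSum_geometric_of_lt_one hc0 hc1'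
  have h := tsum_of_norm_bounded hg (f := fun n => sg (w n) * (β⁻¹) ^ n) ?_
  · rw [signed_eq, ← Real.norm_eq_abs]
    refine le_trans h ?_
    have h1 : 0 < 1 - β⁻¹ := by linarith
    rw [inv_le_comm₀ h1 (by norm_num)]
    linarith
  · intro n
    rw [norm_mul, Real.norm_eq_abs, abs_sg, one_mul, norm_pow, Real.norm_eq_abs,
      abs_of_nonneg hc0]

/-- The test function. -/
noncomputable def Phi (β r : ℝ) (h M : ℕ) (c : ℕ → ℝ) (x : ℝ) : ℝ :=
  (1 / (M : ℝ)) * ∑ l ∈ range M, c l * cos (π * (r * β ^ ((2 * l + 1) * h)) * x)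

lemma continuous_Phi (β r : ℝ) (h M : ℕ) (c : ℕ → ℝ) : Continuous (Phi β r h M c) := by
  unfold Phi
  fun_prop

/-- Upper function for `(Φ ∘ X - g)²`. -/
noncomputable def Fup (β r v : ℝ) (W : ℕ → ℝ) (h M : ℕ) (σ det : ℝ) (w : ℕ → Bool) : ℝ :=
  2 * ((1 / (M:ℝ)) * ∑ l ∈ range M, (2 * π ^ 2 * (det ^ 2 + (Cfn W (posn h l) w) ^ 2)))
    + 2 * ((1 / (M:ℝ)) * ∑ l ∈ range M, (σ * Yf β r v h (posn h l) w - |muProd β r v h|)) ^ 2

lemma abs_muProd_le (β r v : ℝ) (h : ℕ) : |muProd β r v h| ≤ 1 := by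
  unfold muProd
  rw [abs_mul, Finset.abs_prod, Finset.abs_prod]
  have h3 : ∏ i ∈ range h, |cos (π * (r / β ^ (i + 1)))| ≤ 1 :=
    Finset.prod_le_one (fun i _ => abs_nonneg _) (fun i _ => abs_cos_le_one _)
  have h4 : ∏ i ∈ range h, |cos (π * (v / β ^ i))| ≤ 1 :=
    Finset.prod_le_one (fun i _ => abs_nonneg _) (fun i _ => abs_cos_le_one _)
  have h5 : 0 ≤ ∏ i ∈ range h, |cos (π * (v / β ^ i))| :=
    Finset.prod_nonneg fun i _ => abs_nonneg _
  calc _ ≤ (1:ℝ) * 1 := mul_le_mul h3 h4 h5 (by norm_num)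
    _ = 1 := by norm_num

/-- Integrability and integral bound of the upper function. -/
lemma integral_Fup {β r v : ℝ} {W : ℕ → ℝ} {e : ℝ} (hW : ∀ j, |W j| ≤ e) {h M : ℕ}
    (hh : 1 ≤ h) (hM : 1 ≤ M) {σ : ℝ} (hσ : σ * σ = 1)
    (hσμ : σ * muProd β r v h = |muProd β r v h|) (det : ℝ) :
    Integrable (Fup β r v W h M σ det) Pc ∧
      ∫ w, Fup β r v W h M σ det w ∂Pc ≤
        4 * π ^ 2 * det ^ 2 + 8 * π ^ 2 * (M * (h * e ^ 2)) + 2 / (M:ℝ) := by
  have hM0 : (0:ℝ) < M := by exact_mod_cast hM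
  have hi1 : ∀ l, Integrable (fun w => 2 * π ^ 2 * (det ^ 2 + (Cfn W (posn h l) w) ^ 2)) Pc := by
    intro l
    exact ((integrable_const _).add (integrable_Cfn_sq W hW (posn h l))).const_mul _
  have hi2 : Integrable (fun w => ∑ l ∈ range M, (2 * π ^ 2 * (det ^ 2 + (Cfn W (posn h l) w) ^ 2))) Pc :=
    integrable_finsetSum _ fun l _ => hi1 l
  have hσabs : |σ| ≤ 1 := by
    have : |σ| * |σ| = 1 := by rw [← abs_mul, hσ, abs_one]
    nlinarith [abs_nonneg σ]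
  have hg1 := abs_muProd_le β r v h
  have hVb : ∀ l w, |σ * Yf β r v h (posn h l) w - (|muProd β r v h|)| ≤ 2 := by
    intro l w
    have h1 := abs_Yf_le β r v h (posn h l) w
    have h2 : |σ * Yf β r v h (posn h l) w| ≤ 1 := by
      rw [abs_mul]
      have := abs_nonneg (Yf β r v h (posn h l) w)
      nlinarith [abs_nonneg σ]
    have h3 := abs_sub (σ * Yf β r v h (posn h l) w) (|muProd β r v h|)
    rw [abs_abs] at h3
    linarith
  have hm3 : Measurable (fun w => ((1 / (M:ℝ)) * ∑ l ∈ range M,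
      (σ * Yf β r v h (posn h l) w - |muProd β r v h|)) ^ 2) := by
    apply Measurable.pow_const
    apply Measurable.const_mul
    exact Finset.measurable_sum _ fun l _ =>
      ((measurable_Yf β r v h (posn h l)).const_mul σ).sub_const _
  have hi3 : Integrable (fun w => ((1 / (M:ℝ)) * ∑ l ∈ range M,
      (σ * Yf β r v h (posn h l) w - |muProd β r v h|)) ^ 2) Pc := by
    apply integrable_of_bdd hm3 4
    intro w
    rw [abs_pow]
    have h1 : |∑ l ∈ range M, (σ * Yf β r v h (posn h l) w - |muProd β r v h|)| ≤ M * 2 := by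
      refine le_trans (Finset.abs_sum_le_sum_abs _ _) ?_
      calc _ ≤ ∑ l ∈ range M, (2:ℝ) := Finset.sum_le_sum fun l _ => hVb l w
        _ = M * 2 := by simp
    have h2 : |(1 / (M:ℝ)) * ∑ l ∈ range M, (σ * Yf β r v h (posn h l) w - |muProd β r v h|)| ≤ 2 := by
      rw [abs_mul, abs_of_pos (by positivity : (0:ℝ) < 1 / M)]
      calc (1 / (M:ℝ)) * |∑ l ∈ range M, (σ * Yf β r v h (posn h l) w - |muProd β r v h|)|
          ≤ (1 / (M:ℝ)) * (M * 2) := mul_le_mul_of_nonneg_left h1 (by positivity)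
        _ = 2 := by field_simp
    calc _ ≤ (2:ℝ) ^ 2 := pow_le_pow_left₀ (abs_nonneg _) h2 2
      _ = 4 := by norm_num
  have hi4 : Integrable (fun w => 2 * ((1 / (M:ℝ)) *
      ∑ l ∈ range M, (2 * π ^ 2 * (det ^ 2 + (Cfn W (posn h l) w) ^ 2)))) Pc :=
    (hi2.const_mul _).const_mul _
  have hi5 : Integrable (fun w => 2 * ((1 / (M:ℝ)) * ∑ l ∈ range M,
      (σ * Yf β r v h (posn h l) w - |muProd β r v h|)) ^ 2) Pc := hi3.const_mul _
  refine ⟨hi4.add hi5, ?_⟩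
  unfold Fup
  rw [integral_add hi4 hi5, integral_const_mul, integral_const_mul, integral_const_mul,
    integral_finsetSum _ (fun l _ => hi1 l)]
  have hL2 := L2_Y β r v hM σ hσ hσμ
  have hC : ∀ l ∈ range M, ∫ w, 2 * π ^ 2 * (det ^ 2 + (Cfn W (posn h l) w) ^ 2) ∂Pc
      ≤ 2 * π ^ 2 * (det ^ 2 + 2 * (M * (h * e ^ 2))) := by
    intro l hl
    have hl' := Finset.mem_range.mp hl
    rw [integral_const_mul, integral_add (integrable_const _) (integrable_Cfn_sq W hW (posn h l)),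
      integral_const]
    apply mul_le_mul_of_nonneg_left _ (by positivity)
    have h1 := integral_Cfn_sq W hW (posn h l)
    have h2 : ((posn h l : ℕ) : ℝ) + 1 ≤ 2 * (M * h) := by
      have h3 : posn h l + 1 ≤ 2 * (M * h) := by
        unfold posn
        have h4 : 2 * l + 1 + 1 ≤ 2 * M := by omega
        have h5 : (2 * l + 1 + 1) * h ≤ (2 * M) * h := Nat.mul_le_mul_right h h4
        nlinarith
      exact_mod_cast h3
    have h6 : ((posn h l : ℕ) + 1) * e ^ 2 ≤ (2 * (M * h)) * e ^ 2 :=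
      mul_le_mul_of_nonneg_right h2 (by positivity)
    have h7 : (2 * ((M:ℝ) * h)) * e ^ 2 = 2 * (M * (h * e ^ 2)) := by ring
    have h9 : Pc.real (Set.univ : Set (ℕ → Bool)) = 1 := by simp
    simp only [h9, smul_eq_mul, one_mul]
    linarith
  have hsum : ∑ l ∈ range M, ∫ w, 2 * π ^ 2 * (det ^ 2 + (Cfn W (posn h l) w) ^ 2) ∂Pc
      ≤ M * (2 * π ^ 2 * (det ^ 2 + 2 * (M * (h * e ^ 2)))) := by
    calc _ ≤ ∑ l ∈ range M, (2 * π ^ 2 * (det ^ 2 + 2 * (M * (h * e ^ 2)))) :=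
          Finset.sum_le_sum hC
      _ = _ := by simp
  have h8 : (1 / (M:ℝ)) * ∑ l ∈ range M, ∫ w, 2 * π ^ 2 * (det ^ 2 + (Cfn W (posn h l) w) ^ 2) ∂Pc
      ≤ 2 * π ^ 2 * (det ^ 2 + 2 * (M * (h * e ^ 2))) := by
    calc _ ≤ (1 / (M:ℝ)) * (M * (2 * π ^ 2 * (det ^ 2 + 2 * (M * (h * e ^ 2))))) :=
          mul_le_mul_of_nonneg_left hsum (by positivity)
      _ = _ := by field_simp
  have e2 : 2 / (M:ℝ) = 2 * (1 / M) := by ring
  rw [e2]
  nlinarith

/-- Pointwise: `(Φ ∘ X - g)² ≤ F`. -/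
lemma Phi_sub_sq_le {β r v : ℝ} {W : ℕ → ℝ} {I : ℕ → ℤ} (hβ : 3 / 2 ≤ β)
    (hI : ∀ j, r * β ^ j + v / β ^ j + W j = I j) {h M : ℕ} (hM : 1 ≤ M)
    {σ : ℝ} (hσ : σ * σ = 1) (w : ℕ → Bool) :
    (Phi β r h M (fun l => σ * ∏ j ∈ range (posn h l + 1), cos (π * (I j : ℝ)))
        (signedPowerSum β⁻¹ w) - |muProd β r v h|) ^ 2
      ≤ Fup β r v W h M σ (3 * (|r| + |v|) / β ^ h) w := by
  have hM0 : (0:ℝ) < M := by exact_mod_cast hM
  set det := 3 * (|r| + |v|) / β ^ h with hdet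
  set g := |muProd β r v h| with hg
  set X := signedPowerSum β⁻¹ w with hX
  have hs : ∀ n : ℕ, (∏ j ∈ range (n + 1), cos (π * (I j : ℝ))) *
      (∏ j ∈ range (n + 1), cos (π * (I j : ℝ))) = 1 := by
    intro n
    rw [← Finset.prod_mul_distrib]
    apply Finset.prod_eq_one
    intro j _
    have h1 := Real.abs_cos_int_mul_pi (I j)
    rw [mul_comm π]
    rw [← abs_mul_abs_self, h1, one_mul]
  -- the differences
  set D : ℕ → ℝ := fun l => (σ * ∏ j ∈ range (posn h l + 1), cos (π * (I j : ℝ))) *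
      cos (π * (r * β ^ ((2 * l + 1) * h)) * X) - σ * Yf β r v h (posn h l) w with hD
  have hDsq : ∀ l, (D l) ^ 2 ≤ 2 * π ^ 2 * (det ^ 2 + (Cfn W (posn h l) w) ^ 2) := by
    intro l
    obtain ⟨ρ, hρ, hcos⟩ := cos_decomp (h := h) (n := posn h l) hβ hI (h_le_posn h l) w
    have e0 : (2 * l + 1) * h = posn h l := rfl
    simp only [hD]
    rw [e0, ← hX] at *
    rw [hcos]
    have e1 : (σ * ∏ j ∈ range (posn h l + 1), cos (π * (I j : ℝ))) *
        ((∏ j ∈ range (posn h l + 1), cos (π * (I j : ℝ))) *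
          cos (π * (Ufn β r v h (posn h l) w + ρ - Cfn W (posn h l) w)))
        = σ * (((∏ j ∈ range (posn h l + 1), cos (π * (I j : ℝ))) *
            (∏ j ∈ range (posn h l + 1), cos (π * (I j : ℝ)))) *
          cos (π * (Ufn β r v h (posn h l) w + ρ - Cfn W (posn h l) w))) := by ring
    rw [e1, hs, one_mul]
    have e2 : σ * cos (π * (Ufn β r v h (posn h l) w + ρ - Cfn W (posn h l) w))
        - σ * Yf β r v h (posn h l) w
        = σ * (cos (π * (Ufn β r v h (posn h l) w + ρ - Cfn W (posn h l) w))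
          - cos (π * Ufn β r v h (posn h l) w)) := by
      unfold Yf
      ring
    rw [e2, mul_pow, sq σ, hσ, one_mul]
    have h1 := Real.abs_cos_sub_cos_le (π * (Ufn β r v h (posn h l) w + ρ - Cfn W (posn h l) w))
      (π * Ufn β r v h (posn h l) w)
    have e3 : π * (Ufn β r v h (posn h l) w + ρ - Cfn W (posn h l) w)
        - π * Ufn β r v h (posn h l) w = π * (ρ - Cfn W (posn h l) w) := by ring
    rw [e3] at h1
    have h2 : (cos (π * (Ufn β r v h (posn h l) w + ρ - Cfn W (posn h l) w))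
          - cos (π * Ufn β r v h (posn h l) w)) ^ 2 ≤ (π * (ρ - Cfn W (posn h l) w)) ^ 2 := by
      rw [← sq_abs, ← sq_abs (π * (ρ - Cfn W (posn h l) w))]
      exact pow_le_pow_left₀ (abs_nonneg _) h1 2
    refine le_trans h2 ?_
    have h3 : ρ ^ 2 ≤ det ^ 2 := by
      rw [← sq_abs ρ]
      exact pow_le_pow_left₀ (abs_nonneg _) hρ 2
    have h4 : (ρ - Cfn W (posn h l) w) ^ 2 ≤ 2 * (ρ ^ 2 + (Cfn W (posn h l) w) ^ 2) := by
      nlinarith [sq_nonneg (ρ + Cfn W (posn h l) w)]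
    have hpi : 0 ≤ π ^ 2 := by positivity
    have e4 : (π * (ρ - Cfn W (posn h l) w)) ^ 2 = π ^ 2 * (ρ - Cfn W (posn h l) w) ^ 2 := by ring
    rw [e4]
    have e5 : 2 * π ^ 2 * (det ^ 2 + (Cfn W (posn h l) w) ^ 2)
        = π ^ 2 * (2 * (det ^ 2 + (Cfn W (posn h l) w) ^ 2)) := by ring
    rw [e5]
    apply mul_le_mul_of_nonneg_left _ hpi
    linarith
  -- Cauchy-Schwarz
  have hCS : ((1 / (M:ℝ)) * ∑ l ∈ range M, D l) ^ 2
      ≤ (1 / (M:ℝ)) * ∑ l ∈ range M, (2 * π ^ 2 * (det ^ 2 + (Cfn W (posn h l) w) ^ 2)) := by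
    have h1 := sq_sum_le_card_mul_sum_sq (s := range M) (f := D)
    rw [Finset.card_range] at h1
    have h2 : ∑ l ∈ range M, (D l) ^ 2
        ≤ ∑ l ∈ range M, (2 * π ^ 2 * (det ^ 2 + (Cfn W (posn h l) w) ^ 2)) :=
      Finset.sum_le_sum fun l _ => hDsq l
    have h3 : (∑ l ∈ range M, D l) ^ 2
        ≤ M * ∑ l ∈ range M, (2 * π ^ 2 * (det ^ 2 + (Cfn W (posn h l) w) ^ 2)) :=
      le_trans h1 (mul_le_mul_of_nonneg_left h2 hM0.le)
    rw [mul_pow]
    calc (1 / (M:ℝ)) ^ 2 * (∑ l ∈ range M, D l) ^ 2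
        ≤ (1 / (M:ℝ)) ^ 2 * (M * ∑ l ∈ range M, (2 * π ^ 2 * (det ^ 2 + (Cfn W (posn h l) w) ^ 2))) :=
          mul_le_mul_of_nonneg_left h3 (by positivity)
      _ = _ := by field_simp
  -- the sum
  have hsplit : Phi β r h M (fun l => σ * ∏ j ∈ range (posn h l + 1), cos (π * (I j : ℝ))) X - g
      = (1 / (M:ℝ)) * ∑ l ∈ range M, D l
        + (1 / (M:ℝ)) * ∑ l ∈ range M, (σ * Yf β r v h (posn h l) w - g) := by
    unfold Phi
    rw [← mul_add, ← Finset.sum_add_distrib]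
    have e0 : ∀ l ∈ range M, D l + (σ * Yf β r v h (posn h l) w - g)
        = (σ * ∏ j ∈ range (posn h l + 1), cos (π * (I j : ℝ))) *
            cos (π * (r * β ^ ((2 * l + 1) * h)) * X) - g := by
      intro l _
      simp only [hD]
      ring
    rw [Finset.sum_congr rfl e0, Finset.sum_sub_distrib]
    simp only [Finset.sum_const, Finset.card_range, nsmul_eq_mul]
    rw [mul_sub, ← mul_assoc, one_div_mul_cancel hM0.ne', one_mul]
  rw [hsplit]
  unfold Fup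
  rw [← hg]
  set A := (1 / (M:ℝ)) * ∑ l ∈ range M, D l with hA
  set B := (1 / (M:ℝ)) * ∑ l ∈ range M, (σ * Yf β r v h (posn h l) w - g) with hB
  have h5 : (A + B) ^ 2 ≤ 2 * A ^ 2 + 2 * B ^ 2 := by nlinarith [sq_nonneg (A - B)]
  linarith

/-- The two estimates at one level. -/
theorem level_bounds {β r v e : ℝ} {W : ℕ → ℝ} {h M : ℕ} (hβ : 3 / 2 ≤ β) (hh : 1 ≤ h)
    (hM : 1 ≤ M) (hr : 1 ≤ |r|)
    (hadm : ∀ j : ℕ, ∃ I : ℤ, r * β ^ j + v / β ^ j + W j = I) (hW : ∀ j, |W j| ≤ e)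
    (hg : 0 < |muProd β r v h|) :
    ∃ S : Set ℝ, MeasurableSet S ∧
      (bernoulliConvolution β⁻¹) Sᶜ ≤ ENNReal.ofReal ((4 / |muProd β r v h| ^ 2) *
        (4 * π ^ 2 * (3 * (|r| + |v|) / β ^ h) ^ 2 + 8 * π ^ 2 * (M * (h * e ^ 2)) + 2 / (M:ℝ))) ∧
      volume S ≤ ENNReal.ofReal ((4 / |muProd β r v h| ^ 2) * (17 / (M:ℝ))) := by
  classical
  choose I hI using hadm
  set μ0 := muProd β r v h with hμ0
  set g := |μ0| with hgdef
  obtain ⟨σ, hσ, hσμ⟩ : ∃ σ : ℝ, σ * σ = 1 ∧ σ * μ0 = g := by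
    by_cases h0 : 0 ≤ μ0
    · exact ⟨1, by norm_num, by rw [one_mul, hgdef, abs_of_nonneg h0]⟩
    · push Not at h0
      exact ⟨-1, by norm_num, by rw [hgdef, abs_of_neg h0]; ring⟩
  have hσabs : |σ| = 1 := by
    have h1 : |σ| * |σ| = 1 := by rw [← abs_mul, hσ, abs_one]
    nlinarith [abs_nonneg σ, sq_nonneg (|σ| - 1), sq_nonneg (|σ| + 1)]
  set c : ℕ → ℝ := fun l => σ * ∏ j ∈ range (posn h l + 1), cos (π * (I j : ℝ)) with hc
  have hcabs : ∀ l, |c l| = 1 := by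
    intro l
    simp only [hc]
    rw [abs_mul, hσabs, one_mul, Finset.abs_prod]
    apply Finset.prod_eq_one
    intro j _
    rw [mul_comm π]
    exact Real.abs_cos_int_mul_pi (I j)
  have hΦc := continuous_Phi β r h M c
  set S : Set ℝ := Set.Icc (-3:ℝ) 3 ∩ {x | g / 2 ≤ Phi β r h M c x} with hS
  have hSm : MeasurableSet S :=
    measurableSet_Icc.inter (measurableSet_le measurable_const hΦc.measurable)
  have hg2 : 0 < g ^ 2 := by positivity
  refine ⟨S, hSm, ?_, ?_⟩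
  · -- coins
    obtain ⟨hFi, hFb⟩ := integral_Fup (β := β) (r := r) (v := v) hW hh hM hσ hσμ
      (3 * (|r| + |v|) / β ^ h)
    unfold bernoulliConvolution
    rw [Measure.map_apply (measurable_signed hβ) hSm.compl]
    have hsub : signedPowerSum β⁻¹ ⁻¹' Sᶜ ⊆
        {w | g ^ 2 / 4 ≤ Fup β r v W h M σ (3 * (|r| + |v|) / β ^ h) w} := by
      intro w hw
      have h1 : ¬ (signedPowerSum β⁻¹ w ∈ S) := hw
      have h2 : signedPowerSum β⁻¹ w ∈ Set.Icc (-3:ℝ) 3 := by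
        exact abs_le.mp (abs_signed_le hβ w)
      have h3 : Phi β r h M c (signedPowerSum β⁻¹ w) < g / 2 := by
        by_contra hcon
        push Not at hcon
        exact h1 ⟨h2, hcon⟩
      have h4 := Phi_sub_sq_le (h := h) (v := v) hβ hI hM hσ w
      show g ^ 2 / 4 ≤ _
      refine le_trans ?_ h4
      have h5 : g / 2 ≤ g - Phi β r h M c (signedPowerSum β⁻¹ w) := by linarith
      have h6 : (g / 2) ^ 2 ≤ (g - Phi β r h M c (signedPowerSum β⁻¹ w)) ^ 2 :=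
        pow_le_pow_left₀ (by positivity) h5 2
      have h7 : (Phi β r h M c (signedPowerSum β⁻¹ w) - g) ^ 2
          = (g - Phi β r h M c (signedPowerSum β⁻¹ w)) ^ 2 := by ring
      rw [← hμ0, ← hgdef]
      change g ^ 2 / 4 ≤ (Phi β r h M c (signedPowerSum β⁻¹ w) - g) ^ 2
      rw [h7]
      calc g ^ 2 / 4 = (g / 2) ^ 2 := by ring
        _ ≤ _ := h6
    refine le_trans (measure_mono hsub) ?_
    have hnn : 0 ≤ᵐ[Pc] Fup β r v W h M σ (3 * (|r| + |v|) / β ^ h) := by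
      refine Filter.Eventually.of_forall fun w => ?_
      unfold Fup
      have h1 : ∀ l, 0 ≤ 2 * π ^ 2 * ((3 * (|r| + |v|) / β ^ h) ^ 2 + (Cfn W (posn h l) w) ^ 2) := by
        intro l
        positivity
      have h2 : 0 ≤ ∑ l ∈ range M, 2 * π ^ 2 * ((3 * (|r| + |v|) / β ^ h) ^ 2 + (Cfn W (posn h l) w) ^ 2) :=
        Finset.sum_nonneg fun l _ => h1 l
      positivity
    have hMk := mul_meas_ge_le_integral_of_nonneg hnn hFi (g ^ 2 / 4)
    have hk : Pc.real {w | g ^ 2 / 4 ≤ Fup β r v W h M σ (3 * (|r| + |v|) / β ^ h) w} ≤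
        (4 / g ^ 2) * (4 * π ^ 2 * (3 * (|r| + |v|) / β ^ h) ^ 2 + 8 * π ^ 2 * (M * (h * e ^ 2)) + 2 / (M:ℝ)) := by
      have h1 := le_trans hMk hFb
      have e1 : (4 / g ^ 2) * (g ^ 2 / 4) = 1 := by field_simp
      have h2 := mul_le_mul_of_nonneg_left h1 (by positivity : (0:ℝ) ≤ 4 / g ^ 2)
      rw [← mul_assoc, e1, one_mul] at h2
      exact h2
    have hfin : Pc {w | g ^ 2 / 4 ≤ Fup β r v W h M σ (3 * (|r| + |v|) / β ^ h) w} ≠ ⊤ :=
      measure_ne_top _ _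
    rw [← ENNReal.ofReal_toReal hfin]
    exact ENNReal.ofReal_le_ofReal hk
  · -- Lebesgue
    have hint : Integrable (fun x => (Phi β r h M c x) ^ 2) (volume.restrict (Set.Icc (-3:ℝ) 3)) :=
      (hΦc.pow 2).continuousOn.integrableOn_Icc
    have hL := leb_L2 β hβ r hr h M hh hM c hcabs
    have hnn : 0 ≤ᵐ[volume.restrict (Set.Icc (-3:ℝ) 3)] (fun x => (Phi β r h M c x) ^ 2) :=
      Filter.Eventually.of_forall fun x => by positivity
    have hMk := mul_meas_ge_le_integral_of_nonneg hnn hint (g ^ 2 / 4)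
    have hle : ∫ x, (Phi β r h M c x) ^ 2 ∂(volume.restrict (Set.Icc (-3:ℝ) 3)) ≤ 17 / (M:ℝ) := hL
    have hk : (volume.restrict (Set.Icc (-3:ℝ) 3)).real {x | g ^ 2 / 4 ≤ (Phi β r h M c x) ^ 2} ≤
        (4 / g ^ 2) * (17 / (M:ℝ)) := by
      have h1 := le_trans hMk hle
      have e1 : (4 / g ^ 2) * (g ^ 2 / 4) = 1 := by field_simp
      have h2 := mul_le_mul_of_nonneg_left h1 (by positivity : (0:ℝ) ≤ 4 / g ^ 2)
      rw [← mul_assoc, e1, one_mul] at h2
      exact h2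
    have hSsub : S ⊆ Set.Icc (-3:ℝ) 3 := Set.inter_subset_left
    rw [← Measure.restrict_eq_self volume hSsub]
    have hsub2 : S ⊆ {x | g ^ 2 / 4 ≤ (Phi β r h M c x) ^ 2} := by
      intro x hx
      have h1 : g / 2 ≤ Phi β r h M c x := hx.2
      have h2 : (g / 2) ^ 2 ≤ (Phi β r h M c x) ^ 2 := pow_le_pow_left₀ (by positivity) h1 2
      show g ^ 2 / 4 ≤ _
      calc g ^ 2 / 4 = (g / 2) ^ 2 := by ring
        _ ≤ _ := h2
    refine le_trans (measure_mono hsub2) ?_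
    have hfin : (volume.restrict (Set.Icc (-3:ℝ) 3)) {x | g ^ 2 / 4 ≤ (Phi β r h M c x) ^ 2} ≠ ⊤ := by
      apply ne_of_lt
      calc _ ≤ (volume.restrict (Set.Icc (-3:ℝ) 3)) Set.univ := measure_mono (Set.subset_univ _)
        _ < ⊤ := by
          rw [Measure.restrict_apply_univ]
          exact measure_Icc_lt_top
    rw [← ENNReal.ofReal_toReal hfin]
    exact ENNReal.ofReal_le_ofReal hk

/-- The criterion. -/
theorem singular_of_hasSeq {β : ℝ} (hβ : 3 / 2 ≤ β) (hseq : HasSeq β) :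
    (bernoulliConvolution β⁻¹).MutuallySingular (volume : Measure ℝ) := by
  apply mutuallySingular_of_sets
  intro η0 hη0
  obtain ⟨η, hηdef⟩ : ∃ η, η = min η0 1 := ⟨_, rfl⟩
  have hη : 0 < η := by
    rw [hηdef]
    exact lt_min hη0 one_pos
  have hη1 : η ≤ 1 := by
    rw [hηdef]
    exact min_le_right _ _
  have hηη : η ≤ η0 := by
    rw [hηdef]
    exact min_le_left _ _
  obtain ⟨δ, hδdef⟩ : ∃ δ, δ = η ^ 2 / 66240 := ⟨_, rfl⟩
  have hδ : 0 < δ := by
    rw [hδdef]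
    positivity
  obtain ⟨r, v, e, W, h, hh, hr, hadm, hW, hg, h1, h2⟩ := hseq δ hδ
  set g := |muProd β r v h| with hgdef
  have hg1 : g ≤ 1 := abs_muProd_le β r v h
  have hg2 : 0 < g ^ 2 := by positivity
  have hg21 : g ^ 2 ≤ 1 := by
    have := pow_le_pow_left₀ hg.le hg1 2
    simpa using this
  have hgη : 0 < g ^ 2 * η := by positivity
  have hgη1 : g ^ 2 * η ≤ 1 := by nlinarith
  obtain ⟨M, hMdef⟩ : ∃ M : ℕ, M = ⌈68 / (g ^ 2 * η)⌉₊ := ⟨_, rfl⟩
  have hMge : 68 / (g ^ 2 * η) ≤ M := by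
    rw [hMdef]
    exact Nat.le_ceil _
  have hMlt : (M:ℝ) < 68 / (g ^ 2 * η) + 1 := by
    rw [hMdef]
    exact Nat.ceil_lt_add_one (by positivity)
  have hinv : 1 ≤ 1 / (g ^ 2 * η) := by
    rw [le_div_iff₀ hgη]
    linarith
  have hMle : (M:ℝ) ≤ 69 / (g ^ 2 * η) := by
    have e1 : 69 / (g ^ 2 * η) = 68 / (g ^ 2 * η) + 1 / (g ^ 2 * η) := by ring
    rw [e1]
    linarith
  have hM68 : (68:ℝ) ≤ M * (g ^ 2 * η) := by
    rwa [div_le_iff₀ hgη] at hMge
  have hMpos : (0:ℝ) < M := by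
    by_contra hcon
    push Not at hcon
    have : (M:ℝ) * (g ^ 2 * η) ≤ 0 := mul_nonpos_of_nonpos_of_nonneg hcon hgη.le
    linarith
  have hM1 : 1 ≤ M := by
    have : 0 < M := by exact_mod_cast hMpos
    omega
  obtain ⟨S, hSm, hS1, hS2⟩ := level_bounds (M := M) hβ hh hM1 hr hadm hW hg
  rw [← hgdef] at hS1 hS2
  refine ⟨S, hSm, le_trans hS1 (ENNReal.ofReal_le_ofReal ?_), le_trans hS2 (ENNReal.ofReal_le_ofReal ?_)⟩
  · -- coins
    refine le_trans ?_ hηη
    have hβ0 : 0 < β := by linarith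
    have hbh : 0 < β ^ h := by positivity
    have hpi : π ^ 2 ≤ 10 := by nlinarith [Real.pi_lt_d2, Real.pi_pos]
    have hpi0 : 0 ≤ π ^ 2 := by positivity
    set det := 3 * (|r| + |v|) / β ^ h with hdet
    have hdet0 : 0 ≤ det := by positivity
    have hdetle : det ≤ 3 * (δ * g) := by
      have e1 : det = 3 * ((|r| + |v|) / β ^ h) := by
        rw [hdet]
        ring
      rw [e1]
      linarith
    have hdet2 : det ^ 2 ≤ 9 * δ ^ 2 * g ^ 2 := by
      have := pow_le_pow_left₀ hdet0 hdetle 2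
      calc det ^ 2 ≤ (3 * (δ * g)) ^ 2 := this
        _ = _ := by ring
    have hhe : (h:ℝ) * e ^ 2 ≤ δ * g ^ 2 * g ^ 2 := by
      calc (h:ℝ) * e ^ 2 ≤ δ * g ^ 4 := h2
        _ = _ := by ring
    have hδη : δ ≤ η / 66240 := by
      rw [hδdef]
      have : η ^ 2 ≤ η := by nlinarith
      linarith
    -- three terms
    have t1 : (4 / g ^ 2) * (4 * π ^ 2 * det ^ 2) ≤ η / 3 := by
      have h3 : 4 * π ^ 2 * det ^ 2 ≤ 4 * 10 * (9 * δ ^ 2 * g ^ 2) := by
        have := mul_le_mul hpi hdet2 (sq_nonneg _) (by norm_num)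
        nlinarith
      have h4 := mul_le_mul_of_nonneg_left h3 (by positivity : (0:ℝ) ≤ 4 / g ^ 2)
      refine le_trans h4 ?_
      have e2 : (4 / g ^ 2) * (4 * 10 * (9 * δ ^ 2 * g ^ 2)) = 1440 * δ ^ 2 := by
        field_simp
        ring
      rw [e2]
      have h5 : δ ^ 2 ≤ (η / 66240) * (η / 66240) := by
        rw [sq]
        exact mul_le_mul hδη hδη hδ.le (by positivity)
      have h6 : (η / 66240) * (η / 66240) ≤ η / 66240 / 66240 := by
        have : η * η ≤ η := by nlinarith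
        have e3 : (η / 66240) * (η / 66240) = (η * η) / 66240 / 66240 := by ring
        rw [e3]
        linarith
      linarith
    have t2 : (4 / g ^ 2) * (8 * π ^ 2 * (M * (h * e ^ 2))) ≤ η / 3 := by
      have h3 : (M:ℝ) * ((h:ℝ) * e ^ 2) ≤ (69 / (g ^ 2 * η)) * (δ * g ^ 2 * g ^ 2) :=
        mul_le_mul hMle hhe (by positivity) (by positivity)
      have e2 : (69 / (g ^ 2 * η)) * (δ * g ^ 2 * g ^ 2) = 69 * (δ / η) * g ^ 2 := by
        field_simp
      rw [e2] at h3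
      have h4 : 8 * π ^ 2 * (M * (h * e ^ 2)) ≤ 8 * 10 * (69 * (δ / η) * g ^ 2) := by
        apply mul_le_mul _ h3 (by positivity) (by norm_num)
        linarith
      have h5 := mul_le_mul_of_nonneg_left h4 (by positivity : (0:ℝ) ≤ 4 / g ^ 2)
      refine le_trans h5 ?_
      have e3 : (4 / g ^ 2) * (8 * 10 * (69 * (δ / η) * g ^ 2)) = 22080 * (δ / η) := by
        field_simp
        ring
      rw [e3]
      have e4 : δ / η = η / 66240 := by
        rw [hδdef]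
        field_simp
      rw [e4]
      linarith
    have t3 : (4 / g ^ 2) * (2 / (M:ℝ)) ≤ η / 3 := by
      have e2 : (4 / g ^ 2) * (2 / (M:ℝ)) = 8 / (M * g ^ 2) := by
        field_simp
        ring
      rw [e2, div_le_iff₀ (by positivity)]
      nlinarith
    calc (4 / g ^ 2) * (4 * π ^ 2 * det ^ 2 + 8 * π ^ 2 * (M * (h * e ^ 2)) + 2 / (M:ℝ))
        = (4 / g ^ 2) * (4 * π ^ 2 * det ^ 2) + (4 / g ^ 2) * (8 * π ^ 2 * (M * (h * e ^ 2)))
          + (4 / g ^ 2) * (2 / (M:ℝ)) := by ring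
      _ ≤ η := by linarith
  · -- Lebesgue
    refine le_trans ?_ hηη
    have e2 : (4 / g ^ 2) * (17 / (M:ℝ)) = 68 / (M * g ^ 2) := by
      field_simp
      ring
    rw [e2, div_le_iff₀ (by positivity)]
    nlinarith

end Crest.Agent.Lib.Salem
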