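import Crest.Agent.Lib.Salem.Defs
import Crest.Agent.Lib.Salem.Coins

/-!
# S0137: deterministic decomposition of `cos (π r β^n x)` along a coin sequence.
-/

set_option autoImplicit false

namespace Crest.Agent.Lib.Salem

open Real Finset
open Crest.AnalysisR

lemma abs_sg (b : Bool) : |sg b| = 1 := by cases b <;> simp

lemma signed_eq (c : ℝ) (w : ℕ → Bool) : signedPowerSum c w = ∑' n, sg (w n) * c ^ n := by
  unfold signedPowerSum
  apply tsum_congr
  intro n
  cases w n <;> simp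

lemma summable_sg_mul {c : ℝ} (hc0 : 0 ≤ c) (hc1 : c < 1) (a : ℕ → ℝ) (ha : ∀ n, |a n| ≤ 1)
    (k : ℕ) : Summable fun n => a n * c ^ (n + k) := by
  have hg : Summable (fun n : ℕ => c ^ n * c ^ k) :=
    (summable_geometric_of_lt_one hc0 hc1).mul_right _
  refine Summable.of_norm_bounded hg ?_
  intro n
  rw [norm_mul, Real.norm_eq_abs, norm_pow, Real.norm_eq_abs, abs_of_nonneg hc0, pow_add]
  have h1 : 0 ≤ c ^ n * c ^ k := by positivity
  calc |a n| * (c ^ n * c ^ k) ≤ 1 * (c ^ n * c ^ k) :=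
        mul_le_mul_of_nonneg_right (ha n) h1
    _ = c ^ n * c ^ k := one_mul _

/-- `T a = ∑ a_i c^{i+1}`; bounded by 2 for `c ≤ 2/3`. -/
lemma abs_tsum_le_two {c : ℝ} (hc0 : 0 ≤ c) (hc1 : c ≤ 2 / 3) (a : ℕ → ℝ) (ha : ∀ n, |a n| ≤ 1) :
    |∑' i, a i * c ^ (i + 1)| ≤ 2 := by
  have hc1' : c < 1 := by linarith
  have hg : HasSum (fun n : ℕ => c ^ n * c) ((1 - c)⁻¹ * c) :=
    (hasSum_geometric_of_lt_one hc0 hc1').mul_right c
  have h := tsum_of_norm_bounded hg (f := fun i => a i * c ^ (i + 1)) ?_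
  · rw [Real.norm_eq_abs] at h
    refine le_trans h ?_
    have h1 : 0 < 1 - c := by linarith
    rw [inv_mul_le_iff₀ h1]
    linarith
  · intro n
    rw [norm_mul, Real.norm_eq_abs, norm_pow, Real.norm_eq_abs, abs_of_nonneg hc0, pow_succ]
    have h1 : 0 ≤ c ^ n * c := by positivity
    calc |a n| * (c ^ n * c) ≤ 1 * (c ^ n * c) := mul_le_mul_of_nonneg_right (ha n) h1
      _ = c ^ n * c := one_mul _

lemma geom_two_thirds {c : ℝ} (hc0 : 0 ≤ c) (hc1 : c ≤ 2 / 3) (N : ℕ) :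
    ∑ l ∈ range N, c ^ l ≤ 3 := by
  have h1 : ∀ N : ℕ, ∑ l ∈ range N, c ^ l ≤ 3 - 3 * c ^ N := by
    intro N
    induction N with
    | zero => simp
    | succ N ih =>
      rw [Finset.sum_range_succ, pow_succ]
      have h2 : 0 ≤ c ^ N := by positivity
      have h3 : 0 ≤ (2 - 3 * c) * c ^ N := mul_nonneg (by linarith) h2
      nlinarith
  have h2 : 0 ≤ c ^ N := by positivity
  linarith [h1 N]

/-- The truncated pattern. -/
noncomputable def Ufn (β r v : ℝ) (h n : ℕ) (w : ℕ → Bool) : ℝ :=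
  ∑ i ∈ range h, sg (w (n + 1 + i)) * (r / β ^ (i + 1))
    - ∑ j ∈ range h, sg (w (n - j)) * (v / β ^ j)

/-- The random walk in the complex coordinate. -/
noncomputable def Cfn (W : ℕ → ℝ) (n : ℕ) (w : ℕ → Bool) : ℝ :=
  ∑ j ∈ range (n + 1), sg (w (n - j)) * W j

lemma cos_int_sum (S : Finset ℕ) (I : ℕ → ℤ) (b : ℕ → Bool) (u : ℝ) :
    cos (π * (∑ j ∈ S, sg (b j) * (I j : ℝ) + u)) = (∏ j ∈ S, cos (π * (I j : ℝ))) * cos (π * u) := by
  classical
  induction S using Finset.induction_on with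
  | empty => simp
  | insert j S hj ih =>
    rw [Finset.sum_insert hj, Finset.prod_insert hj, mul_assoc, ← ih]
    have e : π * (sg (b j) * (I j : ℝ) + ∑ j ∈ S, sg (b j) * (I j : ℝ) + u)
        = sg (b j) * ((I j : ℝ) * π) + π * (∑ j ∈ S, sg (b j) * (I j : ℝ) + u) := by ring
    rw [e, Real.cos_add]
    have hs : sin (sg (b j) * ((I j : ℝ) * π)) = 0 := by
      cases b j
      · simp only [sg_false, neg_mul, one_mul, Real.sin_neg, Real.sin_int_mul_pi, neg_zero]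
      · simp only [sg_true, one_mul, Real.sin_int_mul_pi]
    have hc : cos (sg (b j) * ((I j : ℝ) * π)) = cos (π * (I j : ℝ)) := by
      rw [mul_comm π]
      cases b j
      · simp only [sg_false, neg_mul, one_mul, Real.cos_neg]
      · simp only [sg_true, one_mul]
    rw [hs, hc]
    ring

/-- Exact formula: expansion of `r β^n x` along the coins. -/
lemma mul_signed_eq {β r : ℝ} (hβ : 3 / 2 ≤ β) (n : ℕ) (w : ℕ → Bool) :
    (r * β ^ n) * signedPowerSum β⁻¹ w =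
      ∑ j ∈ range (n + 1), sg (w (n - j)) * (r * β ^ j)
        + r * ∑' i, sg (w (n + 1 + i)) * (β⁻¹) ^ (i + 1) := by
  have hβ0 : 0 < β := by linarith
  have hc0 : 0 ≤ β⁻¹ := by positivity
  have hc1 : β⁻¹ ≤ 2 / 3 := by
    rw [inv_le_comm₀ hβ0 (by norm_num)]
    norm_num
    linarith
  have hc1' : β⁻¹ < 1 := by linarith
  have hs : Summable fun m => sg (w m) * (β⁻¹) ^ m := by
    have := summable_sg_mul hc0 hc1' (fun m => sg (w m)) (fun m => (abs_sg _).le) 0
    simpa using this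
  rw [signed_eq, ← hs.sum_add_tsum_nat_add (n + 1), mul_add]
  congr 1
  · rw [Finset.mul_sum, ← Finset.sum_range_reflect]
    apply Finset.sum_congr rfl
    intro j hj
    have hj' : j ≤ n := by
      have := Finset.mem_range.mp hj
      omega
    have e1 : n + 1 - 1 - j = n - j := by omega
    rw [e1]
    have e2 : β ^ n = β ^ j * β ^ (n - j) := by
      rw [← pow_add]
      congr 1
      omega
    rw [e2, inv_pow]
    have : β ^ (n - j) ≠ 0 := pow_ne_zero _ hβ0.ne'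
    field_simp
  · have key : β ^ n * ∑' i, sg (w (i + (n + 1))) * (β⁻¹) ^ (i + (n + 1))
        = ∑' i, sg (w (n + 1 + i)) * (β⁻¹) ^ (i + 1) := by
      rw [← tsum_mul_left]
      apply tsum_congr
      intro i
      rw [add_comm i (n + 1)]
      have e : (β⁻¹) ^ (n + 1 + i) = (β⁻¹) ^ n * (β⁻¹) ^ (i + 1) := by
        rw [← pow_add]
        congr 1
        omega
      rw [e, inv_pow β n]
      have : β ^ n ≠ 0 := pow_ne_zero _ hβ0.ne'
      field_simp
    calc (r * β ^ n) * ∑' i, sg (w (i + (n + 1))) * (β⁻¹) ^ (i + (n + 1))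
        = r * (β ^ n * ∑' i, sg (w (i + (n + 1))) * (β⁻¹) ^ (i + (n + 1))) := by ring
      _ = _ := by rw [key]

/-- Splitting of the future part. -/
lemma future_split {β : ℝ} (hβ : 3 / 2 ≤ β) (h k : ℕ) (w : ℕ → Bool) :
    ∃ t : ℝ, |t| ≤ 2 / β ^ h ∧ ∑' i, sg (w (k + i)) * (β⁻¹) ^ (i + 1)
      = ∑ i ∈ range h, sg (w (k + i)) * (1 / β ^ (i + 1)) + t := by
  have hβ0 : 0 < β := by linarith
  have hc0 : 0 ≤ β⁻¹ := by positivity
  have hc1 : β⁻¹ ≤ 2 / 3 := by
    rw [inv_le_comm₀ hβ0 (by norm_num)]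
    norm_num
    linarith
  have hc1' : β⁻¹ < 1 := by linarith
  have hsub : Summable fun i => sg (w (k + i)) * (β⁻¹) ^ (i + 1) :=
    summable_sg_mul hc0 hc1' (fun i => sg (w (k + i))) (fun m => (abs_sg _).le) 1
  refine ⟨(β⁻¹) ^ h * ∑' i, sg (w (k + (i + h))) * (β⁻¹) ^ (i + 1), ?_, ?_⟩
  · rw [abs_mul, abs_of_nonneg (by positivity : (0:ℝ) ≤ (β⁻¹) ^ h), inv_pow]
    have h1 := abs_tsum_le_two hc0 hc1 (fun i => sg (w (k + (i + h)))) (fun m => (abs_sg _).le)
    have h2 : (0:ℝ) ≤ (β ^ h)⁻¹ := by positivity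
    calc (β ^ h)⁻¹ * |∑' i, sg (w (k + (i + h))) * (β⁻¹) ^ (i + 1)| ≤ (β ^ h)⁻¹ * 2 :=
          mul_le_mul_of_nonneg_left h1 h2
      _ = 2 / β ^ h := by ring
  · rw [← hsub.sum_add_tsum_nat_add h]
    congr 1
    · apply Finset.sum_congr rfl
      intro i _
      rw [inv_pow, one_div]
    · rw [← tsum_mul_left]
      apply tsum_congr
      intro i
      have e : (β⁻¹) ^ (i + h + 1) = (β⁻¹) ^ h * (β⁻¹) ^ (i + 1) := by
        rw [← pow_add]
        congr 1
        omega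
      rw [e]
      ring

/-- Splitting of the past part. -/
lemma past_split {β v : ℝ} (hβ : 3 / 2 ≤ β) {h n : ℕ} (hn : h ≤ n) (w : ℕ → Bool) :
    ∃ t : ℝ, |t| ≤ 3 * |v| / β ^ h ∧ ∑ j ∈ range (n + 1), sg (w (n - j)) * (v / β ^ j)
      = ∑ j ∈ range h, sg (w (n - j)) * (v / β ^ j) + t := by
  have hβ0 : 0 < β := by linarith
  have hc0 : 0 ≤ β⁻¹ := by positivity
  have hc1 : β⁻¹ ≤ 2 / 3 := by
    rw [inv_le_comm₀ hβ0 (by norm_num)]
    norm_num
    linarith
  obtain ⟨N, hN⟩ : ∃ N, n + 1 = h + N := Nat.exists_eq_add_of_le (by omega)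
  refine ⟨∑ l ∈ range N, sg (w (n - (h + l))) * (v / β ^ (h + l)), ?_, ?_⟩
  · have h1 : |∑ l ∈ range N, sg (w (n - (h + l))) * (v / β ^ (h + l))|
        ≤ ∑ l ∈ range N, |v| / β ^ h * (β⁻¹) ^ l := by
      refine le_trans (Finset.abs_sum_le_sum_abs _ _) ?_
      apply Finset.sum_le_sum
      intro l _
      rw [abs_mul, abs_sg, one_mul, abs_div, abs_of_pos (pow_pos hβ0 _), pow_add, inv_pow]
      apply le_of_eq
      field_simp
    refine le_trans h1 ?_
    rw [← Finset.mul_sum]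
    have h2 := geom_two_thirds hc0 hc1 N
    have h3 : 0 ≤ |v| / β ^ h := by positivity
    calc |v| / β ^ h * ∑ l ∈ range N, (β⁻¹) ^ l ≤ |v| / β ^ h * 3 :=
          mul_le_mul_of_nonneg_left h2 h3
      _ = 3 * |v| / β ^ h := by ring
  · rw [hN, Finset.sum_range_add]

/-- Main decomposition. -/
lemma cos_decomp {β r v : ℝ} {W : ℕ → ℝ} {I : ℕ → ℤ} (hβ : 3 / 2 ≤ β)
    (hI : ∀ j, r * β ^ j + v / β ^ j + W j = I j) {h n : ℕ} (hn : h ≤ n) (w : ℕ → Bool) :
    ∃ ρ : ℝ, |ρ| ≤ 3 * (|r| + |v|) / β ^ h ∧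
      cos (π * (r * β ^ n) * signedPowerSum β⁻¹ w)
        = (∏ j ∈ range (n + 1), cos (π * (I j : ℝ))) * cos (π * (Ufn β r v h n w + ρ - Cfn W n w)) := by
  have hβ0 : 0 < β := by linarith
  have hbh : 0 < β ^ h := by positivity
  obtain ⟨t₁, ht₁, hfut⟩ := future_split hβ h (n + 1) w
  obtain ⟨t₂, ht₂, hpast⟩ := past_split (v := v) hβ hn w
  refine ⟨r * t₁ - t₂, ?_, ?_⟩
  · have h1 : |r * t₁ - t₂| ≤ |r| * |t₁| + |t₂| := by
      rw [← abs_mul]
      exact abs_sub _ _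
    have h2 : |r| * |t₁| ≤ |r| * (2 / β ^ h) := mul_le_mul_of_nonneg_left ht₁ (abs_nonneg r)
    have h3 : |r| * (2 / β ^ h) ≤ 3 * |r| / β ^ h := by
      rw [mul_div_assoc', div_le_div_iff_of_pos_right hbh]
      nlinarith [abs_nonneg r]
    have h4 : 3 * (|r| + |v|) / β ^ h = 3 * |r| / β ^ h + 3 * |v| / β ^ h := by ring
    rw [h4]
    linarith
  · rw [← cos_int_sum (range (n + 1)) I (fun j => w (n - j))]
    congr 1
    have e0 : π * (r * β ^ n) * signedPowerSum β⁻¹ w = π * ((r * β ^ n) * signedPowerSum β⁻¹ w) := by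
      ring
    rw [e0]
    congr 1
    rw [mul_signed_eq hβ n w, hfut]
    have e1 : ∀ j, r * β ^ j = (I j : ℝ) - v / β ^ j - W j := by
      intro j
      rw [← hI j]
      ring
    have e2 : ∑ j ∈ range (n + 1), sg (w (n - j)) * (r * β ^ j)
        = ∑ j ∈ range (n + 1), sg (w (n - j)) * (I j : ℝ)
          - ∑ j ∈ range (n + 1), sg (w (n - j)) * (v / β ^ j)
          - ∑ j ∈ range (n + 1), sg (w (n - j)) * W j := by
      rw [← Finset.sum_sub_distrib, ← Finset.sum_sub_distrib]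
      apply Finset.sum_congr rfl
      intro j _
      rw [e1 j]
      ring
    rw [e2, hpast]
    unfold Ufn Cfn
    have e3 : r * ∑ i ∈ range h, sg (w (n + 1 + i)) * (1 / β ^ (i + 1))
        = ∑ i ∈ range h, sg (w (n + 1 + i)) * (r / β ^ (i + 1)) := by
      rw [Finset.mul_sum]
      apply Finset.sum_congr rfl
      intro i _
      ring
    rw [mul_add, e3]
    ring

end Crest.Agent.Lib.Salem
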