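import Crest.Agent.Lib.Salem.Step

/-!
# S0137: iterating the recursion; the output of the recursion (`HasSeq`).
-/

set_option autoImplicit false

namespace Crest.Agent.Lib.Salem

open Real Finset

lemma Grob_nonneg {β r v τ : ℝ} (hτ : 0 ≤ τ) (H : ℕ) : 0 ≤ Grob β r v τ H := by
  unfold Grob
  exact mul_nonneg (Finset.prod_nonneg fun i _ => rc_nonneg hτ _)
    (Finset.prod_nonneg fun i _ => rc_nonneg hτ _)

lemma Grob_le_one {β r v τ : ℝ} (hτ : 0 ≤ τ) (H : ℕ) : Grob β r v τ H ≤ 1 := by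
  unfold Grob
  have h1 : ∏ i ∈ range H, rc τ (r / β ^ (i + 1)) ≤ 1 :=
    Finset.prod_le_one (fun i _ => rc_nonneg hτ _) (fun i _ => rc_le_one _ _)
  have h2 : ∏ i ∈ range H, rc τ (v / β ^ i) ≤ 1 :=
    Finset.prod_le_one (fun i _ => rc_nonneg hτ _) (fun i _ => rc_le_one _ _)
  have h3 : 0 ≤ ∏ i ∈ range H, rc τ (v / β ^ i) :=
    Finset.prod_nonneg fun i _ => rc_nonneg hτ _
  calc _ ≤ (1:ℝ) * 1 := mul_le_mul h1 h2 h3 (by norm_num)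
    _ = 1 := by norm_num

/-- Iterating the step. -/
theorem exists_levels {β : ℝ} {ω : ℂ} (hc : Core β ω) {r₀ v₀ : ℝ} {ζ₀ : ℂ} {H₀ A₀ : ℕ} {D₀ : ℝ}
    (hG₀ : Good β ω r₀ v₀ ζ₀ H₀ A₀ D₀) (i : ℕ) :
    ∃ (r v : ℝ) (ζ : ℂ) (H A : ℕ) (D : ℝ), Good β ω r v ζ H A D ∧
      4000 * ‖ζ‖ ≤ (4000 * ‖ζ₀‖) ^ (3 ^ i) ∧
      ((1 / 2) * Grob β r₀ v₀ (4 * ‖ζ₀‖) H₀) ^ (2 ^ i) ≤ (1 / 2) * Grob β r v (4 * ‖ζ‖) H := by
  induction i with
  | zero => exact ⟨r₀, v₀, ζ₀, H₀, A₀, D₀, hG₀, by simp, by simp⟩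
  | succ i ih =>
    obtain ⟨r, v, ζ, H, A, D, hG, hy, hw⟩ := ih
    obtain ⟨r', v', ζ', H', A', D', hG', h1, h2⟩ := step hc hG
    refine ⟨r', v', ζ', H', A', D', hG', ?_, ?_⟩
    · have h3 : (4000 * ‖ζ‖) ^ 3 ≤ ((4000 * ‖ζ₀‖) ^ (3 ^ i)) ^ 3 :=
        pow_le_pow_left₀ (by positivity) hy 3
      rw [← pow_mul] at h3
      have h4 : 3 ^ (i + 1) = 3 ^ i * 3 := pow_succ 3 i
      rw [h4]
      refine le_trans ?_ h3
      have h5 : 0 ≤ ‖ζ‖ ^ 3 := by positivity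
      have h6 : (4000 * ‖ζ‖) ^ 3 = 64000000000 * ‖ζ‖ ^ 3 := by ring
      rw [h6]
      linarith
    · have hw0 : 0 ≤ ((1 / 2) * Grob β r₀ v₀ (4 * ‖ζ₀‖) H₀) ^ (2 ^ i) := by
        have : 0 ≤ Grob β r₀ v₀ (4 * ‖ζ₀‖) H₀ := Grob_nonneg (by positivity) _
        positivity
      have h3 : (((1 / 2) * Grob β r₀ v₀ (4 * ‖ζ₀‖) H₀) ^ (2 ^ i)) ^ 2
          ≤ ((1 / 2) * Grob β r v (4 * ‖ζ‖) H) ^ 2 := pow_le_pow_left₀ hw0 hw 2
      rw [← pow_mul] at h3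
      have h4 : 2 ^ (i + 1) = 2 ^ i * 2 := pow_succ 2 i
      rw [h4]
      refine le_trans h3 ?_
      have h5 : ((1 / 2) * Grob β r v (4 * ‖ζ‖) H) ^ 2
          = (1 / 2) * ((1 / 2) * (Grob β r v (4 * ‖ζ‖) H) ^ 2) := by ring
      rw [h5]
      linarith

/-- Lower bound for a tail product of cosines. -/
lemma tail_prod_ge {β x : ℝ} (hβ : 3 / 2 ≤ β) (hx : 20 * |x| ≤ 1) (ℓ : ℕ) (s : ℕ)
    (c : ℝ) (hc : (1 / 80) * ∑ l ∈ range ℓ, ((4:ℝ) / 9) ^ (l + s) ≤ c) (hc1 : c ≤ 1) :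
    1 - c ≤ ∏ l ∈ range ℓ, |cos (π * (x / β ^ (l + s)))| := by
  have hβ0 : 0 < β := by linarith
  set a : ℕ → ℝ := fun l => (1 / 80) * ((4:ℝ) / 9) ^ (l + s) with ha
  have hsum : ∑ l ∈ range ℓ, a l ≤ c := by
    simp only [ha]
    rw [← Finset.mul_sum]
    exact hc
  have h := one_sub_sum_le_prod (range ℓ) a (fun l => |cos (π * (x / β ^ (l + s)))|)
    (fun l _ => by simp only [ha]; positivity) (by linarith) ?_
  · linarith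
  · intro l _
    set y := x / β ^ (l + s) with hy
    have h1 : |y| ≤ (1 / 20) * (1 / β ^ (l + s)) := by
      rw [hy, abs_div, abs_of_pos (pow_pos hβ0 _)]
      have : |x| ≤ 1 / 20 := by linarith
      calc |x| / β ^ (l + s) ≤ (1 / 20) / β ^ (l + s) :=
            div_le_div_of_nonneg_right this (pow_pos hβ0 _).le
        _ = (1 / 20) * (1 / β ^ (l + s)) := by ring
    have h2 := sq_le_of_abs_le_div hβ h1
    have h3 := rc_le_abs_cos (le_refl (0:ℝ)) y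
    have h4 : 1 - 5 * (nd y + 0) ^ 2 ≤ rcU (nd y + 0) :=
      one_sub_le_rcU (by have := nd_nonneg y; linarith)
    have h5 : (nd y + 0) ^ 2 ≤ y ^ 2 := by
      rw [add_zero, ← sq_abs y]
      exact pow_le_pow_left₀ (nd_nonneg y) (nd_le_abs y) 2
    have h6 : rc 0 y = rcU (nd y + 0) := rfl
    rw [h6] at h3
    have h7 : a l = (1 / 80) * ((4:ℝ) / 9) ^ (l + s) := rfl
    rw [h7]
    show _ ≤ |cos (π * y)|
    linarith

/-- From one good level with small `ε / G⁵` we get the data required for `HasSeq`. -/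
theorem output_of_good {β : ℝ} {ω : ℂ} (hc : Core β ω) {r v : ℝ} {ζ : ℂ} {H A : ℕ} {D : ℝ}
    (hG : Good β ω r v ζ H A D) {δ : ℝ} (hδ0 : 0 < δ) (hδ1 : δ ≤ 1)
    (hGpos : 0 < Grob β r v (4 * ‖ζ‖) H)
    (hsmall : 192 * ‖ζ‖ ≤ δ ^ 2 * (Grob β r v (4 * ‖ζ‖) H) ^ 5) :
    ∃ (r v e : ℝ) (W : ℕ → ℝ) (h : ℕ),
      1 ≤ h ∧ 1 ≤ |r| ∧
      (∀ j : ℕ, ∃ I : ℤ, r * β ^ j + v / β ^ j + W j = I) ∧
      (∀ j : ℕ, |W j| ≤ e) ∧
      0 < |muProd β r v h| ∧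
      (|r| + |v|) / β ^ h ≤ δ * |muProd β r v h| ∧
      (h : ℝ) * e ^ 2 ≤ δ * |muProd β r v h| ^ 4 := by
  have hβ := hc.β_ge
  have hβ0 : 0 < β := by linarith
  have hβ1 : 1 ≤ β := by linarith
  have hω := hc.norm_ω
  have hε0 : 0 < ‖ζ‖ := hG.eps_pos
  have hε1 : ‖ζ‖ ≤ 1 / 10000 := hG.eps_le
  set ε := ‖ζ‖ with hε
  have hτ0 : 0 ≤ 4 * ε := by positivity
  set G := Grob β r v (4 * ε) H with hGdef
  have hG1 : G ≤ 1 := Grob_le_one hτ0 H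
  have hδG : 0 < δ * G := by positivity
  have hδG1 : δ * G ≤ 1 := by nlinarith
  obtain ⟨ℓ, hℓ⟩ : ∃ ℓ : ℕ, ℓ = ⌈1 / (δ * G)⌉₊ := ⟨_, rfl⟩
  have hℓ1 : 1 / (δ * G) ≤ ℓ := by
    rw [hℓ]
    exact Nat.le_ceil _
  have hℓ2 : (ℓ : ℝ) < 1 / (δ * G) + 1 := by
    rw [hℓ]
    exact Nat.ceil_lt_add_one (by positivity)
  have hrle := hG.r_le
  have hvle := hG.v_le
  have hbH : 0 < β ^ H := by positivity
  -- lower bound for the amplitude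
  have hμ : G / 2 ≤ |muProd β r v (H + ℓ)| := by
    unfold muProd
    rw [abs_mul, Finset.abs_prod, Finset.abs_prod, Finset.prod_range_add, Finset.prod_range_add]
    have hrx : 20 * |r / β ^ H| ≤ 1 := by
      rw [abs_div_pow hβ0, ← mul_div_assoc, div_le_one hbH]
      exact hrle
    have hvx : 20 * |v / β ^ H| ≤ 1 := by
      rw [abs_div_pow hβ0, ← mul_div_assoc, div_le_one hbH]
      exact hvle
    have h1 : ∏ i ∈ range H, rc (4 * ε) (r / β ^ (i + 1)) ≤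
        ∏ i ∈ range H, |cos (π * (r / β ^ (i + 1)))| :=
      Finset.prod_le_prod (fun i _ => rc_nonneg hτ0 _) (fun i _ => rc_le_abs_cos hτ0 _)
    have h2 : ∏ i ∈ range H, rc (4 * ε) (v / β ^ i) ≤
        ∏ i ∈ range H, |cos (π * (v / β ^ i))| :=
      Finset.prod_le_prod (fun i _ => rc_nonneg hτ0 _) (fun i _ => rc_le_abs_cos hτ0 _)
    have h3 : 1 - 1 / 50 ≤ ∏ l ∈ range ℓ, |cos (π * (r / β ^ (H + l + 1)))| := by
      have := tail_prod_ge hβ hrx ℓ 1 (1 / 50) (by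
        have := geom49_succ_le ℓ
        linarith) (by norm_num)
      refine le_trans this (le_of_eq ?_)
      apply Finset.prod_congr rfl
      intro l _
      congr 3
      rw [div_div, ← pow_add]
      congr 2
    have h4 : 1 - 1 / 40 ≤ ∏ l ∈ range ℓ, |cos (π * (v / β ^ (H + l)))| := by
      have := tail_prod_ge hβ hvx ℓ 0 (1 / 40) (by
        have := geom49_le ℓ
        simpa using (by linarith : (1 / 80) * ∑ l ∈ range ℓ, ((4:ℝ) / 9) ^ l ≤ 1 / 40))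
        (by norm_num)
      refine le_trans this (le_of_eq ?_)
      apply Finset.prod_congr rfl
      intro l _
      congr 3
      rw [div_div, ← pow_add]
      congr 2
    set PR := ∏ i ∈ range H, rc (4 * ε) (r / β ^ (i + 1)) with hPR
    set PV := ∏ i ∈ range H, rc (4 * ε) (v / β ^ i) with hPV
    have hPR0 : 0 ≤ PR := Finset.prod_nonneg fun i _ => rc_nonneg hτ0 _
    have hPV0 : 0 ≤ PV := Finset.prod_nonneg fun i _ => rc_nonneg hτ0 _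
    have hGe : G = PR * PV := rfl
    have h5 := mul_le_mul h1 h3 (by norm_num) (le_trans hPR0 h1)
    have h6 := mul_le_mul h2 h4 (by norm_num) (le_trans hPV0 h2)
    have h7 := mul_le_mul h5 h6 (mul_nonneg hPV0 (by norm_num)) (le_trans (mul_nonneg hPR0 (by norm_num)) h5)
    refine le_trans ?_ h7
    have e1 : PR * (1 - 1 / 50) * (PV * (1 - 1 / 40)) = G * ((1 - 1 / 50) * (1 - 1 / 40)) := by
      rw [hGe]; ring
    rw [e1]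
    have hG0 : 0 ≤ G := hGpos.le
    nlinarith
  have hG2 : 0 < G / 2 := by positivity
  have hμ0 : 0 < |muProd β r v (H + ℓ)| := lt_of_lt_of_le hG2 hμ
  refine ⟨r, v, 2 * ε, fun j => 2 * (ζ * ω ^ j).re, H + ℓ, ?_, hG.r_one, hG.adm, ?_, hμ0, ?_, ?_⟩
  · have := hG.H_pos
    omega
  · intro j
    exact abs_W_le hω ζ j
  · -- first inequality
    have h1 : |r| + |v| ≤ β ^ H / 10 := by linarith
    have h2 : (3 / 2 : ℝ) ^ ℓ ≤ β ^ ℓ := pow_le_pow_left₀ (by norm_num) hβ ℓ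
    have h3 : 1 + (ℓ : ℝ) * (1 / 2) ≤ (1 + 1 / 2 : ℝ) ^ ℓ :=
      one_add_mul_le_pow (by norm_num) ℓ
    have h4 : (ℓ : ℝ) / 2 ≤ β ^ ℓ := by
      norm_num at h3
      linarith
    have hbℓ : 0 < β ^ ℓ := by positivity
    have h5 : 1 ≤ (δ * G) * (ℓ : ℝ) := by
      rw [div_le_iff₀ hδG] at hℓ1
      linarith
    have h6 : 1 / 2 ≤ (δ * G) * β ^ ℓ := by
      have := mul_le_mul_of_nonneg_left h4 hδG.le
      have e : (δ * G) * ((ℓ : ℝ) / 2) = ((δ * G) * (ℓ : ℝ)) / 2 := by ring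
      rw [e] at this
      linarith
    rw [pow_add, div_le_iff₀ (by positivity)]
    have h7 : δ * (G / 2) ≤ δ * |muProd β r v (H + ℓ)| :=
      mul_le_mul_of_nonneg_left hμ hδ0.le
    have h8 : (δ * (G / 2)) * (β ^ H * β ^ ℓ) ≤ (δ * |muProd β r v (H + ℓ)|) * (β ^ H * β ^ ℓ) :=
      mul_le_mul_of_nonneg_right h7 (by positivity)
    refine le_trans ?_ h8
    have e2 : (δ * (G / 2)) * (β ^ H * β ^ ℓ) = β ^ H * (((δ * G) * β ^ ℓ) / 2) := by ring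
    rw [e2]
    have h9 : β ^ H * (1 / 4) ≤ β ^ H * (((δ * G) * β ^ ℓ) / 2) :=
      mul_le_mul_of_nonneg_left (by linarith) hbH.le
    linarith
  · -- second inequality
    have hHε := hG.H_eps
    rw [← hε] at hHε
    push_cast
    have h1 : (H : ℝ) * ε ^ 2 ≤ ε := by
      have : (H : ℝ) * ε ^ 2 = ((H : ℝ) * ε) * ε := by ring
      rw [this]
      nlinarith
    have hinv : 1 ≤ 1 / (δ * G) := by
      rw [le_div_iff₀ hδG]
      linarith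
    have h2 : (ℓ : ℝ) * ε ^ 2 ≤ (1 / (δ * G) + 1) * ε := by
      have h3 : (ℓ : ℝ) * ε ^ 2 ≤ (1 / (δ * G) + 1) * ε ^ 2 :=
        mul_le_mul_of_nonneg_right hℓ2.le (by positivity)
      have h4 : ε ^ 2 ≤ ε := by nlinarith
      have h5 : (1 / (δ * G) + 1) * ε ^ 2 ≤ (1 / (δ * G) + 1) * ε :=
        mul_le_mul_of_nonneg_left h4 (by positivity)
      linarith
    have h3 : ((H : ℝ) + ℓ) * (2 * ε) ^ 2 ≤ 12 * (ε * (1 / (δ * G))) := by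
      have e : ((H : ℝ) + ℓ) * (2 * ε) ^ 2 = 4 * ((H : ℝ) * ε ^ 2 + (ℓ : ℝ) * ε ^ 2) := by ring
      rw [e]
      have h6 : ε * 1 ≤ ε * (1 / (δ * G)) := mul_le_mul_of_nonneg_left hinv hε0.le
      have h7 : (1 / (δ * G) + 1) * ε = ε * (1 / (δ * G)) + ε := by ring
      rw [h7] at h2
      linarith
    refine le_trans h3 ?_
    have h4 : (G / 2) ^ 4 ≤ |muProd β r v (H + ℓ)| ^ 4 := pow_le_pow_left₀ hG2.le hμ 4
    have h5 : δ * (G / 2) ^ 4 ≤ δ * |muProd β r v (H + ℓ)| ^ 4 :=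
      mul_le_mul_of_nonneg_left h4 hδ0.le
    refine le_trans ?_ h5
    have h6 : ε * (1 / (δ * G)) ≤ (δ ^ 2 * G ^ 5 / 192) * (1 / (δ * G)) :=
      mul_le_mul_of_nonneg_right (by linarith) (by positivity)
    have h7 : (δ ^ 2 * G ^ 5 / 192) * (1 / (δ * G)) = δ * G ^ 4 / 192 := by
      field_simp
    rw [h7] at h6
    have h8 : δ * (G / 2) ^ 4 = δ * G ^ 4 / 16 := by ring
    rw [h8]
    linarith

lemma three_pow_ge (i : ℕ) : (i + 2) * 2 ^ i ≤ 2 * 3 ^ i := by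
  induction i with
  | zero => norm_num
  | succ i ih =>
    have h1 : 2 ^ (i + 1) = 2 * 2 ^ i := by ring
    have h2 : 3 ^ (i + 1) = 3 * 3 ^ i := by ring
    rw [h1, h2]
    nlinarith [Nat.zero_le (2 ^ i), Nat.zero_le (i * 2 ^ i)]

/-- The recursion gives `HasSeq`, from any good start with positive amplitude. -/
theorem hasSeq_of_good {β : ℝ} {ω : ℂ} (hc : Core β ω) {r₀ v₀ : ℝ} {ζ₀ : ℂ} {H₀ A₀ : ℕ} {D₀ : ℝ}
    (hG₀ : Good β ω r₀ v₀ ζ₀ H₀ A₀ D₀) (hGpos : 0 < Grob β r₀ v₀ (4 * ‖ζ₀‖) H₀) :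
    HasSeq β := by
  intro δ₀ hδ₀
  obtain ⟨δ, hδdef⟩ : ∃ δ, δ = min δ₀ 1 := ⟨_, rfl⟩
  have hδ0 : 0 < δ := by
    rw [hδdef]
    exact lt_min hδ₀ one_pos
  have hδ1 : δ ≤ 1 := by
    rw [hδdef]
    exact min_le_right _ _
  have hδδ : δ ≤ δ₀ := by
    rw [hδdef]
    exact min_le_left _ _
  have hε00 := hG₀.eps_pos
  have hε01 := hG₀.eps_le
  obtain ⟨y, hy⟩ : ∃ y, y = 4000 * ‖ζ₀‖ := ⟨_, rfl⟩
  have hy0 : 0 < y := by
    rw [hy]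
    positivity
  have hy1 : y < 1 := by
    rw [hy]
    linarith
  obtain ⟨w, hw⟩ : ∃ w, w = (1 / 2) * Grob β r₀ v₀ (4 * ‖ζ₀‖) H₀ := ⟨_, rfl⟩
  have hw0 : 0 < w := by
    rw [hw]
    positivity
  obtain ⟨L, hL⟩ := exists_pow_lt_of_lt_one (show 0 < w ^ 5 / 2 by positivity) hy1
  obtain ⟨n, hn⟩ := exists_pow_lt_of_lt_one (show 0 < δ ^ 2 by positivity)
    (show (1 / 2 : ℝ) < 1 by norm_num)
  obtain ⟨i, hi⟩ : ∃ i, i = 2 * L + n := ⟨_, rfl⟩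
  obtain ⟨r, v, ζ, H, A, D, hG, hyi, hwi⟩ := exists_levels hc hG₀ i
  rw [← hy] at hyi
  rw [← hw] at hwi
  have hε0 := hG.eps_pos
  have hτ0 : 0 ≤ 4 * ‖ζ‖ := by positivity
  have hG0 : 0 ≤ Grob β r v (4 * ‖ζ‖) H := Grob_nonneg hτ0 H
  have hwi0 : 0 < w ^ (2 ^ i) := by positivity
  have hGi : w ^ (2 ^ i) ≤ Grob β r v (4 * ‖ζ‖) H := by linarith
  have hGpos' : 0 < Grob β r v (4 * ‖ζ‖) H := lt_of_lt_of_le hwi0 hGi
  -- the exponents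
  have h3 : L * 2 ^ i ≤ 3 ^ i := by
    have h1 := three_pow_ge i
    have h2 : (2 * L) * 2 ^ i ≤ (i + 2) * 2 ^ i :=
      Nat.mul_le_mul_right _ (by omega)
    have h4 : 2 * (L * 2 ^ i) ≤ 2 * 3 ^ i := by
      calc 2 * (L * 2 ^ i) = (2 * L) * 2 ^ i := by ring
        _ ≤ (i + 2) * 2 ^ i := h2
        _ ≤ 2 * 3 ^ i := h1
    omega
  have h4 : n ≤ 2 ^ i := by
    have : i < 2 ^ i := Nat.lt_two_pow_self
    omega
  have h5 : y ^ (3 ^ i) ≤ (y ^ L) ^ (2 ^ i) := by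
    rw [← pow_mul]
    exact pow_le_pow_of_le_one hy0.le hy1.le h3
  have h6 : (y ^ L) ^ (2 ^ i) ≤ (w ^ 5 / 2) ^ (2 ^ i) :=
    pow_le_pow_left₀ (by positivity) hL.le _
  have h7 : (w ^ 5 / 2) ^ (2 ^ i) = (w ^ (2 ^ i)) ^ 5 * (1 / 2) ^ (2 ^ i) := by
    rw [div_eq_mul_one_div, mul_pow, ← pow_mul, ← pow_mul, mul_comm 5]
  have h8 : ((1:ℝ) / 2) ^ (2 ^ i) ≤ δ ^ 2 := by
    have : ((1:ℝ) / 2) ^ (2 ^ i) ≤ (1 / 2) ^ n :=
      pow_le_pow_of_le_one (by norm_num) (by norm_num) h4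
    linarith
  have h9 : (w ^ (2 ^ i)) ^ 5 ≤ (Grob β r v (4 * ‖ζ‖) H) ^ 5 :=
    pow_le_pow_left₀ hwi0.le hGi 5
  have hsmall : 192 * ‖ζ‖ ≤ δ ^ 2 * (Grob β r v (4 * ‖ζ‖) H) ^ 5 := by
    have h10 : 4000 * ‖ζ‖ ≤ (w ^ (2 ^ i)) ^ 5 * (1 / 2) ^ (2 ^ i) := by
      calc 4000 * ‖ζ‖ ≤ y ^ (3 ^ i) := hyi
        _ ≤ (y ^ L) ^ (2 ^ i) := h5
        _ ≤ (w ^ 5 / 2) ^ (2 ^ i) := h6
        _ = _ := h7
    have h11 : (w ^ (2 ^ i)) ^ 5 * (1 / 2) ^ (2 ^ i) ≤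
        (Grob β r v (4 * ‖ζ‖) H) ^ 5 * δ ^ 2 :=
      mul_le_mul h9 h8 (by positivity) (by positivity)
    have h12 : 192 * ‖ζ‖ ≤ 4000 * ‖ζ‖ := by
      have := hε0.le
      linarith
    rw [mul_comm (δ ^ 2)]
    linarith
  obtain ⟨r', v', e, W, h, h1, h2, h3', h4', h5', h6', h7'⟩ :=
    output_of_good hc hG hδ0 hδ1 hGpos' hsmall
  refine ⟨r', v', e, W, h, h1, h2, h3', h4', h5', ?_, ?_⟩
  · refine le_trans h6' ?_
    exact mul_le_mul_of_nonneg_right hδδ (abs_nonneg _)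
  · refine le_trans h7' ?_
    exact mul_le_mul_of_nonneg_right hδδ (by positivity)

/-- The recursion, from explicit base data. -/
theorem hasSeq_of_base {β : ℝ} {ω : ℂ} (hc : Core β ω) {r₀ v₀ : ℝ} {ζ₀ : ℂ} {H₀ : ℕ}
    (hadm : Adm β ω r₀ v₀ ζ₀) (hH : 1 ≤ H₀) (hH' : H₀ ≤ 33) (hr₁ : 1 ≤ |r₀|)
    (hr : 20 * |r₀| ≤ β ^ H₀) (hv : 20 * |v₀| ≤ β ^ H₀) (hnorm : 1 ≤ |r₀| * |v₀| * ‖ζ₀‖ ^ 2)
    (hε : ‖ζ₀‖ ≤ 1 / 10000) (hGpos : 0 < Grob β r₀ v₀ (4 * ‖ζ₀‖) H₀) : HasSeq β := by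
  have hε0 : 0 < ‖ζ₀‖ := by
    rcases (norm_nonneg ζ₀).lt_or_eq with h1 | h1
    · exact h1
    · rw [← h1] at hnorm
      norm_num at hnorm
  have hQ := Qf_ge hε0 hε
  have hH'R : (H₀ : ℝ) ≤ 33 := by exact_mod_cast hH'
  refine hasSeq_of_good hc (A₀ := 0) (D₀ := 1) ⟨hadm, hr₁, hr, hv, hnorm, hε, hH, one_pos, ?_, ?_, ?_, ?_, ?_⟩ hGpos
  · intro q h1 h2
    omega
  · have := Real.pi_lt_d2
    linarith
  · have : (H₀ : ℝ) ≤ Qf ‖ζ₀‖ := by linarith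
    exact_mod_cast this
  · have h1 : (H₀ : ℝ) * ‖ζ₀‖ ≤ 33 * (1 / 10000) :=
      mul_le_mul hH'R hε hε0.le (by norm_num)
    linarith
  · omega

end Crest.Agent.Lib.Salem
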