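import Crest.Agent.Lib.Salem.Defs

/-!
# S0137: the robust cosine `rc`.
-/

set_option autoImplicit false

namespace Crest.Agent.Lib.Salem

open Real Finset

lemma nd_nonneg (x : ℝ) : 0 ≤ nd x := abs_nonneg _

lemma nd_le_abs_sub_int (x : ℝ) (n : ℤ) : nd x ≤ |x - n| := round_le x n

lemma nd_le_abs (x : ℝ) : nd x ≤ |x| := by simpa using nd_le_abs_sub_int x 0

lemma nd_le_half (x : ℝ) : nd x ≤ 1 / 2 := abs_sub_round x

lemma nd_add_le (x d : ℝ) : nd (x + d) ≤ nd x + |d| := by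
  calc nd (x + d) ≤ |x + d - round x| := nd_le_abs_sub_int _ _
    _ = |(x - round x) + d| := by ring_nf
    _ ≤ |x - round x| + |d| := abs_add_le _ _
    _ = nd x + |d| := rfl

lemma nd_neg_le (x : ℝ) : nd (-x) ≤ nd x := by
  calc nd (-x) ≤ |-x - ((- round x : ℤ) : ℝ)| := nd_le_abs_sub_int _ _
    _ = |x - round x| := by
        push_cast
        rw [← abs_neg]
        ring_nf
    _ = nd x := rfl

lemma nd_neg (x : ℝ) : nd (-x) = nd x := by
  apply le_antisymm (nd_neg_le x)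
  simpa using nd_neg_le (-x)

lemma nd_sub_int_le (x : ℝ) (n : ℤ) : nd (x - n) ≤ nd x := by
  calc nd (x - n) ≤ |x - n - ((round x - n : ℤ) : ℝ)| := nd_le_abs_sub_int _ _
    _ = |x - round x| := by
        push_cast
        ring_nf
    _ = nd x := rfl

lemma nd_sub_int (x : ℝ) (n : ℤ) : nd (x - n) = nd x := by
  apply le_antisymm (nd_sub_int_le x n)
  have := nd_sub_int_le (x - n) (-n)
  simpa using this

/-- `cos (π min(1/2, u))`. -/
noncomputable def rcU (u : ℝ) : ℝ := cos (π * min (1 / 2) u)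

lemma rc_eq (τ x : ℝ) : rc τ x = rcU (nd x + τ) := rfl

lemma rcU_anti {u u' : ℝ} (hu : 0 ≤ u) (h : u ≤ u') : rcU u' ≤ rcU u := by
  unfold rcU
  apply Real.cos_le_cos_of_nonneg_of_le_pi
  · have : 0 ≤ min (1 / 2 : ℝ) u := le_min (by norm_num) hu
    positivity
  · have : min (1 / 2 : ℝ) u' ≤ 1 / 2 := min_le_left _ _
    nlinarith [Real.pi_pos]
  · have : min (1 / 2 : ℝ) u ≤ min (1 / 2 : ℝ) u' := min_le_min le_rfl h
    exact mul_le_mul_of_nonneg_left this Real.pi_pos.le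

lemma rcU_nonneg {u : ℝ} (hu : 0 ≤ u) : 0 ≤ rcU u := by
  unfold rcU
  have h0 : 0 ≤ min (1 / 2 : ℝ) u := le_min (by norm_num) hu
  have h1 : min (1 / 2 : ℝ) u ≤ 1 / 2 := min_le_left _ _
  apply Real.cos_nonneg_of_neg_pi_div_two_le_of_le
  · nlinarith [Real.pi_pos]
  · nlinarith [Real.pi_pos]

lemma rcU_le_one (u : ℝ) : rcU u ≤ 1 := Real.cos_le_one _

lemma one_sub_le_rcU {u : ℝ} (hu : 0 ≤ u) : 1 - 5 * u ^ 2 ≤ rcU u := by
  unfold rcU
  have hpi : π ^ 2 ≤ 10 := by nlinarith [Real.pi_lt_d2, Real.pi_pos]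
  by_cases h : u ≤ 1 / 2
  · rw [min_eq_right h]
    have := Real.one_sub_sq_div_two_le_cos (x := π * u)
    have h2 : (π * u) ^ 2 / 2 ≤ 5 * u ^ 2 := by
      have : (π * u) ^ 2 = π ^ 2 * u ^ 2 := by ring
      rw [this]
      nlinarith [sq_nonneg u]
    linarith
  · push Not at h
    rw [min_eq_left h.le]
    have : π * (1 / 2) = π / 2 := by ring
    rw [this, Real.cos_pi_div_two]
    nlinarith

lemma rc_nonneg {τ : ℝ} (hτ : 0 ≤ τ) (x : ℝ) : 0 ≤ rc τ x :=
  rcU_nonneg (add_nonneg (nd_nonneg x) hτ)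

lemma rc_le_one (τ x : ℝ) : rc τ x ≤ 1 := rcU_le_one _

/-- Comparison principle for the robust cosine. -/
lemma rc_le_rc {τ τ' x x' : ℝ} (hτ : 0 ≤ τ) (h : nd x + τ ≤ nd x' + τ') : rc τ' x' ≤ rc τ x :=
  rcU_anti (add_nonneg (nd_nonneg x) hτ) h

lemma abs_cos_pi_eq (x : ℝ) : |cos (π * x)| = cos (π * nd x) := by
  have h1 : π * x = π * (x - round x) + (round x : ℤ) * π := by ring
  rw [h1, Real.cos_add_int_mul_pi, abs_mul, abs_zpow, abs_neg, abs_one, one_zpow, one_mul]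
  unfold nd
  have h2 : π * |x - round x| = |π * (x - round x)| := by
    rw [abs_mul, abs_of_pos Real.pi_pos]
  rw [h2, Real.cos_abs]
  apply abs_of_nonneg
  have h3 := nd_le_half x
  unfold nd at h3
  have h4 := abs_le.mp h3
  apply Real.cos_nonneg_of_neg_pi_div_two_le_of_le
  · nlinarith [Real.pi_pos]
  · nlinarith [Real.pi_pos]

/-- The robust cosine is a lower bound of the true one. -/
lemma rc_le_abs_cos {τ : ℝ} (hτ : 0 ≤ τ) (x : ℝ) : rc τ x ≤ |cos (π * x)| := by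
  rw [abs_cos_pi_eq, rc_eq]
  have h := rcU_anti (nd_nonneg x) (show nd x ≤ nd x + τ by linarith)
  have h2 : rcU (nd x) = cos (π * nd x) := by
    unfold rcU
    rw [min_eq_right (nd_le_half x)]
  rw [← h2]
  exact h

/-- Weierstrass' product inequality, in the form we use. -/
lemma one_sub_sum_le_prod {ι : Type*} (s : Finset ι) (a f : ι → ℝ)
    (ha : ∀ i ∈ s, 0 ≤ a i) (hs : ∑ i ∈ s, a i ≤ 1) (hf : ∀ i ∈ s, 1 - a i ≤ f i) :
    1 - ∑ i ∈ s, a i ≤ ∏ i ∈ s, f i := by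
  classical
  induction s using Finset.induction_on with
  | empty => simp
  | insert i s hi ih =>
    rw [Finset.sum_insert hi] at hs ⊢
    rw [Finset.prod_insert hi]
    have hai := ha i (Finset.mem_insert_self i s)
    have hsum : 0 ≤ ∑ j ∈ s, a j :=
      Finset.sum_nonneg fun j hj => ha j (Finset.mem_insert_of_mem hj)
    have ih' := ih (fun j hj => ha j (Finset.mem_insert_of_mem hj)) (by linarith)
      (fun j hj => hf j (Finset.mem_insert_of_mem hj))
    have hfi := hf i (Finset.mem_insert_self i s)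
    have h1 : 0 ≤ 1 - a i := by linarith
    have h2 : 0 ≤ 1 - ∑ j ∈ s, a j := by linarith
    have h3 : (1 - a i) * (1 - ∑ j ∈ s, a j) ≤ f i * ∏ j ∈ s, f j :=
      mul_le_mul hfi ih' h2 (le_trans h1 hfi)
    nlinarith [mul_nonneg hai hsum]

end Crest.Agent.Lib.Salem
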