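import Crest.Agent.Lib.Salem.Amplitude

/-!
# S0137: Dirichlet selection and one step of the recursion.
-/

set_option autoImplicit false

namespace Crest.Agent.Lib.Salem

open Real Finset

/-- Dirichlet's theorem for the powers of a unit complex number. -/
lemma dirichlet_norm {ω : ℂ} (hω : ‖ω‖ = 1) (Q : ℕ) (hQ : 1 ≤ Q) :
    ∃ q : ℕ, 1 ≤ q ∧ q ≤ Q ∧ ‖1 - ω ^ q‖ ≤ 2 * π / Q := by
  set θ := Complex.arg ω with hθ
  have hexp : ω = Complex.exp (θ * Complex.I) := by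
    have := Complex.norm_mul_exp_arg_mul_I ω
    rw [hω] at this
    simpa using this.symm
  obtain ⟨j, k, hk0, hkQ, hjk⟩ := Real.exists_int_int_abs_mul_sub_le (θ / (2 * π))
    (n := Q) (by omega)
  obtain ⟨q, rfl⟩ : ∃ q : ℕ, k = q := ⟨k.toNat, (Int.toNat_of_nonneg hk0.le).symm⟩
  have hq1 : 1 ≤ q := by exact_mod_cast hk0
  have hqQ : q ≤ Q := by exact_mod_cast hkQ
  refine ⟨q, hq1, hqQ, ?_⟩
  set x : ℝ := q * θ - 2 * π * j with hx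
  have hpow : ω ^ q = Complex.exp (Complex.I * (x : ℂ)) := by
    have h1 : Complex.I * (x : ℂ) = (q : ℂ) * (θ * Complex.I) + (-(j : ℂ)) * (2 * π * Complex.I) := by
      rw [hx]
      push_cast
      ring
    rw [h1, Complex.exp_add]
    have h2 : Complex.exp ((-(j : ℂ)) * (2 * π * Complex.I)) = 1 := by
      have := Complex.exp_int_mul_two_pi_mul_I (-j)
      push_cast at this
      exact this
    rw [h2, mul_one, Complex.exp_nat_mul, ← hexp]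
  have hnorm : ‖1 - ω ^ q‖ ≤ |x| := by
    rw [norm_sub_rev, hpow]
    have := Real.norm_exp_I_mul_ofReal_sub_one_le (x := x)
    simpa using this
  have hxabs : |x| = 2 * π * |(q : ℝ) * (θ / (2 * π)) - j| := by
    have h3 : x = 2 * π * ((q : ℝ) * (θ / (2 * π)) - j) := by
      rw [hx]
      field_simp
    rw [h3, abs_mul, abs_of_pos (by positivity : (0:ℝ) < 2 * π)]
  have hjk' : |(q : ℝ) * (θ / (2 * π)) - j| ≤ 1 / (Q + 1) := by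
    simpa using hjk
  refine le_trans hnorm ?_
  rw [hxabs]
  have hQpos : (0:ℝ) < Q := by exact_mod_cast hQ
  have h4 : 1 / ((Q:ℝ) + 1) ≤ 1 / Q := one_div_le_one_div_of_le hQpos (by linarith)
  calc 2 * π * |(q : ℝ) * (θ / (2 * π)) - j| ≤ 2 * π * (1 / Q) :=
        mul_le_mul_of_nonneg_left (le_trans hjk' h4) (by positivity)
    _ = 2 * π / Q := by ring

lemma norm_one_sub_pow_le {x : ℂ} (hx : ‖x‖ = 1) (m : ℕ) : ‖1 - x ^ m‖ ≤ m * ‖1 - x‖ := by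
  induction m with
  | zero => simp
  | succ m ih =>
    have h1 : 1 - x ^ (m + 1) = (1 - x ^ m) + x ^ m * (1 - x) := by ring
    rw [h1]
    calc ‖(1 - x ^ m) + x ^ m * (1 - x)‖ ≤ ‖1 - x ^ m‖ + ‖x ^ m * (1 - x)‖ := norm_add_le _ _
      _ = ‖1 - x ^ m‖ + ‖1 - x‖ := by rw [norm_mul, norm_pow, hx, one_pow, one_mul]
      _ ≤ m * ‖1 - x‖ + ‖1 - x‖ := by linarith
      _ = ((m + 1 : ℕ) : ℝ) * ‖1 - x‖ := by push_cast; ring

/-- The Dirichlet parameter at level `ε`. -/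
noncomputable def Qf (ε : ℝ) : ℕ := ⌊(1 / 8000) / ε ^ 2⌋₊

lemma Qf_mul_le {ε : ℝ} (h0 : 0 < ε) : (Qf ε : ℝ) * ε ^ 2 ≤ 1 / 8000 := by
  have h2 : 0 < ε ^ 2 := by positivity
  have h : ((Qf ε : ℕ) : ℝ) ≤ (1 / 8000) / ε ^ 2 := Nat.floor_le (by positivity)
  calc (Qf ε : ℝ) * ε ^ 2 ≤ ((1 / 8000) / ε ^ 2) * ε ^ 2 := mul_le_mul_of_nonneg_right h h2.le
    _ = 1 / 8000 := by field_simp

lemma eps_sq_le {ε : ℝ} (h0 : 0 < ε) (h1 : ε ≤ 1 / 10000) : ε ^ 2 ≤ 1 / 100000000 := by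
  have : ε ^ 2 ≤ (1 / 10000 : ℝ) ^ 2 := pow_le_pow_left₀ h0.le h1 2
  norm_num at this ⊢
  linarith

lemma le_Qf_mul {ε : ℝ} (h0 : 0 < ε) (h1 : ε ≤ 1 / 10000) : 1 / 16000 ≤ (Qf ε : ℝ) * ε ^ 2 := by
  have h2 : 0 < ε ^ 2 := by positivity
  have h3 := eps_sq_le h0 h1
  have h := Nat.lt_floor_add_one ((1 / 8000) / ε ^ 2)
  have h4 : ((1 / 8000) / ε ^ 2) * ε ^ 2 ≤ ((Qf ε : ℝ) + 1) * ε ^ 2 :=
    mul_le_mul_of_nonneg_right h.le h2.le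
  have h5 : ((1 / 8000) / ε ^ 2) * ε ^ 2 = 1 / 8000 := by field_simp
  rw [h5] at h4
  have h6 : ((Qf ε : ℝ) + 1) * ε ^ 2 = (Qf ε : ℝ) * ε ^ 2 + ε ^ 2 := by ring
  rw [h6] at h4
  linarith

lemma Qf_ge {ε : ℝ} (h0 : 0 < ε) (h1 : ε ≤ 1 / 10000) : (6250 : ℝ) ≤ Qf ε := by
  have h2 := le_Qf_mul h0 h1
  have h3 := eps_sq_le h0 h1
  have h4 : (0:ℝ) ≤ Qf ε := by positivity
  have h5 : (Qf ε : ℝ) * ε ^ 2 ≤ (Qf ε : ℝ) * (1 / 100000000) :=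
    mul_le_mul_of_nonneg_left h3 h4
  linarith

/-- The invariant of the recursion. -/
structure Good (β : ℝ) (ω : ℂ) (r v : ℝ) (ζ : ℂ) (H A : ℕ) (D : ℝ) : Prop where
  adm : Adm β ω r v ζ
  r_one : 1 ≤ |r|
  r_le : 20 * |r| ≤ β ^ H
  v_le : 20 * |v| ≤ β ^ H
  norm : 1 ≤ |r| * |v| * ‖ζ‖ ^ 2
  eps_le : ‖ζ‖ ≤ 1 / 10000
  H_pos : 1 ≤ H
  D_pos : 0 < D
  D_min : ∀ q : ℕ, 1 ≤ q → q ≤ A → D ≤ ‖1 - ω ^ q‖
  D_Q : 2 * π < D * Qf ‖ζ‖
  H_Q : H ≤ Qf ‖ζ‖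
  H_eps : (H : ℝ) * ‖ζ‖ ≤ 1
  H_A : 3 * H ≤ 100 * (A + 1)

lemma Good.eps_pos {β : ℝ} {ω : ℂ} {r v : ℝ} {ζ : ℂ} {H A : ℕ} {D : ℝ}
    (h : Good β ω r v ζ H A D) : 0 < ‖ζ‖ := by
  rcases (norm_nonneg ζ).lt_or_eq with h1 | h1
  · exact h1
  · have := h.norm
    rw [← h1] at this
    norm_num at this

/-! Arithmetic lemmas. -/

lemma arith_delta {ε δ Q : ℝ} (hδ : 0 ≤ δ) (hQ : 1 / 16000 ≤ Q * ε ^ 2)
    (hδQ : δ * Q ≤ 2 * π) : δ ≤ 100800 * ε ^ 2 := by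
  have hε : 0 ≤ ε ^ 2 := by positivity
  have h1 : δ * (1 / 16000) ≤ δ * (Q * ε ^ 2) := mul_le_mul_of_nonneg_left hQ hδ
  have h2 : δ * (Q * ε ^ 2) = (δ * Q) * ε ^ 2 := by ring
  have h3 : (δ * Q) * ε ^ 2 ≤ (2 * π) * ε ^ 2 := mul_le_mul_of_nonneg_right hδQ hε
  have h4 : (2 * π) * ε ^ 2 ≤ 6.3 * ε ^ 2 := by
    apply mul_le_mul_of_nonneg_right _ hε
    have := Real.pi_lt_d2
    linarith
  rw [h2] at h1
  norm_num at h1 h3 h4 ⊢
  linarith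

lemma arith_Dnext {ε ε' δ Q' : ℝ} (hε0 : 0 ≤ ε) (hε : ε ^ 2 ≤ 1 / 100000000) (hδ0 : 0 < δ)
    (hδ : δ ≤ 100800 * ε ^ 2) (hε' : ε' ≤ ε * (101 * δ)) (hε'0 : 0 ≤ ε') (hQ'0 : 0 ≤ Q')
    (hQ' : 1 / 16000 ≤ Q' * ε' ^ 2) : 2 * π < δ * Q' := by
  have h1 : ε' ^ 2 ≤ (ε * (101 * δ)) ^ 2 := pow_le_pow_left₀ hε'0 hε' 2
  have h2 : Q' * ε' ^ 2 ≤ Q' * (ε * (101 * δ)) ^ 2 := mul_le_mul_of_nonneg_left h1 hQ'0
  set X := δ * Q' with hX
  have hX0 : 0 ≤ X := by positivity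
  have h3 : Q' * (ε * (101 * δ)) ^ 2 = X * (10201 * (ε ^ 2 * δ)) := by
    rw [hX]; ring
  have h4 : ε ^ 2 * δ ≤ (1 / 100000000) * (100800 * (1 / 100000000)) := by
    have e0 : 0 ≤ ε ^ 2 := by positivity
    have h5 : δ ≤ 100800 * (1 / 100000000) := by linarith
    exact mul_le_mul hε h5 hδ0.le (by norm_num)
  have h5 : X * (10201 * (ε ^ 2 * δ)) ≤ X * (10201 * ((1 / 100000000) * (100800 * (1 / 100000000)))) :=
    mul_le_mul_of_nonneg_left (by linarith) hX0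
  have h6 := Real.pi_lt_d2
  rw [h3] at h2
  by_contra hcon
  push Not at hcon
  have h7 : X * (10201 * ((1 / 100000000) * (100800 * (1 / 100000000)))) ≤
      (2 * π) * (10201 * ((1 / 100000000) * (100800 * (1 / 100000000)))) :=
    mul_le_mul_of_nonneg_right hcon (by norm_num)
  norm_num at h2 h5 h7 hQ'
  linarith

lemma arith_Qnext {ε ε' Q Q' : ℝ} (hε0 : 0 < ε) (hε : ε ^ 2 ≤ 1 / 100000000) (hε'0 : 0 ≤ ε')
    (hε' : ε' ≤ 11000000 * ε ^ 3) (hQ : Q * ε ^ 2 ≤ 1 / 8000) (hQ'0 : 0 ≤ Q')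
    (hQ' : 1 / 16000 ≤ Q' * ε' ^ 2) : 5 * Q ≤ Q' := by
  have h2 : 0 < ε ^ 2 := by positivity
  have h1 : ε' ^ 2 ≤ (11000000 * ε ^ 3) ^ 2 := pow_le_pow_left₀ hε'0 hε' 2
  have h3 : Q' * ε' ^ 2 ≤ Q' * (11000000 * ε ^ 3) ^ 2 := mul_le_mul_of_nonneg_left h1 hQ'0
  have h4 : (11000000 * ε ^ 3) ^ 2 = 121000000000000 * (ε ^ 2 * ε ^ 2) * ε ^ 2 := by ring
  have h5 : ε ^ 2 * ε ^ 2 ≤ (1 / 100000000) * (1 / 100000000) :=
    mul_le_mul hε hε h2.le (by norm_num)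
  set Y := Q' * ε ^ 2 with hY
  have hY0 : 0 ≤ Y := by positivity
  have h6 : Q' * (11000000 * ε ^ 3) ^ 2 = Y * (121000000000000 * (ε ^ 2 * ε ^ 2)) := by
    rw [h4, hY]; ring
  have h7 : Y * (121000000000000 * (ε ^ 2 * ε ^ 2)) ≤
      Y * (121000000000000 * ((1 / 100000000) * (1 / 100000000))) :=
    mul_le_mul_of_nonneg_left (by linarith) hY0
  rw [h6] at h3
  have h8 : 5 * (Q * ε ^ 2) ≤ Y := by
    norm_num at h7 hQ' h3 hQ ⊢
    linarith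
  have h9 : 5 * Q * ε ^ 2 ≤ Q' * ε ^ 2 := by
    rw [← hY]
    linarith
  exact le_of_mul_le_mul_right h9 h2

lemma arith_hp {R V b ε B : ℝ} (hR0 : 0 ≤ R) (hV0 : 0 ≤ V) (hb : 0 < b) (hε : 0 < ε)
    (hR : 20 * R ≤ b) (hV : 20 * V ≤ b) (hn : 1 ≤ R * V * ε ^ 2) (hB : b ^ 3 ≤ B) :
    (R + V) * b ≤ ε * B := by
  have h1 : R ≤ b / 20 := by linarith
  have h2 : V ≤ b / 20 := by linarith
  have h3 : R * V ≤ (b / 20) * (b / 20) := mul_le_mul h1 h2 hV0 (by positivity)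
  have h4 : R * V * ε ^ 2 ≤ (b / 20) * (b / 20) * ε ^ 2 :=
    mul_le_mul_of_nonneg_right h3 (by positivity)
  have hX0 : 0 < b * ε := by positivity
  have h5 : 400 ≤ (b * ε) ^ 2 := by
    have : (b / 20) * (b / 20) * ε ^ 2 = (b * ε) ^ 2 / 400 := by ring
    rw [this] at h4
    linarith
  have h6 : 20 ≤ b * ε := by
    by_contra hcon
    push Not at hcon
    have : (b * ε) ^ 2 < 20 ^ 2 := pow_lt_pow_left₀ hcon hX0.le (by norm_num)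
    norm_num at this
    linarith
  have hbb : 0 < b ^ 2 := by positivity
  have h7 : ε * b ^ 3 ≤ ε * B := mul_le_mul_of_nonneg_left hB hε.le
  have h8 : ε * b ^ 3 = (b * ε) * b ^ 2 := by ring
  have h9 : 20 * b ^ 2 ≤ (b * ε) * b ^ 2 := mul_le_mul_of_nonneg_right h6 hbb.le
  have h10 : (R + V) * b ≤ (b / 10) * b := mul_le_mul_of_nonneg_right (by linarith) hb.le
  have h11 : (b / 10) * b = b ^ 2 / 10 := by ring
  rw [h11] at h10
  rw [h8] at h7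
  linarith

/-- One step of the recursion. -/
theorem step {β : ℝ} {ω : ℂ} (hc : Core β ω) {r v : ℝ} {ζ : ℂ} {H A : ℕ} {D : ℝ}
    (hG : Good β ω r v ζ H A D) :
    ∃ (r' v' : ℝ) (ζ' : ℂ) (H' A' : ℕ) (D' : ℝ), Good β ω r' v' ζ' H' A' D' ∧
      ‖ζ'‖ ≤ 11000000 * ‖ζ‖ ^ 3 ∧
      (1 / 2) * (Grob β r v (4 * ‖ζ‖) H) ^ 2 ≤ Grob β r' v' (4 * ‖ζ'‖) H' := by
  have hβ := hc.β_ge
  have hβ0 : 0 < β := by linarith
  have hβ1 : 1 ≤ β := by linarith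
  have hω := hc.norm_ω
  have hε0 : 0 < ‖ζ‖ := hG.eps_pos
  have hε1 : ‖ζ‖ ≤ 1 / 10000 := hG.eps_le
  set ε := ‖ζ‖ with hε
  have hεsq := eps_sq_le hε0 hε1
  have hQ6250 : (6250 : ℝ) ≤ Qf ε := Qf_ge hε0 hε1
  have hQle := Qf_mul_le hε0
  have hQge := le_Qf_mul hε0 hε1
  have hDQ := hG.D_Q
  have hHQ := hG.H_Q
  rw [← hε] at hDQ hHQ
  set Q := Qf ε with hQ
  have hQ1 : 1 ≤ Q := by
    have : (1:ℝ) ≤ Q := by linarith
    exact_mod_cast this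
  have hQpos : (0:ℝ) < Q := by linarith
  -- selection of q
  obtain ⟨q, hqmem, hqmin⟩ := Finset.exists_min_image (Finset.Icc 1 Q) (fun q => ‖1 - ω ^ q‖)
    ⟨1, Finset.mem_Icc.mpr ⟨le_rfl, hQ1⟩⟩
  obtain ⟨hq1, hqQ⟩ := Finset.mem_Icc.mp hqmem
  set δ := ‖1 - ω ^ q‖ with hδ
  have hδQ : δ * Q ≤ 2 * π := by
    obtain ⟨q₁, h1, h2, h3⟩ := dirichlet_norm hω Q hQ1
    have h0 := hqmin q₁ (Finset.mem_Icc.mpr ⟨h1, h2⟩)
    have h4 : δ ≤ 2 * π / Q := le_trans h0 h3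
    rwa [le_div_iff₀ hQpos] at h4
  have hd_pos : ∀ n : ℕ, 1 ≤ n → 0 < ‖1 - ω ^ n‖ := by
    intro n hn
    rcases (norm_nonneg (1 - ω ^ n)).lt_or_eq with h1 | h1
    · exact h1
    · have := hc.liouville n hn
      rw [← h1] at this
      norm_num at this
  have hδ_pos : 0 < δ := hd_pos q hq1
  have hδle := arith_delta hδ_pos.le hQge hδQ
  -- q > A
  have hqA : A < q := by
    by_contra hcon
    push Not at hcon
    have h1 := hG.D_min q hq1 hcon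
    have h3 : D * Q ≤ δ * Q := mul_le_mul_of_nonneg_right h1 hQpos.le
    linarith
  -- m, k
  obtain ⟨m, hm⟩ : ∃ m, m = 3 * H / q + 1 := ⟨_, rfl⟩
  obtain ⟨k, hk⟩ : ∃ k, k = m * q := ⟨_, rfl⟩
  have hq0 : 0 < q := hq1
  have hmod1 := Nat.div_add_mod (3 * H) q
  have hmod2 := Nat.mod_lt (3 * H) hq0
  have hkexp : k = q * (3 * H / q) + q := by
    rw [hk, hm]
    ring
  have hk_ge : 3 * H ≤ k := by omega
  have hk_le : k ≤ 3 * H + q := by omega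
  have hH1 := hG.H_pos
  have hk3 : 3 ≤ k := by omega
  have hk1 : 1 ≤ k := by omega
  have hm_le : m ≤ 101 := by
    have h1 : 3 * H / q ≤ 100 := by
      apply Nat.div_le_of_le_mul
      have := hG.H_A
      nlinarith
    omega
  -- the new level
  set dk := ‖1 - ω ^ k‖ with hdk
  have hdk_pos : 0 < dk := hd_pos k hk1
  have hdk_le : dk ≤ 101 * δ := by
    have hx : ‖ω ^ q‖ = 1 := by rw [norm_pow, hω, one_pow]
    have h1 := norm_one_sub_pow_le hx m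
    have h2 : (ω ^ q) ^ m = ω ^ k := by
      rw [hk, pow_mul']
    rw [h2] at h1
    have h3 : (m : ℝ) ≤ 101 := by exact_mod_cast hm_le
    calc dk ≤ m * δ := h1
      _ ≤ 101 * δ := mul_le_mul_of_nonneg_right h3 hδ_pos.le
  set ζ' := ζ - ζ * ω ^ k with hζ'
  have hnorm' : ‖ζ'‖ = ε * dk := by
    have : ζ' = ζ * (1 - ω ^ k) := by rw [hζ']; ring
    rw [this, norm_mul]
  have hε'0 : 0 < ‖ζ'‖ := by
    rw [hnorm']
    positivity
  have hε'a : ‖ζ'‖ ≤ ε * (101 * δ) := by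
    rw [hnorm']
    exact mul_le_mul_of_nonneg_left hdk_le hε0.le
  have hε'3 : ‖ζ'‖ ≤ 11000000 * ε ^ 3 := by
    refine le_trans hε'a ?_
    have h1 : 101 * δ ≤ 11000000 * ε ^ 2 := by nlinarith [sq_nonneg ε]
    calc ε * (101 * δ) ≤ ε * (11000000 * ε ^ 2) := mul_le_mul_of_nonneg_left h1 hε0.le
      _ = 11000000 * ε ^ 3 := by ring
  have hε'4 : 4 * ‖ζ'‖ ≤ ε := by
    have h1 : ε ^ 3 = ε ^ 2 * ε := by ring
    have h2 : ε ^ 2 * ε ≤ (1 / 100000000) * ε := mul_le_mul_of_nonneg_right hεsq hε0.le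
    rw [h1] at hε'3
    linarith
  have hε'1 : ‖ζ'‖ ≤ 1 / 10000 := by linarith
  have hQ'le := Qf_mul_le hε'0
  have hQ'ge := le_Qf_mul hε'0 hε'1
  have hQ'0 : (0:ℝ) ≤ Qf ‖ζ'‖ := by positivity
  have hQ5 : 5 * (Q:ℝ) ≤ Qf ‖ζ'‖ := arith_Qnext hε0 hεsq hε'0.le hε'3 hQle hQ'0 hQ'ge
  have hHk5 : H + k ≤ 5 * Q := by omega
  have hHk5R : ((H + k : ℕ) : ℝ) ≤ 5 * (Q:ℝ) := by exact_mod_cast hHk5
  have hb2 : (2:ℝ) ≤ β ^ k := by
    have h1 : β ^ 3 ≤ β ^ k := pow_le_pow_right₀ hβ1 hk3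
    have h2 : (3 / 2 : ℝ) ^ 3 ≤ β ^ 3 := pow_le_pow_left₀ (by norm_num) hβ 3
    norm_num at h2
    linarith
  have hbk0 : 0 < β ^ k := by linarith
  have hrp : r - r * β ^ k = r * (1 - β ^ k) := by ring
  have hrpabs : |r - r * β ^ k| = |r| * (β ^ k - 1) := by
    rw [hrp, abs_mul, abs_sub_comm 1, abs_of_nonneg (show (0:ℝ) ≤ β ^ k - 1 by linarith)]
  have hvp : v - v / β ^ k = v * (1 - 1 / β ^ k) := by
    field_simp
  have h1b : 1 / β ^ k ≤ 1 := by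
    rw [div_le_iff₀ hbk0]
    linarith
  have h1b0 : 0 ≤ 1 / β ^ k := by positivity
  have hvpabs : |v - v / β ^ k| = |v| * (1 - 1 / β ^ k) := by
    rw [hvp, abs_mul, abs_of_nonneg (show (0:ℝ) ≤ 1 - 1 / β ^ k by linarith)]
  have hr1 := hG.r_one
  have hrle := hG.r_le
  have hvle := hG.v_le
  have hn := hG.norm
  rw [← hε] at hn
  refine ⟨r - r * β ^ k, v - v / β ^ k, ζ', H + k, Q, δ, ?_, hε'3, ?_⟩
  · refine ⟨?_, ?_, ?_, ?_, ?_, hε'1, by omega, hδ_pos, ?_, ?_, ?_, ?_, ?_⟩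
    · -- adm
      intro j
      obtain ⟨I₁, h₁⟩ := hG.adm j
      obtain ⟨I₂, h₂⟩ := hG.adm (k + j)
      refine ⟨I₁ - I₂, ?_⟩
      push_cast
      rw [← h₁, ← h₂]
      have e : ζ' * ω ^ j = ζ * ω ^ j - ζ * ω ^ (k + j) := by
        rw [hζ', pow_add]
        ring
      rw [e, Complex.sub_re, pow_add β k j]
      have hb : β ^ j ≠ 0 := pow_ne_zero _ hβ0.ne'
      have hb' : β ^ k ≠ 0 := pow_ne_zero _ hβ0.ne'
      field_simp
      ring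
    · -- r_one
      rw [hrpabs]
      have : 1 ≤ β ^ k - 1 := by linarith
      nlinarith
    · -- r_le
      rw [hrpabs, pow_add]
      have h1 : 20 * (|r| * (β ^ k - 1)) ≤ (20 * |r|) * β ^ k := by
        have : 0 ≤ |r| := abs_nonneg r
        nlinarith
      have h2 : (20 * |r|) * β ^ k ≤ β ^ H * β ^ k := mul_le_mul_of_nonneg_right hrle hbk0.le
      linarith
    · -- v_le
      rw [hvpabs, pow_add]
      have h0 : 0 ≤ |v| := abs_nonneg v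
      have h1 : |v| * (1 - 1 / β ^ k) ≤ |v| := by nlinarith
      have hbH : 0 < β ^ H := by positivity
      have h2 : β ^ H * 1 ≤ β ^ H * β ^ k := mul_le_mul_of_nonneg_left (by linarith) hbH.le
      linarith
    · -- norm
      rw [hrpabs, hvpabs, hnorm']
      have hl := hc.liouville k hk1
      have e1 : |r| * (β ^ k - 1) * (|v| * (1 - 1 / β ^ k)) * (ε * dk) ^ 2
          = (|r| * |v| * ε ^ 2) * ((β ^ k + (β ^ k)⁻¹ - 2) * dk ^ 2) := by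
        field_simp
        ring
      rw [e1]
      exact one_le_mul_of_one_le_of_one_le hn hl
    · -- D_min
      intro q' h1 h2
      exact hqmin q' (Finset.mem_Icc.mpr ⟨h1, h2⟩)
    · -- D_Q
      exact arith_Dnext hε0.le hεsq hδ_pos hδle hε'a hε'0.le hQ'0 hQ'ge
    · -- H_Q
      have : ((H + k : ℕ) : ℝ) ≤ Qf ‖ζ'‖ := le_trans hHk5R hQ5
      exact_mod_cast this
    · -- H_eps
      have h1 : ((H + k : ℕ) : ℝ) * ‖ζ'‖ ≤ (5 * (Q:ℝ)) * (11000000 * ε ^ 3) :=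
        mul_le_mul hHk5R hε'3 hε'0.le (by positivity)
      have h2 : (5 * (Q:ℝ)) * (11000000 * ε ^ 3) = 55000000 * (((Q:ℝ) * ε ^ 2) * ε) := by ring
      have h3 : ((Q:ℝ) * ε ^ 2) * ε ≤ (1 / 8000) * (1 / 10000) :=
        mul_le_mul hQle hε1 hε0.le (by norm_num)
      rw [h2] at h1
      norm_num at h3
      linarith
    · -- H_A
      omega
  · -- amplitude
    apply amplitude_step hβ hω hG.adm le_rfl hrle hvle (by omega) ?_ ?_ (by positivity) hε'4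
    · have hb3 : (β ^ H) ^ 3 ≤ β ^ k := by
        rw [← pow_mul]
        exact pow_le_pow_right₀ hβ1 (by omega)
      exact arith_hp (abs_nonneg r) (abs_nonneg v) (by positivity) hε0 hrle hvle hn hb3
    · have h1 : (k:ℝ) ≤ 4 * (Q:ℝ) := by
        have : k ≤ 4 * Q := by omega
        exact_mod_cast this
      have h2 : (k:ℝ) * ε ^ 2 ≤ (4 * (Q:ℝ)) * ε ^ 2 :=
        mul_le_mul_of_nonneg_right h1 (by positivity)
      have h3 : (4 * (Q:ℝ)) * ε ^ 2 = 4 * ((Q:ℝ) * ε ^ 2) := by ring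
      rw [h3] at h2
      linarith

end Crest.Agent.Lib.Salem
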